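import Vale.Agent.P074.Defs

namespace Vale.Agent.P074

open MeasureTheory Set
open scoped RealInnerProductSpace ENNReal

variable {d : ℕ}

lemma enorm_sq_eq (v : E d) : ‖v‖ₑ ^ 2 = ENNReal.ofReal (‖v‖ ^ 2) := by
  rw [← ofReal_norm, ENNReal.ofReal_pow (norm_nonneg _)]

lemma unif_isProb {K : Set (E d)} (hK : IsCompact K) (hi : (interior K).Nonempty) :
    IsProbabilityMeasure (unif K) := by
  constructor
  have h0 : volume K ≠ 0 := by
    have : 0 < volume (interior K) := isOpen_interior.measure_pos _ hi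
    exact (this.trans_le (measure_mono interior_subset)).ne'
  have h1 : volume K ≠ ∞ := hK.measure_lt_top.ne
  simp [unif, ENNReal.inv_mul_cancel h0 h1]

lemma unif_ae_mem {K : Set (E d)} (hK : IsCompact K) : ∀ᵐ x ∂(unif K), x ∈ K := by
  unfold unif
  exact Measure.ae_smul_measure (ae_restrict_mem hK.measurableSet) _

/-- integrability of a continuous function of `(x, T x)` when both stay in compact sets. -/
lemma integrable_comp_pair {ρ : Measure (E d)} [IsFiniteMeasure ρ] {K Y : Set (E d)}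
    (hK : IsCompact K) (hY : IsCompact Y) (hρ : ∀ᵐ x ∂ρ, x ∈ K) {T : E d → E d}
    (hT : Measurable T) (hTY : ∀ᵐ x ∂ρ, T x ∈ Y) {F : E d × E d → ℝ} (hF : Continuous F) :
    Integrable (fun x => F (x, T x)) ρ := by
  obtain ⟨C, hC⟩ := (hK.prod hY).exists_bound_of_continuousOn hF.continuousOn
  refine Integrable.of_bound (C := C) ?_ ?_
  · exact (hF.measurable.comp (measurable_id.prodMk hT)).aestronglyMeasurable
  · filter_upwards [hρ, hTY] with x hx hy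
    exact hC (x, T x) ⟨hx, hy⟩

lemma ae_mem_of_map {ρ μ : Measure (E d)} {Y : Set (E d)} (hY : MeasurableSet Y)
    (hμ : μ Yᶜ = 0) {T : E d → E d} (hT : IsTransportMap ρ μ T) : ∀ᵐ x ∂ρ, T x ∈ Y := by
  have : ρ.map T Yᶜ = 0 := by rw [hT.2]; exact hμ
  rw [Measure.map_apply hT.1 hY.compl] at this
  exact this

lemma lintegral_cost_eq {ρ : Measure (E d)} [IsFiniteMeasure ρ] {K Y : Set (E d)}
    (hK : IsCompact K) (hY : IsCompact Y) (hρ : ∀ᵐ x ∂ρ, x ∈ K) {T : E d → E d}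
    (hT : Measurable T) (hTY : ∀ᵐ x ∂ρ, T x ∈ Y) :
    ∫⁻ x, ‖x - T x‖ₑ ^ 2 ∂ρ = ENNReal.ofReal (∫ x, ‖x - T x‖ ^ 2 ∂ρ) := by
  rw [ofReal_integral_eq_lintegral_ofReal]
  · simp only [enorm_sq_eq]
  · exact integrable_comp_pair hK hY hρ hT hTY (F := fun p => ‖p.1 - p.2‖ ^ 2) (by fun_prop)
  · exact Filter.Eventually.of_forall fun x => by positivity

/-- A map selecting maximizers of `y ↦ ⟪x,y⟫ - ψ y` is optimal. -/
lemma optimal_of_potential {ρ : Measure (E d)} [IsFiniteMeasure ρ] {K Y : Set (E d)}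
    (hK : IsCompact K) (hY : IsCompact Y) (hρ : ∀ᵐ x ∂ρ, x ∈ K) {T : E d → E d}
    (hT : Measurable T) (hTY : ∀ᵐ x ∂ρ, T x ∈ Y) {ψ : E d → ℝ} (hψ : Continuous ψ)
    (h : ∀ᵐ x ∂ρ, ∀ y ∈ Y, ⟪x, y⟫ - ψ y ≤ ⟪x, T x⟫ - ψ (T x)) :
    IsOptimalMap ρ (ρ.map T) T := by
  refine ⟨⟨hT, rfl⟩, fun S hS => ?_⟩
  have hμ : (ρ.map T) Yᶜ = 0 := by
    rw [Measure.map_apply hT hY.measurableSet.compl]; exact hTY
  have hSY : ∀ᵐ x ∂ρ, S x ∈ Y := ae_mem_of_map hY.measurableSet hμ hS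
  rw [lintegral_cost_eq hK hY hρ hT hTY, lintegral_cost_eq hK hY hρ hS.1 hSY]
  apply ENNReal.ofReal_le_ofReal
  set G : E d → ℝ := fun y => ‖y‖ ^ 2 - 2 * ψ y with hG
  have hGc : Continuous G := by rw [hG]; fun_prop
  have e1 : ∫ x, G (T x) ∂ρ = ∫ x, G (S x) ∂ρ := by
    rw [← integral_map hT.aemeasurable hGc.aestronglyMeasurable,
      ← integral_map hS.1.aemeasurable hGc.aestronglyMeasurable, hS.2]
  have iT := integrable_comp_pair hK hY hρ hT hTY (F := fun p => ‖p.1 - p.2‖ ^ 2) (by fun_prop)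
  have iS := integrable_comp_pair hK hY hρ hS.1 hSY (F := fun p => ‖p.1 - p.2‖ ^ 2) (by fun_prop)
  have gT := integrable_comp_pair hK hY hρ hT hTY (F := fun p => G p.2) (by fun_prop)
  have gS := integrable_comp_pair hK hY hρ hS.1 hSY (F := fun p => G p.2) (by fun_prop)
  have : ∫ x, (‖x - T x‖ ^ 2 - G (T x)) ∂ρ ≤ ∫ x, (‖x - S x‖ ^ 2 - G (S x)) ∂ρ := by
    apply integral_mono_ae (iT.sub gT) (iS.sub gS)
    filter_upwards [h, hSY] with x hx hy
    have := hx _ hy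
    simp only [hG, norm_sub_sq_real, Pi.sub_apply]
    linarith
  rw [integral_sub iT gT, integral_sub iS gS] at this
  linarith

lemma W2_le_of_coupling {μ ν : Measure (E d)} {π : Measure (E d × E d)} (h : IsCoupling μ ν π)
    {b : ℝ} (hb : 0 ≤ b) (hπ : ∫⁻ p, ‖p.1 - p.2‖ₑ ^ 2 ∂π ≤ ENNReal.ofReal b) :
    W2 μ ν ≤ Real.sqrt b := by
  unfold W2
  apply Real.sqrt_le_sqrt
  apply ENNReal.toReal_le_of_le_ofReal hb
  exact (iInf₂_le π h).trans hπ

lemma W2_nonneg (μ ν : Measure (E d)) : 0 ≤ W2 μ ν := Real.sqrt_nonneg _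

end Vale.Agent.P074
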