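import Vale.Agent.P074.PL
import Vale.Agent.P074.Basic

namespace Vale.Agent.P074

open MeasureTheory Set Filter
open scoped ENNReal Topology RealInnerProductSpace

variable {d : ℕ}

lemma integrable_of_cont {σ : Measure (E d)} [IsFiniteMeasure σ] {R : ℝ}
    (hσ : ∀ᵐ x ∂σ, ‖x‖ ≤ R) {f : E d → ℝ} (hf : Continuous f) : Integrable f σ := by
  obtain ⟨C, hC⟩ := (isCompact_closedBall (0 : E d) R).exists_bound_of_continuousOn
    hf.continuousOn
  refine Integrable.of_bound (C := C) hf.aestronglyMeasurable ?_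
  filter_upwards [hσ] with x hx
  exact hC x (by simpa using hx)

/-- real-valued Prékopa–Leindler on subsets of `K` -/
def RealPL (K : Set (E d)) (ρ : Measure (E d)) : Prop :=
  ∀ (A B C : Set (E d)) (f g h : E d → ℝ), MeasurableSet A → MeasurableSet B → MeasurableSet C →
    Continuous f → Continuous g → Continuous h → (∀ x, 0 ≤ f x) → (∀ x, 0 ≤ g x) →
    (∀ x, 0 ≤ h x) →
    (∀ x ∈ K, ∀ y ∈ K, x ∈ A → y ∈ B →
      (1 / 2 : ℝ) • (x + y) ∈ C ∧ f x * g y ≤ h ((1 / 2 : ℝ) • (x + y)) ^ 2) →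
    (∫ x in A, f x ∂ρ) * ∫ x in B, g x ∂ρ ≤ (∫ x in C, h x ∂ρ) ^ 2

lemma realPL_unif {K : Set (E d)} (hK : IsCompact K) (hc : Convex ℝ K)
    (hi : (interior K).Nonempty) : RealPL K (unif K) := by
  intro A B C f g h hA hB hC hf hg hh f0 g0 h0 H
  haveI := unif_isProb hK hi
  obtain ⟨R, hR⟩ := hK.isBounded.exists_norm_le
  have hae : ∀ᵐ x ∂(unif K), ‖x‖ ≤ R := (unif_ae_mem hK).mono fun x hx => hR x hx
  have conv : ∀ (A : Set (E d)) (f : E d → ℝ), MeasurableSet A → Continuous f → (∀ x, 0 ≤ f x) →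
      ENNReal.ofReal (∫ x in A, f x ∂(unif K)) =
        (volume K)⁻¹ * ∫⁻ x, (K ∩ A).indicator (fun x => ENNReal.ofReal (f x)) x := by
    intro A f hA hf f0
    rw [ofReal_integral_eq_lintegral_ofReal (integrable_of_cont hae hf).integrableOn
      (Eventually.of_forall f0), lintegral_indicator (hK.measurableSet.inter hA)]
    unfold unif
    rw [Measure.restrict_smul, lintegral_smul_measure, Measure.restrict_restrict hA, inter_comm]
    rfl
  have key := hasPL_euclidean d ((K ∩ A).indicator (fun x => ENNReal.ofReal (f x)))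
    ((K ∩ B).indicator (fun x => ENNReal.ofReal (g x)))
    ((K ∩ C).indicator (fun x => ENNReal.ofReal (h x)))
    (hf.measurable.ennreal_ofReal.indicator (hK.measurableSet.inter hA))
    (hg.measurable.ennreal_ofReal.indicator (hK.measurableSet.inter hB))
    (hh.measurable.ennreal_ofReal.indicator (hK.measurableSet.inter hC))
    (fun x y => by
      by_cases hx : x ∈ K ∩ A
      swap
      · simp [indicator_of_notMem hx]
      by_cases hy : y ∈ K ∩ B
      swap
      · simp [indicator_of_notMem hy]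
      obtain ⟨h1, h2⟩ := H x hx.1 y hy.1 hx.2 hy.2
      have hm : (1 / 2 : ℝ) • (x + y) ∈ K := by
        have := hc hx.1 hy.1 (a := 1 / 2) (b := 1 / 2) (by norm_num) (by norm_num) (by norm_num)
        rwa [← smul_add] at this
      rw [indicator_of_mem hx, indicator_of_mem hy, indicator_of_mem (mem_inter hm h1),
        ← ENNReal.ofReal_mul (f0 x), ← ENNReal.ofReal_pow (h0 _)]
      exact ENNReal.ofReal_le_ofReal h2)
  have i1 : 0 ≤ ∫ x in A, f x ∂(unif K) := integral_nonneg f0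
  have i3 : 0 ≤ ∫ x in C, h x ∂(unif K) := integral_nonneg h0
  rw [← ENNReal.ofReal_le_ofReal_iff (by positivity), ENNReal.ofReal_mul i1,
    ENNReal.ofReal_pow i3, conv A f hA hf f0, conv B g hB hg g0, conv C h hC hh h0, mul_pow,
    mul_mul_mul_comm, ← pow_two]
  exact mul_le_mul_right key _

lemma unif_ac (K : Set (E d)) : unif K ≪ volume := by
  unfold unif
  exact (Measure.smul_absolutelyContinuous).trans Measure.absolutelyContinuous_restrict

/-- Gaussian weight -/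
noncomputable def gw (η : ℝ) (x : E d) : ℝ := Real.exp (-(η * ‖x‖ ^ 2))

lemma gw_cont (η : ℝ) : Continuous (gw (d := d) η) := by unfold gw; fun_prop

lemma gw_pos (η : ℝ) (x : E d) : 0 < gw η x := Real.exp_pos _

lemma tilt_lower {ρ : Measure (E d)} [IsFiniteMeasure ρ] {R : ℝ} (hρ : ∀ᵐ x ∂ρ, ‖x‖ ≤ R)
    {h F : E d → ℝ} (hh : Continuous h) (hF : Continuous F) (h0 : ∀ x, 0 ≤ h x)
    (A : Set (E d)) {a : ℝ} (ha : a = ∫ x in A, h x ∂ρ) (a0 : 0 < a) :
    a * Real.exp ((∫ x in A, h x * F x ∂ρ) / a) ≤ ∫ x in A, h x * Real.exp (F x) ∂ρ := by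
  obtain ⟨c, hc⟩ : ∃ c, c = (∫ x in A, h x * F x ∂ρ) / a := ⟨_, rfl⟩
  rw [← hc]
  have i1 := (integrable_of_cont hρ hh).integrableOn (s := A)
  have i2 := (integrable_of_cont hρ (hh.fun_mul hF)).integrableOn (s := A)
  have e : ∫ x in A, (Real.exp c * (1 - c) * h x + Real.exp c * (h x * F x)) ∂ρ
      = a * Real.exp c := by
    rw [integral_add (i1.const_mul _) (i2.const_mul _), integral_const_mul, integral_const_mul,
      ← ha]
    have : ∫ x in A, h x * F x ∂ρ = c * a := by rw [hc]; field_simp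
    rw [this]; ring
  rw [← e]
  refine integral_mono ((i1.const_mul _).add (i2.const_mul _))
    (integrable_of_cont hρ (by fun_prop)).integrableOn fun x => ?_
  have h1 : Real.exp (F x) = Real.exp c * Real.exp (F x - c) := by
    rw [← Real.exp_add]; congr 1; ring
  have h2 := Real.add_one_le_exp (F x - c)
  have h3 := mul_nonneg (h0 x) (Real.exp_pos c).le
  simp only [h1]
  nlinarith

/-- the per-cell inequality -/
lemma cell_ineq {K : Set (E d)} {ρ : Measure (E d)} [IsFiniteMeasure ρ] {R : ℝ}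
    (hρ : ∀ᵐ x ∂ρ, ‖x‖ ≤ R) (hPL : RealPL K ρ) {η : ℝ} (hη : 0 < η)
    {A B C : Set (E d)} (hA : MeasurableSet A) (hB : MeasurableSet B) (hC : MeasurableSet C)
    (hmid : ∀ x ∈ A, ∀ y ∈ B, (1 / 2 : ℝ) • (x + y) ∈ C)
    {F : E d → ℝ} (hF : Continuous F) {L : ℝ}
    (hL : ∀ x ∈ K, ∀ y ∈ K, F x - F y ≤ L * ‖x - y‖)
    {p q : ℝ} (p0 : 0 < p) (q0 : 0 < q) (hp : p ^ 2 = ∫ x in A, gw η x ∂ρ)
    (hq : q ^ 2 = ∫ x in B, gw η x ∂ρ) :
    p * q * (1 + ((∫ x in A, gw η x * F x ∂ρ) / p ^ 2 - (∫ x in B, gw η x * F x ∂ρ) / q ^ 2)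
      - L ^ 2 / η) ≤ ∫ x in C, gw η x ∂ρ := by
  have t1 := tilt_lower hρ (gw_cont η) (F := fun x => 2 * F x - L ^ 2 / η) (by fun_prop)
    (fun x => (gw_pos η x).le) A hp (by positivity)
  have t2 := tilt_lower hρ (gw_cont η) (F := fun x => -(2 * F x) - L ^ 2 / η) (by fun_prop)
    (fun x => (gw_pos η x).le) B hq (by positivity)
  have gc := gw_cont (d := d) η
  have key := hPL A B C (fun x => gw η x * Real.exp (2 * F x - L ^ 2 / η))
    (fun x => gw η x * Real.exp (-(2 * F x) - L ^ 2 / η)) (gw η) hA hB hC (by fun_prop)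
    (by fun_prop) gc (fun x => mul_nonneg (gw_pos η x).le (Real.exp_pos _).le)
    (fun x => mul_nonneg (gw_pos η x).le (Real.exp_pos _).le) (fun x => (gw_pos η x).le)
    (fun x hx y hy hxA hyB => ⟨hmid x hxA y hyB, by
      simp only [gw, ← Real.exp_add, pow_two (Real.exp _)]
      apply Real.exp_le_exp.2
      have h1 := hL x hx y hy
      have h2 : ‖(1 / 2 : ℝ) • (x + y)‖ ^ 2 = (‖x‖ ^ 2 + ‖y‖ ^ 2) / 2 - ‖x - y‖ ^ 2 / 4 := by
        rw [norm_smul, mul_pow, norm_add_sq_real, norm_sub_sq_real]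
        norm_num; ring
      rw [h2]
      have h3 : 2 * (L * ‖x - y‖) ≤ η * ‖x - y‖ ^ 2 / 2 + 2 * (L ^ 2 / η) := by
        have : η * ‖x - y‖ ^ 2 / 2 + 2 * (L ^ 2 / η) - 2 * (L * ‖x - y‖)
            = (η * ‖x - y‖ - 2 * L) ^ 2 / (2 * η) := by field_simp; ring
        have h4 : 0 ≤ (η * ‖x - y‖ - 2 * L) ^ 2 / (2 * η) := by positivity
        linarith
      nlinarith⟩)
  have iA := (integrable_of_cont hρ gc).integrableOn (s := A)
  have iA' := (integrable_of_cont hρ (gc.fun_mul hF)).integrableOn (s := A)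
  have iB := (integrable_of_cont hρ gc).integrableOn (s := B)
  have iB' := (integrable_of_cont hρ (gc.fun_mul hF)).integrableOn (s := B)
  have e1 : (∫ x in A, gw η x * (2 * F x - L ^ 2 / η) ∂ρ) / p ^ 2
      = 2 * ((∫ x in A, gw η x * F x ∂ρ) / p ^ 2) - L ^ 2 / η := by
    have : ∀ x, gw η x * (2 * F x - L ^ 2 / η) = 2 * (gw η x * F x) - L ^ 2 / η * gw η x :=
      fun x => by ring
    simp only [this]
    rw [integral_sub (iA'.const_mul _) (iA.const_mul _), integral_const_mul, integral_const_mul,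
      ← hp]
    field_simp
  have e2 : (∫ x in B, gw η x * (-(2 * F x) - L ^ 2 / η) ∂ρ) / q ^ 2
      = -(2 * ((∫ x in B, gw η x * F x ∂ρ) / q ^ 2)) - L ^ 2 / η := by
    have : ∀ x, gw η x * (-(2 * F x) - L ^ 2 / η)
        = (-2) * (gw η x * F x) - L ^ 2 / η * gw η x := fun x => by ring
    simp only [this]
    rw [integral_sub (iB'.const_mul _) (iB.const_mul _), integral_const_mul, integral_const_mul,
      ← hq]
    field_simp
  rw [e1] at t1
  rw [e2] at t2
  obtain ⟨u, hu⟩ : ∃ u, u = (∫ x in A, gw η x * F x ∂ρ) / p ^ 2 := ⟨_, rfl⟩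
  obtain ⟨v, hv⟩ : ∃ v, v = (∫ x in B, gw η x * F x ∂ρ) / q ^ 2 := ⟨_, rfl⟩
  rw [← hu] at t1 ⊢
  rw [← hv] at t2 ⊢
  have c0 : 0 ≤ ∫ x in C, gw η x ∂ρ := integral_nonneg fun x => (gw_pos η x).le
  have k2 : (p * q * Real.exp (u - v - L ^ 2 / η)) ^ 2 ≤ (∫ x in C, gw η x ∂ρ) ^ 2 := by
    refine le_trans ?_ ((mul_le_mul t1 t2 (by positivity) (le_trans (by positivity) t1)).trans key)
    have : Real.exp (u - v - L ^ 2 / η) ^ 2
        = Real.exp (2 * u - L ^ 2 / η) * Real.exp (-(2 * v) - L ^ 2 / η) := by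
      rw [pow_two, ← Real.exp_add, ← Real.exp_add]; congr 1; ring
    rw [mul_pow, this]; apply le_of_eq; ring
  have k4 : p * q * Real.exp (u - v - L ^ 2 / η) ≤ ∫ x in C, gw η x ∂ρ :=
    (pow_le_pow_iff_left₀ (by positivity) c0 two_ne_zero).1 k2
  refine le_trans ?_ k4
  have := Real.add_one_le_exp (u - v - L ^ 2 / η)
  have pq : 0 < p * q := mul_pos p0 q0
  nlinarith

end Vale.Agent.P074
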