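import Mathlib

namespace Vale.Agent.P074

open MeasureTheory

/-- Euclidean space `ℝ^d`. -/
abbrev E (d : ℕ) := EuclideanSpace ℝ (Fin d)

/-- The uniform probability measure `|K|⁻¹ 1_K dx` on `K`. -/
noncomputable def unif {d : ℕ} (K : Set (E d)) : Measure (E d) :=
  (volume K)⁻¹ • (volume : Measure (E d)).restrict K

/-- `T` is a Borel map with `T_# ρ = μ`. -/
def IsTransportMap {d : ℕ} (ρ μ : Measure (E d)) (T : E d → E d) : Prop :=
  Measurable T ∧ ρ.map T = μ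

/-- `T` minimizes the quadratic cost among Borel maps pushing `ρ` to `μ`. -/
def IsOptimalMap {d : ℕ} (ρ μ : Measure (E d)) (T : E d → E d) : Prop :=
  IsTransportMap ρ μ T ∧
    ∀ S : E d → E d, IsTransportMap ρ μ S →
      ∫⁻ x, ‖x - T x‖ₑ ^ 2 ∂ρ ≤ ∫⁻ x, ‖x - S x‖ₑ ^ 2 ∂ρ

/-- `π` is a coupling of `μ` and `ν`. -/
def IsCoupling {d : ℕ} (μ ν : Measure (E d)) (π : Measure (E d × E d)) : Prop :=
  π.map Prod.fst = μ ∧ π.map Prod.snd = ν

/-- The quadratic Wasserstein distance. -/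
noncomputable def W2 {d : ℕ} (μ ν : Measure (E d)) : ℝ :=
  Real.sqrt (⨅ (π : Measure (E d × E d)) (_ : IsCoupling μ ν π),
    ∫⁻ p, ‖p.1 - p.2‖ₑ ^ 2 ∂π).toReal

/-- `μ` is a Borel probability measure supported in `Y`. -/
def IsProbOn {d : ℕ} (Y : Set (E d)) (μ : Measure (E d)) : Prop :=
  IsProbabilityMeasure μ ∧ μ Yᶜ = 0

/-- The exponent `α ∈ (0,1]` is admissible in dimension `d`. -/
def Admissible (d : ℕ) (α : ℝ) : Prop :=
  0 < α ∧ α ≤ 1 ∧
    ∀ K : Set (E d), IsCompact K → Convex ℝ K → (interior K).Nonempty →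
      ∀ Y : Set (E d), IsCompact Y → Y.Nonempty →
        ∃ C : ℝ, ∀ μ ν : Measure (E d), IsProbOn Y μ → IsProbOn Y ν →
          ∀ T S : E d → E d, IsOptimalMap (unif K) μ T → IsOptimalMap (unif K) ν S →
            Real.sqrt (∫ x, ‖T x - S x‖ ^ 2 ∂(unif K)) ≤ C * W2 μ ν ^ α

end Vale.Agent.P074
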