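import Vale.Agent.P074.SemiVar

namespace Vale.Agent.P074

open MeasureTheory Set Filter ProbabilityTheory
open scoped ENNReal Topology RealInnerProductSpace unitInterval

variable {d : ℕ}

lemma cdf_cont (ν : Measure ℝ) [IsProbabilityMeasure ν] (h : ∀ a, ν {a} = 0) :
    Continuous (cdf ν) := by
  refine continuous_iff_continuousAt.2 fun a => ?_
  rw [(monotone_cdf ν).continuousAt_iff_leftLim_eq_rightLim, StieltjesFunction.rightLim_eq]
  have h1 := (cdf ν).measure_singleton a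
  rw [measure_cdf, h a] at h1
  have h2 := ENNReal.ofReal_eq_zero.1 h1.symm
  have h3 := (monotone_cdf ν).leftLim_le (le_refl a)
  linarith

lemma exists_uniform (ν : Measure ℝ) [IsProbabilityMeasure ν] (h : ∀ a, ν {a} = 0) :
    ∃ U : ℝ → I, Measurable U ∧ ν.map U = volume := by
  have hc := cdf_cont ν h
  have hm : Measurable fun x => (⟨cdf ν x, cdf_nonneg ν x, cdf_le_one ν x⟩ : I) :=
    hc.measurable.subtype_mk
  refine ⟨_, hm, ?_⟩
  haveI := Measure.isProbabilityMeasure_map (μ := ν) hm.aemeasurable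
  refine Measure.ext_of_Iic _ _ fun t => ?_
  rw [Measure.map_apply hm measurableSet_Iic, unitInterval.volume_Iic]
  change ν {x | cdf ν x ≤ t} = _
  rcases t.2.2.eq_or_lt with h1 | h1
  · rw [h1]
    have : {x | cdf ν x ≤ 1} = univ := eq_univ_of_forall fun x => cdf_le_one ν x
    simp [this]
  rcases eq_empty_or_nonempty {x | cdf ν x ≤ t} with he | hne
  · rw [he, measure_empty]
    rcases t.2.1.eq_or_lt with h0 | h0
    · rw [← h0]; simp
    · obtain ⟨x, hx⟩ := ((tendsto_cdf_atBot ν).eventually (gt_mem_nhds h0)).exists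
      have : x ∈ {x | cdf ν x ≤ t} := le_of_lt hx
      rw [he] at this; exact this.elim
  · obtain ⟨b, hb⟩ := ((tendsto_cdf_atTop ν).eventually (lt_mem_nhds h1)).exists
    have bdd : BddAbove {x | cdf ν x ≤ t} := ⟨b, fun x hx => by
      by_contra hxb
      have := monotone_cdf ν (not_le.1 hxb).le
      exact absurd (this.trans hx) (not_le.2 hb)⟩
    have hcl : IsClosed {x | cdf ν x ≤ t} := isClosed_le hc continuous_const
    have hs := hcl.csSup_mem hne bdd
    have e : {x | cdf ν x ≤ t} = Iic (sSup {x | cdf ν x ≤ t}) := by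
      ext x
      exact ⟨fun hx => le_csSup bdd hx, fun hx => (monotone_cdf ν hx).trans hs⟩
    rw [e, ← ofReal_cdf]
    congr 1
    refine le_antisymm hs (not_lt.1 fun hlt => ?_)
    have : ∀ᶠ x in 𝓝[>] (sSup {x | cdf ν x ≤ t}), cdf ν x < t :=
      nhdsWithin_le_nhds (hc.continuousAt.eventually (gt_mem_nhds hlt))
    obtain ⟨x, hx1, hx2⟩ := (this.and self_mem_nhdsWithin).exists
    exact absurd (le_csSup bdd hx1.le) (not_le.2 hx2)

lemma exists_map (i0 : Fin d) (α β : Measure (E d)) [IsFiniteMeasure α] (hac : α ≪ volume)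
    (h0 : α univ ≠ 0) (h : β univ = α univ) : ∃ T : E d → E d, Measurable T ∧ α.map T = β := by
  have h1 : α univ ≠ ∞ := measure_ne_top _ _
  haveI : IsProbabilityMeasure ((α univ)⁻¹ • α) := ⟨by simp [ENNReal.inv_mul_cancel h0 h1]⟩
  haveI : IsProbabilityMeasure ((α univ)⁻¹ • β) := ⟨by simp [h, ENNReal.inv_mul_cancel h0 h1]⟩
  have hm : Measurable fun x : E d => x i0 := by fun_prop
  haveI := Measure.isProbabilityMeasure_map (μ := (α univ)⁻¹ • α) hm.aemeasurable
  obtain ⟨U, hU, hU'⟩ := exists_uniform (((α univ)⁻¹ • α).map fun x : E d => x i0) (fun a => by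
    rw [Measure.map_apply hm (measurableSet_singleton a), Measure.smul_apply]
    have : α ((fun x : E d => x i0) ⁻¹' {a}) = 0 := by
      refine hac ?_
      have := volume_hyperplane (v := EuclideanSpace.single i0 (1 : ℝ)) (by simp) a
      convert this using 2
      ext x; simp [EuclideanSpace.inner_single_right]
    simp [this])
  obtain ⟨f, hf, hf'⟩ := Measure.exists_measurable_map_eq ((α univ)⁻¹ • β)
  refine ⟨f ∘ U ∘ fun x => x i0, hf.comp (hU.comp hm), ?_⟩
  have : ((α univ)⁻¹ • α).map (f ∘ U ∘ fun x => x i0) = (α univ)⁻¹ • β := by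
    rw [← Measure.map_map hf (hU.comp hm), ← Measure.map_map hU hm, hU', hf']
  rw [Measure.map_smul] at this
  have e := congrArg (fun μ => α univ • μ) this
  simpa [smul_smul, ENNReal.mul_inv_cancel h0 h1] using e

lemma inner_le_of_optimal {ρ μ : Measure (E d)} [IsFiniteMeasure ρ] {R : ℝ} {Y : Set (E d)}
    (hρ : ∀ᵐ x ∂ρ, ‖x‖ ≤ R) (hY : IsCompact Y) (hμ : μ Yᶜ = 0) {T S : E d → E d}
    (hT : IsOptimalMap ρ μ T) (hS : IsTransportMap ρ μ S) :
    ∫ x, ⟪x, S x⟫ ∂ρ ≤ ∫ x, ⟪x, T x⟫ ∂ρ := by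
  have hK := isCompact_closedBall (0 : E d) R
  have hρ' : ∀ᵐ x ∂ρ, x ∈ Metric.closedBall (0 : E d) R := hρ.mono fun x hx => by simpa using hx
  have hTY := ae_mem_of_map hY.measurableSet hμ hT.1
  have hSY := ae_mem_of_map hY.measurableSet hμ hS
  have h := hT.2 S hS
  rw [lintegral_cost_eq hK hY hρ' hT.1.1 hTY, lintegral_cost_eq hK hY hρ' hS.1 hSY,
    ENNReal.ofReal_le_ofReal_iff (integral_nonneg fun _ => sq_nonneg _)] at h
  have e : ∀ U : E d → E d, IsTransportMap ρ μ U → ∫ x, ‖x - U x‖ ^ 2 ∂ρ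
      = ∫ x, ‖x‖ ^ 2 ∂ρ - 2 * ∫ x, ⟪x, U x⟫ ∂ρ + ∫ y, ‖y‖ ^ 2 ∂μ := by
    intro U hU
    have hUY := ae_mem_of_map hY.measurableSet hμ hU
    have i1 := integrable_comp_pair hK hY hρ' hU.1 hUY (F := fun p => ‖p.1‖ ^ 2) (by fun_prop)
    have i2 := integrable_comp_pair hK hY hρ' hU.1 hUY (F := fun p => 2 * ⟪p.1, p.2⟫) (by fun_prop)
    have i3 := integrable_comp_pair hK hY hρ' hU.1 hUY (F := fun p => ‖p.2‖ ^ 2) (by fun_prop)
    simp only [norm_sub_sq_real]
    have i4 : Integrable (fun x => ‖x‖ ^ 2 - 2 * ⟪x, U x⟫) ρ := i1.sub i2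
    rw [integral_add i4 i3, integral_sub i1 i2, integral_const_mul, ← hU.2,
      integral_map hU.1.aemeasurable (Continuous.aestronglyMeasurable (by fun_prop))]
  rw [e T hT.1, e S hS] at h
  linarith

variable {ι : Type} [Fintype ι] [Nonempty ι]

lemma no_gap (i0 : Fin d) {ρ μ : Measure (E d)} [IsProbabilityMeasure ρ] {R : ℝ} {Y : Set (E d)}
    (hρ : ∀ᵐ x ∂ρ, ‖x‖ ≤ R) (hac : ρ ≪ volume) (hY : IsCompact Y) (hμ : μ Yᶜ = 0)
    {T : E d → E d} (hT : IsOptimalMap ρ μ T) {m : ι → ℝ} (m0 : ∀ i, 0 < m i)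
    (m1 : ∑ i, m i = 1) {μi : ι → Measure (E d)} (hsum : μ = ∑ i, μi i)
    (hm : ∀ i, μi i univ = ENNReal.ofReal (m i)) {y : ι → E d} (hy : Function.Injective y)
    {δ : ℝ} (hδ : ∀ i, ∀ᵐ z ∂(μi i), ‖z - y i‖ ≤ δ) {ψ : ι → ℝ} (hψ : IsOpt ρ m y ψ) :
    dual ρ m y ψ ≤ ∫ x, ⟪x, T x⟫ ∂ρ + R * δ := by
  have mass : ∀ i, ρ (cell y ψ i) = ENNReal.ofReal (m i) := fun i => by
    rw [← mass_eq hρ hac m1 hy hψ i, ofReal_measureReal]
  choose Ti hTi hTi' using fun i => exists_map i0 (ρ.restrict (cell y ψ i)) (μi i)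
    (Measure.absolutelyContinuous_restrict.trans hac)
    (by rw [Measure.restrict_apply_univ, mass]; simpa using m0 i)
    (by rw [Measure.restrict_apply_univ, mass, hm])
  obtain ⟨S, hS⟩ : ∃ S : E d → E d, S = fun x => ∑ i, (cell y ψ i).indicator (Ti i) x := ⟨_, rfl⟩
  have Sm : Measurable S := by
    rw [hS]
    exact Finset.measurable_sum _ fun i _ => (hTi i).indicator (cell_meas y ψ i)
  have Se : ∀ i, S =ᵐ[ρ.restrict (cell y ψ i)] Ti i := by
    intro i
    have : ∀ᵐ x ∂ρ, ∀ j, j ≠ i → x ∉ cell y ψ j ∩ cell y ψ i := by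
      refine ae_all_iff.2 fun j => ?_
      by_cases hj : j = i
      · simp [hj]
      · simpa [hj] using measure_eq_zero_iff_ae_notMem.1 (cell_aedisjoint hac hy ψ hj)
    filter_upwards [ae_restrict_of_ae this, ae_restrict_mem (cell_meas y ψ i)] with x h1 h2
    rw [hS]
    simp only
    rw [Finset.sum_eq_single i (fun j _ hj => indicator_of_notMem (fun h => h1 j hj ⟨h, h2⟩) _)
      (by simp), indicator_of_mem h2]
  have part := cell_partition hac hy ψ
  have ST : IsTransportMap ρ μ S := by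
    refine ⟨Sm, ?_⟩
    rw [part, Measure.map_finset_sum Sm.aemeasurable, hsum]
    exact Finset.sum_congr rfl fun i _ => by rw [Measure.map_congr (Se i), hTi']
  have hK := isCompact_closedBall (0 : E d) R
  have hρ' : ∀ᵐ x ∂ρ, x ∈ Metric.closedBall (0 : E d) R := hρ.mono fun x hx => by simpa using hx
  have iS := integrable_comp_pair hK hY hρ' Sm (ae_mem_of_map hY.measurableSet hμ ST)
    (F := fun p => ⟪p.1, p.2⟫) (by fun_prop)
  refine (dual_le_cells hρ hac m1 hy hψ).trans (le_trans ?_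
    (add_le_add_left (inner_le_of_optimal hρ hY hμ hT ST) _))
  rw [integral_eq_sum_of part iS, ← mul_one (R * δ), ← m1, Finset.mul_sum,
    ← Finset.sum_add_distrib]
  refine Finset.sum_le_sum fun i _ => ?_
  have h1 : ∀ᵐ x ∂(ρ.restrict (cell y ψ i)), ‖Ti i x - y i‖ ≤ δ := by
    have := hδ i
    rw [← hTi' i] at this
    exact ae_of_ae_map (hTi i).aemeasurable this
  have := integral_mono_ae (integrable_of_cont hρ (f := fun x => ⟪x, y i⟫)
    (by fun_prop)).integrableOn ((iS.integrableOn (s := cell y ψ i)).add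
      (integrable_const (R * δ))) (by
      filter_upwards [h1, Se i, ae_restrict_of_ae hρ] with x a1 a2 a3
      simp only [Pi.add_apply, a2]
      have b1 := abs_real_inner_le_norm x (Ti i x - y i)
      have b2 := mul_le_mul a3 a1 (norm_nonneg _) ((norm_nonneg _).trans a3)
      rw [inner_sub_right] at b1
      linarith [neg_abs_le (⟪x, Ti i x⟫ - ⟪x, y i⟫)])
  rwa [integral_add' iS.integrableOn (integrable_const _), integral_const,
    measureReal_restrict_apply_univ, mass_eq hρ hac m1 hy hψ, smul_eq_mul, mul_comm (m i)] at this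

end Vale.Agent.P074
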