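import Vale.Agent.P074.Var

namespace Vale.Agent.P074

open MeasureTheory Set Filter
open scoped ENNReal Topology RealInnerProductSpace

variable {d : ℕ}

lemma setIntegral_unif {K S : Set (E d)} (hS : MeasurableSet S) (h : S ⊆ K) (g : E d → ℝ) :
    ∫ x in S, g x ∂(unif K) = (volume K)⁻¹.toReal * ∫ x in S, g x := by
  unfold unif
  rw [Measure.restrict_smul, integral_smul_measure, Measure.restrict_restrict hS,
    inter_eq_left.2 h, smul_eq_mul]

lemma shift_integral {K S : Set (E d)} (hS : MeasurableSet S) (h : S ⊆ K) (v : E d)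
    (hv : ∀ x ∈ S, x + v ∈ K) (g : E d → ℝ) :
    ∫ x in S, g (x + v) ∂(unif K) = ∫ x in (fun x => x - v) ⁻¹' S, g x ∂(unif K) := by
  rw [setIntegral_unif hS h, setIntegral_unif (hS.preimage (by fun_prop))
    (fun x hx => by simpa using hv _ hx)]
  congr 1
  rw [← (measurePreserving_add_right volume v).setIntegral_preimage_emb
    (measurableEmbedding_addRight v) g]
  congr 2
  ext x; simp

lemma inner_set {K : Set (E d)} (hK : IsCompact K) (hc : Convex ℝ K) (hi : (interior K).Nonempty)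
    {x0 : E d} {r : ℝ} (r0 : 0 < r) (hr : Metric.closedBall x0 r ⊆ K) {τ : ℝ} (τ0 : 0 < τ)
    (τr : τ ≤ r) : ∃ S : Set (E d), MeasurableSet S ∧ (∀ x ∈ S, ∀ v : E d, ‖v‖ ≤ τ → x + v ∈ K) ∧
      1 - d * (τ / r) ≤ (unif K).real S := by
  have l0 : 0 < τ / r := by positivity
  have l1 : τ / r ≤ 1 := (div_le_one r0).2 τr
  have hmem : ∀ x ∈ AffineMap.homothety x0 (1 - τ / r) '' K, ∀ v : E d, ‖v‖ ≤ τ → x + v ∈ K := by
    rintro _ ⟨k, hk, rfl⟩ v hv
    have h1 : x0 + (r / τ) • v ∈ K := hr (by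
      rw [mem_closedBall_iff_norm, add_sub_cancel_left, norm_smul, Real.norm_eq_abs,
        abs_of_pos (by positivity), div_mul_eq_mul_div, div_le_iff₀ τ0]
      exact mul_le_mul_of_nonneg_left hv r0.le)
    have h2 := hc hk h1 (a := 1 - τ / r) (b := τ / r) (by linarith) l0.le (by ring)
    convert h2 using 1
    rw [AffineMap.homothety_apply, smul_add, smul_smul, show τ / r * (r / τ) = 1 by field_simp]
    simp only [vsub_eq_sub, vadd_eq_add]
    module
  have hm : MeasurableSet (AffineMap.homothety x0 (1 - τ / r) '' K) :=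
    (hK.image (AffineMap.homothety_continuous _ _)).measurableSet
  refine ⟨_, hm, hmem, ?_⟩
  have h0 : volume K ≠ 0 := by
    have : 0 < volume (interior K) := isOpen_interior.measure_pos _ hi
    exact (this.trans_le (measure_mono interior_subset)).ne'
  have h1 : volume K ≠ ∞ := hK.measure_lt_top.ne
  have : unif K (AffineMap.homothety x0 (1 - τ / r) '' K) = ENNReal.ofReal ((1 - τ / r) ^ d) := by
    unfold unif
    rw [Measure.smul_apply, Measure.restrict_apply hm,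
      inter_eq_left.2 (fun x hx => by simpa using hmem x hx 0 (by simpa using τ0.le)),
      Measure.addHaar_image_homothety, smul_eq_mul, mul_left_comm, ENNReal.inv_mul_cancel h0 h1,
      mul_one, abs_of_nonneg (pow_nonneg (by linarith) _)]
    simp
  rw [measureReal_def, this, ENNReal.toReal_ofReal (pow_nonneg (by linarith) _)]
  have := one_add_mul_le_pow (a := -(τ / r)) (by linarith) d
  simpa [sub_eq_add_neg] using this

lemma rp_dir {K : Set (E d)} (hK : IsCompact K) (hi : (interior K).Nonempty) {R : ℝ}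
    (hR : ∀ x ∈ K, ‖x‖ ≤ R) {S : Set (E d)} (hS : MeasurableSet S) {τ β : ℝ} (τ0 : 0 < τ)
    (hS1 : ∀ x ∈ S, ∀ v : E d, ‖v‖ ≤ τ → x + v ∈ K) (hS2 : 1 - β ≤ (unif K).real S)
    {L : ℝ} (L0 : 0 ≤ L) {T T' : E d → E d} (hT : Measurable T) (hT' : Measurable T')
    (bT : ∀ᵐ x ∂(unif K), ‖T x‖ ≤ L) (bT' : ∀ᵐ x ∂(unif K), ‖T' x‖ ≤ L)
    {u v : E d → ℝ} (hu : Continuous u) (hv : Continuous v)
    (vc : ∀ x a, 2 * v x ≤ v (x + a) + v (x - a)) (vl : ∀ x x', v x ≤ v x' + L * ‖x - x'‖)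
    {G G' : E d → ℝ} (iG : Integrable G (unif K)) (iG' : Integrable G' (unif K))
    (G0 : ∀ᵐ x ∂(unif K), 0 ≤ G x) (G0' : ∀ᵐ x ∂(unif K), 0 ≤ G' x)
    (hG : ∀ᵐ x ∂(unif K), ∀ x' ∈ K, u x + ⟪x' - x, T x⟫ - G x ≤ u x')
    (hG' : ∀ᵐ x ∂(unif K), ∀ x' ∈ K, v x + ⟪x' - x, T' x⟫ - G' x ≤ v x') (c : ℝ)
    {e : E d} (he : ‖e‖ ≤ 1) :
    ∫ x, max ⟪e, T x - T' x⟫ 0 ^ 2 ∂(unif K) ≤ 4 * (∫ x, (u x - v x - c) ^ 2 ∂(unif K)) / τ ^ 2
      + 12 * L ^ 2 * β + 4 * L * (∫ x, G x ∂(unif K) + ∫ x, G' x ∂(unif K)) / τ := by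
  haveI := unif_isProb hK hi
  have hρ : ∀ᵐ x ∂(unif K), ‖x‖ ≤ R := (unif_ae_mem hK).mono hR
  have I : ∀ {g : E d → ℝ}, Continuous g → Integrable g (unif K) :=
    fun hg => integrable_of_cont hρ hg
  have SK : S ⊆ K := fun x hx => by simpa using hS1 x hx 0 (by simpa using τ0.le)
  have ne : ‖τ • e‖ ≤ τ := by
    rw [norm_smul, Real.norm_eq_abs, abs_of_pos τ0]; exact mul_le_of_le_one_right τ0.le he
  have zb : ∀ᵐ x ∂(unif K), max ⟪e, T x - T' x⟫ 0 ≤ 2 * L := by
    filter_upwards [bT, bT'] with x h1 h2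
    refine max_le ((real_inner_le_norm _ _).trans ?_) (by positivity)
    have := norm_sub_le (T x) (T' x)
    nlinarith [norm_nonneg (T x - T' x)]
  have zb2 : ∀ᵐ x ∂(unif K), max ⟪e, T x - T' x⟫ 0 ^ 2 ≤ 4 * L ^ 2 := zb.mono fun x hx => by
    have := pow_le_pow_left₀ (le_max_right _ _) hx 2
    linarith
  have iz : Integrable (fun x => max ⟪e, T x - T' x⟫ 0 ^ 2) (unif K) :=
    Integrable.of_bound (C := 4 * L ^ 2) (Measurable.aestronglyMeasurable (by fun_prop))
      (zb2.mono fun x hx => by rwa [Real.norm_eq_abs, abs_of_nonneg (sq_nonneg _)])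
  have compl : ∀ S' : Set (E d), MeasurableSet S' → 1 - β ≤ (unif K).real S' →
      (unif K).real S'ᶜ ≤ β := fun S' h1 h2 => by
    rw [probReal_compl_eq_one_sub h1]; linarith
  have p1 : ∫ x in Sᶜ, max ⟪e, T x - T' x⟫ 0 ^ 2 ∂(unif K) ≤ 4 * L ^ 2 * β := by
    have := integral_mono_ae (iz.integrableOn (s := Sᶜ)) (integrable_const (4 * L ^ 2))
      (ae_restrict_of_ae zb2)
    rw [integral_const, measureReal_restrict_apply_univ, smul_eq_mul] at this
    nlinarith [compl S hS hS2, sq_nonneg L]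
  obtain ⟨w, hw⟩ : ∃ w : E d → ℝ, w = fun x => u x - v x - c := ⟨_, rfl⟩
  obtain ⟨q, hq⟩ : ∃ q : E d → ℝ, q = fun x => v x - v (x - τ • e) := ⟨_, rfl⟩
  have wc : Continuous w := by rw [hw]; fun_prop
  have qc : Continuous q := by rw [hq]; fun_prop
  have qb : ∀ x, |q x| ≤ L * τ := fun x => by
    have h1 := vl x (x - τ • e)
    have h2 := vl (x - τ • e) x
    rw [sub_sub_cancel] at h1
    rw [sub_sub_cancel_left, norm_neg] at h2
    have := mul_le_mul_of_nonneg_left ne L0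
    rw [hq, abs_le]; constructor <;> simp only <;> linarith
  obtain ⟨V, hV⟩ : ∃ V, V = ∫ x, w x ^ 2 ∂(unif K) := ⟨_, rfl⟩
  have hS' : MeasurableSet ((fun x => x - τ • e) ⁻¹' S) := hS.preimage (by fun_prop)
  have wle : ∀ S', ∫ x in S', w x ^ 2 ∂(unif K) ≤ V := fun S' => by
    rw [hV]
    exact setIntegral_le_integral (I (by fun_prop)) (Eventually.of_forall fun _ => sq_nonneg _)
  have p2 : ∫ x in S, w (x + τ • e) ^ 2 ∂(unif K) ≤ V := by
    rw [shift_integral hS SK _ (fun x hx => hS1 x hx _ ne) (fun x => w x ^ 2)]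
    exact wle _
  have qc1 : ∀ S' : Set (E d), MeasurableSet S' → 1 - β ≤ (unif K).real S' →
      |∫ x in S', q x ∂(unif K) - ∫ x, q x ∂(unif K)| ≤ L * τ * β := fun S' h1 h2 => by
    rw [← integral_add_compl h1 (I qc), sub_add_cancel_left, abs_neg]
    have := norm_setIntegral_le_of_norm_le_const (μ := unif K) (s := S'ᶜ) (f := q) (C := L * τ)
      (measure_lt_top _ _) (fun x _ => qb x)
    exact this.trans (mul_le_mul_of_nonneg_left (compl S' h1 h2) (by positivity))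
  have p3 : ∫ x in S, q (x + τ • e) ∂(unif K) - ∫ x in S, q x ∂(unif K) ≤ 2 * (L * τ * β) := by
    rw [shift_integral hS SK _ (fun x hx => hS1 x hx _ ne) q]
    have m1 := shift_integral hS SK _ (fun x hx => hS1 x hx _ ne) (fun _ => 1)
    simp only [integral_const, measureReal_restrict_apply_univ, smul_eq_mul, mul_one] at m1
    have a1 := abs_le.1 (qc1 S hS hS2)
    have a2 := abs_le.1 (qc1 _ hS' (m1 ▸ hS2))
    linarith [a1.1, a2.2]
  have p4 : ∫ x in S, G x ∂(unif K) ≤ ∫ x, G x ∂(unif K) := setIntegral_le_integral iG G0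
  have p5 : ∫ x in S, G' x ∂(unif K) ≤ ∫ x, G' x ∂(unif K) := setIntegral_le_integral iG' G0'
  have j1 := (I (g := fun x => w (x + τ • e) ^ 2) (by fun_prop)).integrableOn (s := S)
  have j2 := (I (g := fun x => w x ^ 2) (by fun_prop)).integrableOn (s := S)
  have j3 := (I (g := fun x => q (x + τ • e)) (by fun_prop)).integrableOn (s := S)
  have j4 := (I qc).integrableOn (s := S)
  have j5 := iG.integrableOn (s := S)
  have j6 := iG'.integrableOn (s := S)
  have p6 := setIntegral_mono_ae_restrict (iz.integrableOn (s := S))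
    (((j1.add j2).const_mul (2 / τ ^ 2)).add (((j3.sub j4).add (j5.add j6)).const_mul (4 * L / τ)))
    (by
      filter_upwards [ae_restrict_mem hS, ae_restrict_of_ae zb, ae_restrict_of_ae hG,
        ae_restrict_of_ae hG', ae_restrict_of_ae G0, ae_restrict_of_ae G0'] with x hx h1 h2 h3 h4 h5
      have a1 := h2 _ (hS1 x hx _ ne)
      have a2 := h3 _ (hS1 x hx (-(τ • e)) (by rwa [norm_neg]))
      have a3 := vc x (τ • e)
      rw [add_sub_cancel_left, inner_smul_left] at a1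
      rw [add_sub_cancel_left, inner_neg_left, inner_smul_left, ← sub_eq_add_neg x] at a2
      simp only [conj_trivial] at a1 a2
      simp only [Pi.add_apply, Pi.sub_apply]
      obtain ⟨Q, hQ⟩ : ∃ Q, Q = q (x + τ • e) - q x + (G x + G' x) := ⟨_, rfl⟩
      have Q0 : 0 ≤ Q := by rw [hQ, hq]; simp only [add_sub_cancel_right]; linarith
      have a4 : τ * ⟪e, T x - T' x⟫ ≤ w (x + τ • e) - w x + Q := by
        rw [hQ, hq, hw, inner_sub_right]; simp only [add_sub_cancel_right]; linarith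
      rw [← hQ]
      obtain ⟨z, hz⟩ : ∃ z, z = max ⟪e, T x - T' x⟫ 0 := ⟨_, rfl⟩
      have z0 : 0 ≤ z := hz ▸ le_max_right _ _
      have a5 : τ * z ^ 2 ≤ z * (w (x + τ • e) - w x) + 2 * L * Q := by
        rcases le_total ⟪e, T x - T' x⟫ 0 with h | h
        · rw [max_eq_right h] at hz; rw [hz]; nlinarith
        · rw [max_eq_left h] at hz h1
          rw [← hz] at a4 h1
          nlinarith
      rw [← hz]
      have a6 : 2 / τ ^ 2 * (w (x + τ • e) ^ 2 + w x ^ 2) + 4 * L / τ * Q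
          = (2 * (w (x + τ • e) ^ 2 + w x ^ 2) + 4 * L * τ * Q) / τ ^ 2 := by field_simp
      rw [a6, le_div_iff₀ (by positivity)]
      have a7 := mul_le_mul_of_nonneg_left a5 τ0.le
      nlinarith [sq_nonneg (τ * z - (w (x + τ • e) - w x)), sq_nonneg (w (x + τ • e) + w x)])
  rw [integral_add' ((j1.add j2).const_mul _) (((j3.sub j4).add (j5.add j6)).const_mul _),
    integral_const_mul, integral_const_mul, integral_add' j1 j2,
    integral_add' (j3.sub j4) (j5.add j6), integral_sub' j3 j4, integral_add' j5 j6] at p6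
  rw [← integral_add_compl hS iz]
  have e1 : ∫ x, (u x - v x - c) ^ 2 ∂(unif K) = V := by rw [hV, hw]
  rw [e1]
  have b1 := mul_le_mul_of_nonneg_left (add_le_add p2 (wle S)) (show 0 ≤ 2 / τ ^ 2 by positivity)
  have b2 := mul_le_mul_of_nonneg_left (add_le_add p3 (add_le_add p4 p5))
    (show 0 ≤ 4 * L / τ by positivity)
  have b3 : 4 * L / τ * (2 * (L * τ * β) + (∫ x, G x ∂(unif K) + ∫ x, G' x ∂(unif K)))
      = 8 * L ^ 2 * β + 4 * L * (∫ x, G x ∂(unif K) + ∫ x, G' x ∂(unif K)) / τ := by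
    field_simp; ring
  have b4 : 2 / τ ^ 2 * (V + V) = 4 * V / τ ^ 2 := by ring
  linarith

lemma rp {K : Set (E d)} (hK : IsCompact K) (hi : (interior K).Nonempty) {R : ℝ}
    (hR : ∀ x ∈ K, ‖x‖ ≤ R) {S : Set (E d)} (hS : MeasurableSet S) {τ β : ℝ} (τ0 : 0 < τ)
    (hS1 : ∀ x ∈ S, ∀ v : E d, ‖v‖ ≤ τ → x + v ∈ K) (hS2 : 1 - β ≤ (unif K).real S)
    {L : ℝ} (L0 : 0 ≤ L) {T T' : E d → E d} (hT : Measurable T) (hT' : Measurable T')
    (bT : ∀ᵐ x ∂(unif K), ‖T x‖ ≤ L) (bT' : ∀ᵐ x ∂(unif K), ‖T' x‖ ≤ L)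
    {u v : E d → ℝ} (hu : Continuous u) (hv : Continuous v)
    (vc : ∀ x a, 2 * v x ≤ v (x + a) + v (x - a)) (vl : ∀ x x', v x ≤ v x' + L * ‖x - x'‖)
    {G G' : E d → ℝ} (iG : Integrable G (unif K)) (iG' : Integrable G' (unif K))
    (G0 : ∀ᵐ x ∂(unif K), 0 ≤ G x) (G0' : ∀ᵐ x ∂(unif K), 0 ≤ G' x)
    (hG : ∀ᵐ x ∂(unif K), ∀ x' ∈ K, u x + ⟪x' - x, T x⟫ - G x ≤ u x')
    (hG' : ∀ᵐ x ∂(unif K), ∀ x' ∈ K, v x + ⟪x' - x, T' x⟫ - G' x ≤ v x') (c : ℝ) :
    ∫ x, ‖T x - T' x‖ ^ 2 ∂(unif K) ≤ 2 * d * (4 * (∫ x, (u x - v x - c) ^ 2 ∂(unif K)) / τ ^ 2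
      + 12 * L ^ 2 * β + 4 * L * (∫ x, G x ∂(unif K) + ∫ x, G' x ∂(unif K)) / τ) := by
  haveI := unif_isProb hK hi
  have iz : ∀ e : E d, Integrable (fun x => max ⟪e, T x - T' x⟫ 0 ^ 2) (unif K) := fun e =>
    Integrable.of_bound (C := (‖e‖ * (2 * L)) ^ 2) (Measurable.aestronglyMeasurable (by fun_prop))
      (by
        filter_upwards [bT, bT'] with x h1 h2
        rw [Real.norm_eq_abs, abs_of_nonneg (sq_nonneg _)]
        refine pow_le_pow_left₀ (le_max_right _ _) (max_le ((real_inner_le_norm _ _).trans ?_)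
          (by positivity)) 2
        exact mul_le_mul_of_nonneg_left ((norm_sub_le _ _).trans (by linarith)) (norm_nonneg _))
  have e1 : ∀ x, ‖T x - T' x‖ ^ 2 = ∑ i : Fin d,
      (max ⟪EuclideanSpace.single i (1 : ℝ), T x - T' x⟫ 0 ^ 2
        + max ⟪-EuclideanSpace.single i (1 : ℝ), T x - T' x⟫ 0 ^ 2) := fun x => by
    rw [EuclideanSpace.real_norm_sq_eq]
    refine Finset.sum_congr rfl fun i _ => ?_
    rw [inner_neg_left, EuclideanSpace.inner_single_left]
    simp only [map_one, one_mul]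
    rcases le_total ((T x - T' x) i) 0 with h | h
    · rw [max_eq_right h, max_eq_left (by linarith)]; ring
    · rw [max_eq_left h, max_eq_right (by linarith)]; ring
  simp only [e1]
  rw [integral_finsetSum _ fun i _ => (iz _).fun_add (iz _)]
  refine (Finset.sum_le_card_nsmul _ _ (2 * (4 * (∫ x, (u x - v x - c) ^ 2 ∂(unif K)) / τ ^ 2
      + 12 * L ^ 2 * β + 4 * L * (∫ x, G x ∂(unif K) + ∫ x, G' x ∂(unif K)) / τ))
      fun i _ => ?_).trans (le_of_eq (by simp; ring))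
  rw [integral_add (iz _) (iz _), two_mul]
  exact add_le_add
    (rp_dir hK hi hR hS τ0 hS1 hS2 L0 hT hT' bT bT' hu hv vc vl iG iG' G0 G0' hG hG' c (by simp))
    (rp_dir hK hi hR hS τ0 hS1 hS2 L0 hT hT' bT bT' hu hv vc vl iG iG' G0 G0' hG hG' c (by simp))

end Vale.Agent.P074
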