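import Vale.Agent.P074.Gap
import Vale.Agent.P074.RP

namespace Vale.Agent.P074

open MeasureTheory Set Filter
open scoped ENNReal Topology RealInnerProductSpace

variable {d : ℕ}

lemma discretize {X : Type} [MetricSpace X] [SecondCountableTopology X] [MeasurableSpace X]
    [BorelSpace X] [Nonempty X] (γ : Measure X) [IsProbabilityMeasure γ] {Z : Set X}
    (hZ : IsCompact Z) (hγ : ∀ᵐ p ∂γ, p ∈ Z) {δ : ℝ} (δ0 : 0 < δ) :
    ∃ (ι : Type) (_ : Fintype ι) (q : ι → X) (Q : ι → Set X), Function.Injective q ∧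
      γ = ∑ i, γ.restrict (Q i) ∧ (∀ i, γ (Q i) ≠ 0) ∧
      ∀ i, ∀ᵐ p ∂(γ.restrict (Q i)), p ∈ Z ∧ dist p (q i) ≤ δ := by
  classical
  obtain ⟨N, hN⟩ : ∃ N : ℕ, ∀ p ∈ Z, ∃ k ≤ N, dist (TopologicalSpace.denseSeq X k) p < δ := by
    obtain ⟨t, ht⟩ := hZ.elim_finite_subcover
      (fun k => Metric.ball (TopologicalSpace.denseSeq X k) δ) (fun _ => Metric.isOpen_ball)
      (fun p _ => by
        obtain ⟨k, hk⟩ := (TopologicalSpace.denseRange_denseSeq X).exists_dist_lt p δ0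
        exact mem_iUnion.2 ⟨k, hk⟩)
    refine ⟨t.sup id, fun p hp => ?_⟩
    obtain ⟨k, hk, h⟩ := mem_iUnion₂.1 (ht hp)
    exact ⟨k, Finset.le_sup (f := id) hk, by rwa [dist_comm]⟩
  obtain ⟨r, hr⟩ : ∃ r : SimpleFunc X X, ∀ p ∈ Z, dist p (r p) ≤ δ := by
    refine ⟨SimpleFunc.nearestPt (TopologicalSpace.denseSeq X) N, fun p hp => ?_⟩
    obtain ⟨k, hk, h⟩ := hN p hp
    have := SimpleFunc.edist_nearestPt_le (TopologicalSpace.denseSeq X) p hk
    rw [edist_dist, edist_dist, ENNReal.ofReal_le_ofReal_iff dist_nonneg] at this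
    rw [dist_comm]; linarith
  refine ⟨{a // a ∈ r.range.filter fun a => γ (r ⁻¹' {a}) ≠ 0}, inferInstance, Subtype.val,
    fun a => r ⁻¹' {a.1}, Subtype.val_injective, ?_, fun a => (Finset.mem_filter.1 a.2).2,
    fun a => ?_⟩
  · refine measure_eq_sum_restrict (fun a => r.measurableSet_fiber _) ?_ ?_
    · intro a b hab
      refine Disjoint.aedisjoint (Disjoint.preimage _ ?_)
      simpa using fun h => hab (Subtype.ext h)
    · have : ∀ᵐ p ∂γ, ∀ a ∈ r.range, γ (r ⁻¹' {a}) = 0 → p ∉ r ⁻¹' {a} := by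
        refine (Filter.eventually_all_finset _).2 fun a _ => ?_
        by_cases h : γ (r ⁻¹' {a}) = 0
        · simpa [h] using measure_eq_zero_iff_ae_notMem.1 h
        · simp [h]
      filter_upwards [this] with p hp
      exact ⟨⟨r p, Finset.mem_filter.2 ⟨r.mem_range_self p,
        fun h => hp _ (r.mem_range_self p) h rfl⟩⟩, rfl⟩
  · filter_upwards [ae_restrict_of_ae hγ, ae_restrict_mem (r.measurableSet_fiber a.1)] with p h1 h2
    have : r p = a.1 := h2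
    exact ⟨h1, this ▸ hr p h1⟩

variable {ι : Type} [Fintype ι] [Nonempty ι]

lemma gap_fun (i0 : Fin d) {ρ μ : Measure (E d)} [IsProbabilityMeasure ρ] {R : ℝ} {Y : Set (E d)}
    (hρ : ∀ᵐ x ∂ρ, ‖x‖ ≤ R) (hac : ρ ≪ volume) (hY : IsCompact Y) (hμ : μ Yᶜ = 0)
    {T : E d → E d} (hT : IsOptimalMap ρ μ T) {m : ι → ℝ} (m0 : ∀ i, 0 < m i)
    (m1 : ∑ i, m i = 1) {μi : ι → Measure (E d)} (hsum : μ = ∑ i, μi i)
    (hm : ∀ i, μi i univ = ENNReal.ofReal (m i)) {y y' : ι → E d} (hy : Function.Injective y')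
    {δ : ℝ} (hδ : ∀ i, ∀ᵐ z ∂(μi i), ‖z - y i‖ ≤ δ) (hδ' : ∀ i, ‖y i - y' i‖ ≤ δ)
    {ψ : ι → ℝ} (hψ : IsOpt ρ m y ψ) (R0 : 0 ≤ R) :
    ∃ G : E d → ℝ, Integrable G ρ ∧ (∀ᵐ x ∂ρ, 0 ≤ G x) ∧
      (∀ x x', ‖x'‖ ≤ R → pot y ψ x + ⟪x' - x, T x⟫ - G x ≤ pot y ψ x') ∧
      ∫ x, G x ∂ρ ≤ 4 * R * δ := by
  obtain ⟨ψ', hψ'⟩ := exists_opt hρ m0 m1 y'
  have h1 := no_gap i0 hρ hac hY hμ hT m0 m1 hsum hm hy (δ := 2 * δ) (fun i => by
    filter_upwards [hδ i] with z hz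
    linarith [hδ' i, norm_sub_le_norm_sub_add_norm_sub z (y i) (y' i)]) hψ'
  have h2 := (hψ ψ').trans (dual_le_dual hρ hδ' ψ')
  obtain ⟨g, hg⟩ : ∃ g : E d → ℝ,
    g = fun z => Finset.univ.inf' Finset.univ_nonempty fun i => ψ i + R * ‖z - y i‖ := ⟨_, rfl⟩
  have gc : Continuous g := by
    rw [hg]; exact Continuous.finset_inf'_apply _ fun i _ => by fun_prop
  have gle : ∀ z i, g z ≤ ψ i + R * ‖z - y i‖ := fun z i => by
    rw [hg]; exact Finset.inf'_le (fun i => ψ i + R * ‖z - y i‖) (Finset.mem_univ i)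
  have young : ∀ x z, ‖x‖ ≤ R → ⟪x, z⟫ - pot y ψ x ≤ g z := fun x z hx => by
    rw [hg]
    refine Finset.le_inf' _ _ fun i _ => ?_
    have a1 := le_pot y ψ x i
    have a2 := real_inner_le_norm x (z - y i)
    have a3 := mul_le_mul_of_nonneg_right hx (norm_nonneg (z - y i))
    rw [inner_sub_right] at a2
    linarith
  have hK := isCompact_closedBall (0 : E d) R
  have hρ' : ∀ᵐ x ∂ρ, x ∈ Metric.closedBall (0 : E d) R := hρ.mono fun x hx => by simpa using hx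
  have hTY := ae_mem_of_map hY.measurableSet hμ hT.1
  have i1 := integrable_of_cont hρ (pot_cont y ψ)
  have i2 : Integrable (fun x => g (T x)) ρ :=
    integrable_comp_pair hK hY hρ' hT.1.1 hTY (F := fun p => g p.2) (by fun_prop)
  have i3 : Integrable (fun x => ⟪x, T x⟫) ρ :=
    integrable_comp_pair hK hY hρ' hT.1.1 hTY (F := fun p => ⟪p.1, p.2⟫) (by fun_prop)
  have i4 : Integrable (fun x => pot y ψ x + g (T x)) ρ := i1.add i2
  refine ⟨fun x => pot y ψ x + g (T x) - ⟪x, T x⟫, i4.sub i3,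
    hρ.mono fun x hx => by linarith [young x (T x) hx], fun x x' hx' => ?_, ?_⟩
  · have := young x' (T x) hx'
    rw [inner_sub_left]; linarith
  · rw [integral_sub i4 i3, integral_add i1 i2]
    have fin : ∀ i, IsFiniteMeasure (μi i) := fun i => ⟨by rw [hm]; exact ENNReal.ofReal_lt_top⟩
    have ig : ∀ i, Integrable g (μi i) := fun i =>
      integrable_of_cont (R := ‖y i‖ + δ) ((hδ i).mono fun z hz => by
        linarith [norm_le_insert' z (y i)]) gc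
    have h3 : ∫ x, g (T x) ∂ρ ≤ ∑ i, m i * ψ i + R * δ := by
      rw [← integral_map hT.1.1.aemeasurable gc.aestronglyMeasurable, hT.1.2, hsum,
        integral_finsetSum_measure fun i _ => ig i, ← mul_one (R * δ), ← m1, Finset.mul_sum,
        ← Finset.sum_add_distrib]
      refine Finset.sum_le_sum fun i _ => ?_
      have := integral_mono_ae (ig i) (integrable_const (ψ i + R * δ)) ((hδ i).mono fun z hz => by
        linarith [gle z i, mul_le_mul_of_nonneg_left hz R0])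
      rw [integral_const, measureReal_def, hm, ENNReal.toReal_ofReal (m0 i).le, smul_eq_mul] at this
      linarith
    unfold dual at h1 h2
    linarith

lemma pot_convex (y : ι → E d) (ψ : ι → ℝ) (x a : E d) :
    2 * pot y ψ x ≤ pot y ψ (x + a) + pot y ψ (x - a) := by
  obtain ⟨i, hi⟩ := exists_pot y ψ x
  have h1 := le_pot y ψ (x + a) i
  have h2 := le_pot y ψ (x - a) i
  rw [inner_add_left] at h1
  rw [inner_sub_left] at h2
  linarith

lemma main_coupling (i0 : Fin d) {K Y : Set (E d)} (hK : IsCompact K) (hc : Convex ℝ K)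
    (hi : (interior K).Nonempty) {R : ℝ} (R0 : 0 < R) (hR : ∀ x ∈ K, ‖x‖ ≤ R)
    {x0 : E d} {r : ℝ} (r0 : 0 < r) (hr : Metric.closedBall x0 r ⊆ K) (hY : IsCompact Y)
    {L : ℝ} (L0 : 0 ≤ L) (hL : ∀ y ∈ Y, ‖y‖ + 1 ≤ L) {μ ν : Measure (E d)} (hμ : IsProbOn Y μ)
    (hν : IsProbOn Y ν) {T S : E d → E d} (hT : IsOptimalMap (unif K) μ T)
    (hS : IsOptimalMap (unif K) ν S) {γ : Measure (E d × E d)} (hγ : IsCoupling μ ν γ)
    {τ : ℝ} (τ0 : 0 < τ) (τr : τ ≤ r) {δ : ℝ} (δ0 : 0 < δ) (δ1 : δ ≤ 1) :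
    ∫ x, ‖T x - S x‖ ^ 2 ∂(unif K) ≤ 2 * d *
      (4 * (20000000 * R ^ 2 * (2 * ∫ p, ‖p.1 - p.2‖ ^ 2 ∂γ + 8 * δ ^ 2)) / τ ^ 2
        + 12 * L ^ 2 * (d * (τ / r)) + 4 * L * (4 * R * δ + 4 * R * δ) / τ) := by
  haveI := unif_isProb hK hi
  haveI := hμ.1
  haveI : IsProbabilityMeasure γ := ⟨by
    have : (γ.map Prod.fst) univ = 1 := by rw [hγ.1]; exact measure_univ
    rwa [Measure.map_apply measurable_fst MeasurableSet.univ] at this⟩
  have hρ : ∀ᵐ x ∂(unif K), ‖x‖ ≤ R := (unif_ae_mem hK).mono hR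
  have hac := unif_ac K
  have hγY : ∀ᵐ p ∂γ, p ∈ Y ×ˢ Y := by
    have h1 : ∀ᵐ p ∂γ, p.1 ∈ Y := ae_of_ae_map (p := fun y => y ∈ Y)
      measurable_fst.aemeasurable (by rw [hγ.1]; exact hμ.2)
    have h2 : ∀ᵐ p ∂γ, p.2 ∈ Y := ae_of_ae_map (p := fun y => y ∈ Y)
      measurable_snd.aemeasurable (by rw [hγ.2]; exact hν.2)
    filter_upwards [h1, h2] with p a b using ⟨a, b⟩
  obtain ⟨ι, _, q, Q, hq, part, Q0, hQ⟩ := discretize γ (hY.prod hY) hγY δ0
  obtain ⟨m, hm⟩ : ∃ m : ι → ℝ, m = fun i => γ.real (Q i) := ⟨_, rfl⟩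
  have m0 : ∀ i, 0 < m i := fun i => by
    rw [hm]; exact ENNReal.toReal_pos (Q0 i) (measure_ne_top _ _)
  have m1 : ∑ i, m i = 1 := by
    have h1 := integral_eq_sum_of part (integrable_const (1 : ℝ))
    simp only [integral_const, probReal_univ, smul_eq_mul, mul_one,
      measureReal_restrict_apply_univ] at h1
    rw [hm]; exact h1.symm
  haveI : Nonempty ι := by
    by_contra h
    rw [not_nonempty_iff] at h
    simp at m1
  have d1 : ∀ i, ∀ᵐ p ∂(γ.restrict (Q i)), ‖p.1 - (q i).1‖ ≤ δ := fun i =>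
    (hQ i).mono fun p hp => by
      rw [← dist_eq_norm]; exact (max_le_iff.1 (Prod.dist_eq.symm.trans_le hp.2)).1
  have d2 : ∀ i, ∀ᵐ p ∂(γ.restrict (Q i)), ‖p.2 - (q i).2‖ ≤ δ := fun i =>
    (hQ i).mono fun p hp => by
      rw [← dist_eq_norm]; exact (max_le_iff.1 (Prod.dist_eq.symm.trans_le hp.2)).2
  have nb : ∀ i, ‖(q i).1‖ ≤ L ∧ ‖(q i).2‖ ≤ L := fun i => by
    haveI : (ae (γ.restrict (Q i))).NeBot := ae_restrict_neBot.2 (Q0 i)
    obtain ⟨p, h1, h2, h3⟩ := ((hQ i).and ((d1 i).and (d2 i))).exists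
    have a1 := hL _ h1.1.1
    have a2 := hL _ h1.1.2
    constructor
    · linarith [norm_le_insert p.1 (q i).1]
    · linarith [norm_le_insert p.2 (q i).2]
  obtain ⟨y0, hy0⟩ : ∃ y0 : ι → E d, y0 = fun i => (q i).1 := ⟨_, rfl⟩
  obtain ⟨y1, hy1⟩ : ∃ y1 : ι → E d, y1 = fun i => (q i).2 := ⟨_, rfl⟩
  have hy : Function.Injective fun i => (y0 i, y1 i) := by rw [hy0, hy1]; exact hq
  have hy' : Function.Injective fun i => (y1 i, y0 i) := fun i j h => hy (by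
    simp only [Prod.mk.injEq] at h ⊢; exact h.symm)
  have near : ∀ y0 y1 : ι → E d, Function.Injective (fun i => (y0 i, y1 i)) →
      ∃ y' : ι → E d, Function.Injective y' ∧ ∀ i, ‖y0 i - y' i‖ ≤ δ := by
    intro y0 y1 h
    obtain ⟨t, ht, ht'⟩ := (Ioo_infinite (a := (0 : ℝ)) (b := δ / (‖y1 - y0‖ + 1))
      (by positivity)).exists_notMem_finite (bad_finite h)
    refine ⟨interp y0 y1 t, by simpa using ht', fun i => ?_⟩
    have h1 : ‖y1 i - y0 i‖ ≤ ‖y1 - y0‖ := norm_le_pi_norm (y1 - y0) i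
    have h2 := (lt_div_iff₀ (by positivity)).1 ht.2
    rw [interp, sub_add_cancel_left, norm_neg, norm_smul, Real.norm_eq_abs, abs_of_pos ht.1]
    nlinarith [ht.1]
  obtain ⟨y0', a1, a2⟩ := near y0 y1 hy
  obtain ⟨y1', a3, a4⟩ := near y1 y0 hy'
  obtain ⟨ψ0, h0⟩ := exists_opt hρ m0 m1 y0
  obtain ⟨ψ1, h1⟩ := exists_opt hρ m0 m1 y1
  obtain ⟨G, iG, G0, hG, bG⟩ := gap_fun i0 hρ hac hY hμ.2 hT m0 m1
    (μi := fun i => (γ.restrict (Q i)).map Prod.fst)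
    (by rw [← Measure.map_finset_sum measurable_fst.aemeasurable, ← part, hγ.1])
    (fun i => by
      rw [Measure.map_apply measurable_fst MeasurableSet.univ, hm]; simp) a1
    (fun i => (ae_map_iff measurable_fst.aemeasurable
      (measurableSet_le (by fun_prop) measurable_const)).2 (by rw [hy0]; exact d1 i)) a2 h0 R0.le
  obtain ⟨G', iG', G0', hG', bG'⟩ := gap_fun i0 hρ hac hY hν.2 hS m0 m1
    (μi := fun i => (γ.restrict (Q i)).map Prod.snd)
    (by rw [← Measure.map_finset_sum measurable_snd.aemeasurable, ← part, hγ.2])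
    (fun i => by
      rw [Measure.map_apply measurable_snd MeasurableSet.univ, hm]; simp) a3
    (fun i => (ae_map_iff measurable_snd.aemeasurable
      (measurableSet_le (by fun_prop) measurable_const)).2 (by rw [hy1]; exact d2 i)) a4 h1 R0.le
  obtain ⟨c, hc'⟩ := semi_var R0 hρ hac hR (realPL_unif hK hc hi) m0 m1 hy' h1 h0
  obtain ⟨S', s1, s2, s3⟩ := inner_set hK hc hi r0 hr τ0 τr
  have key := rp hK hi hR s1 τ0 s2 s3 L0 hT.1.1 hS.1.1
    ((ae_mem_of_map hY.measurableSet hμ.2 hT.1).mono fun x hx => by linarith [hL _ hx])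
    ((ae_mem_of_map hY.measurableSet hν.2 hS.1).mono fun x hx => by linarith [hL _ hx])
    (pot_cont y0 ψ0) (pot_cont y1 ψ1) (pot_convex y1 ψ1)
    (pot_lip (fun i => by rw [hy1]; exact (nb i).2) ψ1) iG iG' G0 G0'
    (Eventually.of_forall fun x x' hx' => hG x x' (hR x' hx'))
    (Eventually.of_forall fun x x' hx' => hG' x x' (hR x' hx')) c
  have ic : Integrable (fun p : E d × E d => ‖p.1 - p.2‖ ^ 2) γ := by
    obtain ⟨C, hC⟩ := (hY.prod hY).exists_bound_of_continuousOn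
      (f := fun p : E d × E d => ‖p.1 - p.2‖ ^ 2) (by fun_prop)
    exact Integrable.of_bound (C := C) (Continuous.aestronglyMeasurable (by fun_prop))
      (hγY.mono hC)
  have hW : ∑ i, m i * ‖y0 i - y1 i‖ ^ 2 ≤ 2 * ∫ p, ‖p.1 - p.2‖ ^ 2 ∂γ + 8 * δ ^ 2 := by
    rw [integral_eq_sum_of part ic, ← mul_one (8 * δ ^ 2), ← m1, Finset.mul_sum, Finset.mul_sum,
      ← Finset.sum_add_distrib]
    refine Finset.sum_le_sum fun i _ => ?_
    have := integral_mono_ae (integrable_const (‖y0 i - y1 i‖ ^ 2 - 8 * δ ^ 2))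
      ((ic.integrableOn (s := Q i)).const_mul 2) (by
        filter_upwards [d1 i, d2 i] with p b1 b2
        have e : y0 i - y1 i = (p.1 - p.2) - (p.1 - (q i).1) + (p.2 - (q i).2) := by
          rw [hy0, hy1]; simp only; abel
        have b3 : ‖y0 i - y1 i‖ ≤ ‖p.1 - p.2‖ + 2 * δ := by
          rw [e]
          linarith [norm_add_le ((p.1 - p.2) - (p.1 - (q i).1)) (p.2 - (q i).2),
            norm_sub_le (p.1 - p.2) (p.1 - (q i).1)]
        have b4 := pow_le_pow_left₀ (norm_nonneg _) b3 2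
        nlinarith [sq_nonneg (‖p.1 - p.2‖ - 2 * δ)])
    rw [integral_const, measureReal_restrict_apply_univ, integral_const_mul, smul_eq_mul] at this
    rw [hm]; simp only; linarith
  refine key.trans ?_
  gcongr
  exact hc'.trans (by gcongr)

lemma exists_coupling {Y : Set (E d)} (hY : IsCompact Y) {μ ν : Measure (E d)} (hμ : IsProbOn Y μ)
    (hν : IsProbOn Y ν) {ε : ℝ} (ε0 : 0 < ε) :
    ∃ γ, IsCoupling μ ν γ ∧ ∫ p, ‖p.1 - p.2‖ ^ 2 ∂γ ≤ W2 μ ν ^ 2 + ε := by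
  haveI := hμ.1
  haveI := hν.1
  obtain ⟨C, hC⟩ := (hY.prod hY).exists_bound_of_continuousOn
    (f := fun p : E d × E d => ‖p.1 - p.2‖ ^ 2) (by fun_prop)
  have conv : ∀ γ, IsCoupling μ ν γ →
      ∫⁻ p, ‖p.1 - p.2‖ₑ ^ 2 ∂γ = ENNReal.ofReal (∫ p, ‖p.1 - p.2‖ ^ 2 ∂γ) := by
    intro γ hγ
    haveI : IsProbabilityMeasure γ := ⟨by
      have : (γ.map Prod.fst) univ = 1 := by rw [hγ.1]; exact measure_univ
      rwa [Measure.map_apply measurable_fst MeasurableSet.univ] at this⟩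
    have h1 : ∀ᵐ p ∂γ, p.1 ∈ Y := ae_of_ae_map (p := fun y => y ∈ Y)
      measurable_fst.aemeasurable (by rw [hγ.1]; exact hμ.2)
    have h2 : ∀ᵐ p ∂γ, p.2 ∈ Y := ae_of_ae_map (p := fun y => y ∈ Y)
      measurable_snd.aemeasurable (by rw [hγ.2]; exact hν.2)
    rw [ofReal_integral_eq_lintegral_ofReal]
    · simp only [enorm_sq_eq]
    · refine Integrable.of_bound (C := C) (Continuous.aestronglyMeasurable (by fun_prop)) ?_
      filter_upwards [h1, h2] with p a b using hC p ⟨a, b⟩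
    · exact Eventually.of_forall fun _ => sq_nonneg _
  have hp : IsCoupling μ ν (μ.prod ν) := ⟨by simp, by simp⟩
  obtain ⟨I, hI⟩ : ∃ I, I = ⨅ (π : Measure (E d × E d)) (_ : IsCoupling μ ν π),
    ∫⁻ p, ‖p.1 - p.2‖ₑ ^ 2 ∂π := ⟨_, rfl⟩
  have fin : I ≠ ∞ := by
    rw [hI]
    exact ne_top_of_le_ne_top (by rw [conv _ hp]; exact ENNReal.ofReal_ne_top) (iInf₂_le _ hp)
  have hlt : I < I + ENNReal.ofReal ε := ENNReal.lt_add_right fin (by simpa using ε0)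
  nth_rewrite 1 [hI] at hlt
  obtain ⟨γ, hγ⟩ := iInf_lt_iff.1 hlt
  obtain ⟨h1, h2⟩ := iInf_lt_iff.1 hγ
  refine ⟨γ, h1, ?_⟩
  rw [conv γ h1] at h2
  unfold W2
  rw [← hI, Real.sq_sqrt ENNReal.toReal_nonneg]
  have := (ENNReal.ofReal_le_iff_le_toReal
    (ENNReal.add_ne_top.2 ⟨fin, ENNReal.ofReal_ne_top⟩)).1 h2.le
  rwa [ENNReal.toReal_add fin ENNReal.ofReal_ne_top, ENNReal.toReal_ofReal ε0.le] at this

theorem admissible_third (hd : 1 ≤ d) : Admissible d (1 / 3) := by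
  refine ⟨by norm_num, by norm_num, fun K hK hc hi Y hY _ => ?_⟩
  haveI := unif_isProb hK hi
  obtain ⟨R, R0, hR⟩ := hK.isBounded.exists_pos_norm_le
  obtain ⟨L', L0, hL⟩ := hY.isBounded.exists_pos_norm_le
  obtain ⟨x0, r, r0, hr⟩ : ∃ x0 r, 0 < r ∧ Metric.closedBall x0 r ⊆ K := by
    obtain ⟨x0, hx0⟩ := hi
    obtain ⟨r, r0, hr⟩ := Metric.nhds_basis_closedBall.mem_iff.1 (mem_interior_iff_mem_nhds.1 hx0)
    exact ⟨x0, r, r0, hr⟩
  obtain ⟨L, rfl⟩ : ∃ L, L' = L - 1 := ⟨L' + 1, by ring⟩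
  obtain ⟨A, hA⟩ : ∃ A : ℝ, A = 2 * d * (4 * (20000000 * R ^ 2 * 2)) := ⟨_, rfl⟩
  obtain ⟨B, hB⟩ : ∃ B : ℝ, B = 2 * d * (12 * L ^ 2 * (d / r)) := ⟨_, rfl⟩
  have A0 : 0 ≤ A := by rw [hA]; positivity
  have B0 : 0 ≤ B := by rw [hB]; positivity
  refine ⟨Real.sqrt (A + B + 4 * L ^ 2 / r), fun μ ν hμ hν T S hT hS => ?_⟩
  obtain ⟨X, hX⟩ : ∃ X, X = ∫ x, ‖T x - S x‖ ^ 2 ∂(unif K) := ⟨_, rfl⟩
  obtain ⟨W, hW⟩ : ∃ W, W = W2 μ ν := ⟨_, rfl⟩
  have W0 : 0 ≤ W := hW ▸ W2_nonneg μ ν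
  have key : ∀ τ, 0 < τ → τ ≤ r → X ≤ A * W ^ 2 / τ ^ 2 + B * τ := by
    intro τ τ0 τr
    have cont : Continuous fun δ : ℝ => 2 * d *
      (4 * (20000000 * R ^ 2 * (2 * (W ^ 2 + δ) + 8 * δ ^ 2)) / τ ^ 2
        + 12 * L ^ 2 * (d * (τ / r)) + 4 * L * (4 * R * δ + 4 * R * δ) / τ) := by fun_prop
    have lim := (cont.tendsto 0).mono_left (nhdsWithin_le_nhds (s := Ioi 0))
    refine (ge_of_tendsto lim ?_).trans (le_of_eq ?_)
    · filter_upwards [Ioc_mem_nhdsGT (zero_lt_one' ℝ)] with δ hδ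
      obtain ⟨γ, h1, h2⟩ := exists_coupling hY hμ hν hδ.1
      rw [hX]
      refine (main_coupling ⟨0, hd⟩ hK hc hi R0 hR r0 hr hY (L := L) (by linarith)
        (fun y hy => by linarith [hL y hy]) hμ hν hT hS h1 τ0 τr hδ.1 hδ.2).trans ?_
      rw [hW]
      gcongr
    · rw [hA, hB]; ring
  have triv : X ≤ 4 * L ^ 2 := by
    rw [hX]
    have := norm_integral_le_of_norm_le_const (μ := unif K) (f := fun x => ‖T x - S x‖ ^ 2)
      (C := 4 * L ^ 2) (by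
        filter_upwards [ae_mem_of_map hY.measurableSet hμ.2 hT.1,
          ae_mem_of_map hY.measurableSet hν.2 hS.1] with x h1 h2
        rw [Real.norm_eq_abs, abs_of_nonneg (sq_nonneg _)]
        have h3 : ‖T x - S x‖ ≤ 2 * L := by
          linarith [norm_sub_le (T x) (S x), hL _ h1, hL _ h2]
        have := pow_le_pow_left₀ (norm_nonneg _) h3 2
        linarith)
    rw [probReal_univ, mul_one] at this
    exact (le_abs_self _).trans this
  obtain ⟨t, ht⟩ : ∃ t, t = W ^ (1 / 3 : ℝ) := ⟨_, rfl⟩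
  have t0 : 0 ≤ t := ht ▸ Real.rpow_nonneg W0 _
  have t3 : W = t ^ 3 := by
    rw [ht, ← Real.rpow_natCast, ← Real.rpow_mul W0]; norm_num
  rw [← hX, ← hW, ← ht, ← Real.sqrt_sq t0, ← Real.sqrt_mul (by positivity)]
  apply Real.sqrt_le_sqrt
  have r1 : 0 ≤ 4 * L ^ 2 / r := by positivity
  rcases t0.eq_or_lt with h0 | h0
  · rw [← h0] at t3 ⊢
    have : X ≤ 0 := by
      have lim : Tendsto (fun τ : ℝ => B * τ) (𝓝[>] 0) (𝓝 (B * 0)) :=
        ((continuous_const.mul continuous_id).tendsto 0).mono_left nhdsWithin_le_nhds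
      rw [mul_zero] at lim
      refine ge_of_tendsto lim ?_
      filter_upwards [Ioc_mem_nhdsGT r0] with τ hτ
      simpa [t3] using key τ hτ.1 hτ.2
    simpa using this
  rcases le_total (t ^ 2) r with h | h
  · have := key (t ^ 2) (by positivity) h
    rw [t3, show A * (t ^ 3) ^ 2 / (t ^ 2) ^ 2 = A * t ^ 2 by field_simp] at this
    nlinarith [mul_nonneg r1 (sq_nonneg t)]
  · have : 4 * L ^ 2 ≤ 4 * L ^ 2 / r * t ^ 2 := by
      rw [div_mul_eq_mul_div, le_div_iff₀ r0]; nlinarith [sq_nonneg L]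
    nlinarith [mul_nonneg A0 (sq_nonneg t), mul_nonneg B0 (sq_nonneg t)]

end Vale.Agent.P074
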