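import Mathlib

/-! Midpoint Prékopa–Leindler inequality. -/

namespace Vale.Agent.P074

open MeasureTheory Set Filter
open scoped ENNReal Topology

lemma vol_half_preimage (b : ℝ) (C : Set ℝ) :
    volume ((fun x : ℝ => (x + b) / 2) ⁻¹' C) = 2 * volume C := by
  have : (fun x : ℝ => (x + b) / 2) ⁻¹' C
      = (fun x => x + b) ⁻¹' ((fun x : ℝ => x * (1 / 2)) ⁻¹' C) := by
    ext x; simp [div_eq_mul_inv]
  rw [this, measure_preimage_add_right, Real.volume_preimage_mul_right (by norm_num)]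
  congr 1
  norm_num

lemma bm_compact {A B C : Set ℝ} (hA : IsCompact A) (hB : IsCompact B) (hAn : A.Nonempty)
    (hBn : B.Nonempty) (hC : MeasurableSet C) (h : ∀ x ∈ A, ∀ y ∈ B, (x + y) / 2 ∈ C) :
    volume A + volume B ≤ 2 * volume C := by
  obtain ⟨a, ha, ha'⟩ := hA.exists_isGreatest hAn
  obtain ⟨b, hb, hb'⟩ := hB.exists_isLeast hBn
  have h1 : A ⊆ (fun x : ℝ => (x + b) / 2) ⁻¹' (C ∩ Iic ((a + b) / 2)) := by
    intro x hx
    refine ⟨h x hx b hb, ?_⟩
    have := ha' hx
    simp only [mem_Iic]; linarith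
  have h2 : B ⊆ (fun x : ℝ => (x + a) / 2) ⁻¹' (C ∩ Ici ((a + b) / 2)) := by
    intro x hx
    refine ⟨by simpa [add_comm] using h a ha x hx, ?_⟩
    have := hb' hx
    simp only [mem_Ici]; linarith
  have h3 := measure_mono (μ := volume) h1
  have h4 := measure_mono (μ := volume) h2
  rw [vol_half_preimage] at h3 h4
  have h5 : volume (C ∩ Ici ((a + b) / 2)) = volume (C \ Iic ((a + b) / 2)) := by
    rw [diff_eq, compl_Iic]
    exact measure_congr ((ae_eq_refl C).inter Ioi_ae_eq_Ici.symm)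
  calc volume A + volume B
      ≤ 2 * volume (C ∩ Iic ((a + b) / 2)) + 2 * volume (C ∩ Ici ((a + b) / 2)) :=
        add_le_add h3 h4
    _ = 2 * volume C := by
        rw [h5, ← mul_add, measure_inter_add_diff _ measurableSet_Iic]

lemma bm_one {A B C : Set ℝ} (hA : MeasurableSet A) (hB : MeasurableSet B) (hAn : A.Nonempty)
    (hBn : B.Nonempty) (hC : MeasurableSet C) (h : ∀ x ∈ A, ∀ y ∈ B, (x + y) / 2 ∈ C) :
    volume A + volume B ≤ 2 * volume C := by
  obtain ⟨a, ha⟩ := hAn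
  obtain ⟨b, hb⟩ := hBn
  have key : ∀ K ⊆ A, IsCompact K → ∀ L ⊆ B, IsCompact L →
      volume K + volume L ≤ 2 * volume C := by
    intro K hK hKc L hL hLc
    have := bm_compact (hKc.insert a) (hLc.insert b) (insert_nonempty _ _) (insert_nonempty _ _) hC
      (fun x hx y hy => h x (insert_subset ha hK hx) y (insert_subset hb hL hy))
    exact (add_le_add (measure_mono (subset_insert _ _)) (measure_mono (subset_insert _ _))).trans
      this
  have eA : volume A = ⨆ (K : Set ℝ) (_ : K ⊆ A ∧ IsCompact K), volume K := by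
    rw [hA.measure_eq_iSup_isCompact]; simp only [iSup_and]
  have eB : volume B = ⨆ (K : Set ℝ) (_ : K ⊆ B ∧ IsCompact K), volume K := by
    rw [hB.measure_eq_iSup_isCompact]; simp only [iSup_and]
  rw [eA, eB]
  refine ENNReal.biSup_add_biSup_le' ⟨∅, empty_subset _, isCompact_empty⟩
    ⟨∅, empty_subset _, isCompact_empty⟩ ?_
  intro K hK L hL
  exact key K hK.1 hK.2 L hL.1 hL.2

/-- normalized one-dimensional inequality -/
lemma pl_one_norm {f g h : ℝ → ℝ} (hf : Measurable f) (hg : Measurable g) (hh : Measurable h)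
    (f0 : ∀ x, 0 ≤ f x) (g0 : ∀ x, 0 ≤ g x) (h0 : ∀ x, 0 ≤ h x)
    (f1 : ∀ x, f x ≤ 1) (g1 : ∀ x, g x ≤ 1)
    (fs : ∀ t < 1, ∃ x, t < f x) (gs : ∀ t < 1, ∃ x, t < g x)
    (H : ∀ x y, f x * g y ≤ h ((x + y) / 2) ^ 2) :
    (∫⁻ x, ENNReal.ofReal (f x)) + ∫⁻ x, ENNReal.ofReal (g x)
      ≤ 2 * ∫⁻ x, ENNReal.ofReal (h x) := by
  rw [lintegral_eq_lintegral_meas_lt _ (Eventually.of_forall f0) hf.aemeasurable,
    lintegral_eq_lintegral_meas_lt _ (Eventually.of_forall g0) hg.aemeasurable,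
    lintegral_eq_lintegral_meas_lt _ (Eventually.of_forall h0) hh.aemeasurable]
  have mf : Measurable fun t : ℝ => volume {a | t < f a} :=
    Antitone.measurable fun s t hst => measure_mono fun a ha => lt_of_le_of_lt hst ha
  have mh : Measurable fun t : ℝ => volume {a | t < h a} :=
    Antitone.measurable fun s t hst => measure_mono fun a ha => lt_of_le_of_lt hst ha
  rw [← lintegral_add_left mf, ← lintegral_const_mul _ mh]
  refine setLIntegral_mono' measurableSet_Ioi fun t ht => ?_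
  have ht0 : 0 < t := ht
  by_cases ht1 : t < 1
  · refine bm_one (measurableSet_lt measurable_const hf) (measurableSet_lt measurable_const hg)
      (fs t ht1) (gs t ht1) (measurableSet_lt measurable_const hh) ?_
    intro x hx y hy
    simp only [mem_setOf_eq] at hx hy ⊢
    have h1 : t * t < f x * g y := mul_lt_mul'' hx hy ht0.le ht0.le
    have h2 := H x y
    have h3 := h0 ((x + y) / 2)
    nlinarith
  · have e1 : {a | t < f a} = ∅ := by
      ext a; simp only [mem_setOf_eq, mem_empty_iff_false, iff_false, not_lt]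
      linarith [f1 a]
    have e2 : {a | t < g a} = ∅ := by
      ext a; simp only [mem_setOf_eq, mem_empty_iff_false, iff_false, not_lt]
      linarith [g1 a]
    simp [e1, e2]

lemma ennreal_amgm {a b c : ℝ≥0∞} (h : a + b ≤ 2 * c) : a * b ≤ c ^ 2 := by
  by_cases hc : c = ∞
  · simp [hc]
  have h2 : 2 * c ≠ ∞ := ENNReal.mul_ne_top (by norm_num) hc
  have ha : a ≠ ∞ := ne_top_of_le_ne_top h2 (le_self_add.trans h)
  have hb : b ≠ ∞ := ne_top_of_le_ne_top h2 (le_add_self.trans h)
  lift a to NNReal using ha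
  lift b to NNReal using hb
  lift c to NNReal using hc
  have h' : (a : ℝ) + b ≤ 2 * c := by exact_mod_cast h
  have : (a : ℝ) * b ≤ c ^ 2 := by
    nlinarith [sq_nonneg ((a : ℝ) - b), a.2, b.2, c.2]
  exact_mod_cast this

lemma pl_one_bdd {f g h : ℝ → ℝ} (hf : Measurable f) (hg : Measurable g) (hh : Measurable h)
    (f0 : ∀ x, 0 ≤ f x) (g0 : ∀ x, 0 ≤ g x) (h0 : ∀ x, 0 ≤ h x)
    (fb : BddAbove (range f)) (gb : BddAbove (range g))
    (H : ∀ x y, f x * g y ≤ h ((x + y) / 2) ^ 2) :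
    (∫⁻ x, ENNReal.ofReal (f x)) * ∫⁻ x, ENNReal.ofReal (g x)
      ≤ (∫⁻ x, ENNReal.ofReal (h x)) ^ 2 := by
  obtain ⟨a, ha⟩ : ∃ a, a = ⨆ x, f x := ⟨_, rfl⟩
  obtain ⟨b, hb⟩ : ∃ b, b = ⨆ x, g x := ⟨_, rfl⟩
  have fa : ∀ x, f x ≤ a := fun x => ha ▸ le_ciSup fb x
  have gb' : ∀ x, g x ≤ b := fun x => hb ▸ le_ciSup gb x
  rcases (le_trans (f0 0) (fa 0)).eq_or_lt with a0 | a0
  · have : ∀ x, f x = 0 := fun x => le_antisymm (a0 ▸ fa x) (f0 x)
    simp [this]
  rcases (le_trans (g0 0) (gb' 0)).eq_or_lt with b0 | b0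
  · have : ∀ x, g x = 0 := fun x => le_antisymm (b0 ▸ gb' x) (g0 x)
    simp [this]
  obtain ⟨c, hc0, hc⟩ : ∃ c : ℝ, 0 < c ∧ c ^ 2 = a * b :=
    ⟨Real.sqrt (a * b), Real.sqrt_pos.2 (mul_pos a0 b0), Real.sq_sqrt (mul_pos a0 b0).le⟩
  have key := pl_one_norm (f := fun x => f x / a) (g := fun x => g x / b) (h := fun x => h x / c)
    (hf.div_const _) (hg.div_const _) (hh.div_const _)
    (fun x => div_nonneg (f0 x) a0.le) (fun x => div_nonneg (g0 x) b0.le)
    (fun x => div_nonneg (h0 x) hc0.le)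
    (fun x => (div_le_one a0).2 (fa x)) (fun x => (div_le_one b0).2 (gb' x))
    (fun t ht => by
      have : t * a < ⨆ x, f x := by rw [← ha]; nlinarith
      obtain ⟨x, hx⟩ := exists_lt_of_lt_ciSup this
      exact ⟨x, (lt_div_iff₀ a0).2 hx⟩)
    (fun t ht => by
      have : t * b < ⨆ x, g x := by rw [← hb]; nlinarith
      obtain ⟨x, hx⟩ := exists_lt_of_lt_ciSup this
      exact ⟨x, (lt_div_iff₀ b0).2 hx⟩)
    (fun x y => by
      rw [div_pow, hc, div_mul_div_comm]
      exact div_le_div_of_nonneg_right (H x y) (mul_pos a0 b0).le)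
  have k2 := ennreal_amgm key
  have sc : ∀ (u : ℝ → ℝ) (s : ℝ), Measurable u → 0 < s →
      ∫⁻ x, ENNReal.ofReal (u x) = ENNReal.ofReal s * ∫⁻ x, ENNReal.ofReal (u x / s) := by
    intro u s hu hs
    rw [← lintegral_const_mul _ (hu.div_const s).ennreal_ofReal]
    congr 1; ext x
    rw [← ENNReal.ofReal_mul hs.le]; congr 1; field_simp
  rw [sc f a hf a0, sc g b hg b0, sc h c hh hc0, mul_pow, ← ENNReal.ofReal_pow hc0.le, hc,
    ENNReal.ofReal_mul a0.le, mul_mul_mul_comm]
  exact mul_le_mul_right k2 _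

/-- the midpoint Prékopa–Leindler property -/
def HasPL {X : Type*} [MeasurableSpace X] (μ : Measure X) (mid : X → X → X) : Prop :=
  ∀ F G H : X → ℝ≥0∞, Measurable F → Measurable G → Measurable H →
    (∀ x y, F x * G y ≤ H (mid x y) ^ 2) → (∫⁻ x, F x ∂μ) * ∫⁻ x, G x ∂μ ≤ (∫⁻ x, H x ∂μ) ^ 2

lemma lintegral_eq_iSup_min {X : Type*} [MeasurableSpace X] (μ : Measure X) {F : X → ℝ≥0∞}
    (hF : Measurable F) : ∫⁻ x, F x ∂μ = ⨆ n : ℕ, ∫⁻ x, min (F x) n ∂μ := by
  rw [← lintegral_iSup (fun n => hF.min measurable_const)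
    (fun m n hmn x => min_le_min le_rfl (by exact_mod_cast hmn))]
  congr 1; ext x
  rcases eq_or_ne (F x) ∞ with h | h
  · simp [h, ENNReal.iSup_natCast]
  · obtain ⟨n, hn⟩ := ENNReal.exists_nat_gt h
    refine le_antisymm (le_iSup_of_le n (by simp [hn.le])) (iSup_le fun n => min_le_left _ _)

lemma hasPL_real : HasPL (volume : Measure ℝ) (fun x y => (x + y) / 2) := by
  intro F G H hF hG hH h
  rw [lintegral_eq_iSup_min _ hF, lintegral_eq_iSup_min _ hG, ENNReal.iSup_mul]
  refine iSup_le fun n => ?_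
  rw [ENNReal.mul_iSup]
  refine iSup_le fun k => ?_
  have fin : ∀ (u : ℝ≥0∞) (j : ℕ), min u j ≠ ∞ := fun u j =>
    ne_top_of_le_ne_top (ENNReal.natCast_ne_top j) (min_le_right _ _)
  have bd : ∀ (U : ℝ → ℝ≥0∞) (j : ℕ), BddAbove (range fun x => (min (U x) j).toReal) := by
    intro U j
    refine ⟨j, ?_⟩
    rintro _ ⟨x, rfl⟩
    exact ENNReal.toReal_le_of_le_ofReal (Nat.cast_nonneg _) (by simp)
  have key := pl_one_bdd (f := fun x => (min (F x) n).toReal) (g := fun x => (min (G x) k).toReal)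
    (h := fun x => (min (H x) (n + k : ℕ)).toReal)
    (hF.min measurable_const).ennreal_toReal (hG.min measurable_const).ennreal_toReal
    (hH.min measurable_const).ennreal_toReal (fun _ => ENNReal.toReal_nonneg)
    (fun _ => ENNReal.toReal_nonneg) (fun _ => ENNReal.toReal_nonneg) (bd F n) (bd G k)
    (fun x y => by
      rw [← ENNReal.toReal_mul, ← ENNReal.toReal_pow]
      refine ENNReal.toReal_mono (ENNReal.pow_ne_top (fin _ _)) ?_
      rcases le_total (H ((x + y) / 2)) (n + k : ℕ) with h1 | h1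
      · rw [min_eq_left h1]
        exact (mul_le_mul' (min_le_left _ _) (min_le_left _ _)).trans (h x y)
      · rw [min_eq_right h1, pow_two]
        refine mul_le_mul' ((min_le_right _ _).trans ?_) ((min_le_right _ _).trans ?_)
        · exact_mod_cast Nat.le_add_right n k
        · exact_mod_cast Nat.le_add_left k n)
  simp only [ENNReal.ofReal_toReal (fin _ _)] at key
  refine key.trans ?_
  gcongr with x
  exact min_le_left _ _

lemma HasPL.prod {X Y : Type*} [MeasurableSpace X] [MeasurableSpace Y] {μ : Measure X}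
    {ν : Measure Y} [SFinite ν] {m : X → X → X} {n : Y → Y → Y} (hμ : HasPL μ m)
    (hν : HasPL ν n) : HasPL (μ.prod ν) (fun p q => (m p.1 q.1, n p.2 q.2)) := by
  intro F G H hF hG hH h
  rw [lintegral_prod _ hF.aemeasurable, lintegral_prod _ hG.aemeasurable,
    lintegral_prod _ hH.aemeasurable]
  refine hμ _ _ _ hF.lintegral_prod_right' hG.lintegral_prod_right' hH.lintegral_prod_right' ?_
  intro x x'
  exact hν _ _ _ (hF.comp measurable_prodMk_left) (hG.comp measurable_prodMk_left)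
    (hH.comp measurable_prodMk_left) (fun y y' => h (x, y) (x', y'))

lemma HasPL.map {X Y : Type*} [MeasurableSpace X] [MeasurableSpace Y] {μ : Measure X}
    {ν : Measure Y} {m : X → X → X} {n : Y → Y → Y} (hμ : HasPL μ m) {e : X → Y}
    (he : MeasurePreserving e μ ν) (hm : ∀ x y, e (m x y) = n (e x) (e y)) : HasPL ν n := by
  intro F G H hF hG hH h
  rw [← he.lintegral_comp hF, ← he.lintegral_comp hG, ← he.lintegral_comp hH]
  refine hμ _ _ _ (hF.comp he.measurable) (hG.comp he.measurable) (hH.comp he.measurable) ?_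
  intro x y
  rw [hm]; exact h _ _

lemma hasPL_pi (n : ℕ) :
    HasPL (volume : Measure (Fin n → ℝ)) (fun x y i => (x i + y i) / 2) := by
  induction n with
  | zero =>
    intro F G H hF hG hH h
    rw [volume_pi, Measure.pi_of_empty]
    simp only [lintegral_dirac]
    exact (h _ _).trans (le_of_eq (congrArg (fun z => H z ^ 2) (Subsingleton.elim _ _)))
  | succ n ih =>
    refine (hasPL_real.prod ih).map
      (volume_preserving_piFinSuccAbove (fun _ : Fin (n + 1) => ℝ) 0).symm ?_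
    intro x y
    ext i
    refine Fin.cases ?_ (fun j => ?_) i <;>
      simp [MeasurableEquiv.piFinSuccAbove, Fin.insertNthEquiv]

lemma hasPL_euclidean (d : ℕ) :
    HasPL (volume : Measure (EuclideanSpace ℝ (Fin d))) (fun x y => (1 / 2 : ℝ) • (x + y)) := by
  refine (hasPL_pi d).map (PiLp.volume_preserving_toLp (Fin d)) ?_
  intro x y
  ext i
  simp; ring

end Vale.Agent.P074
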