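import Vale.Agent.P074.Cell

namespace Vale.Agent.P074

open MeasureTheory Set Filter
open scoped ENNReal Topology RealInnerProductSpace

variable {d : ℕ}

lemma volume_hyperplane {v : E d} (hv : v ≠ 0) (c : ℝ) : volume {x : E d | ⟪x, v⟫ = c} = 0 := by
  have hvv : ⟪v, v⟫ ≠ 0 := by simpa using hv
  have : {x : E d | ⟪x, v⟫ = c} = (fun x => x + -((c / ⟪v, v⟫) • v)) ⁻¹'
      ((Submodule.span ℝ {v})ᗮ : Submodule ℝ (E d)) := by
    ext x
    simp only [mem_ofPred_eq, mem_preimage, SetLike.mem_coe,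
      Submodule.mem_orthogonal_singleton_iff_inner_left, inner_add_left, inner_neg_left,
      inner_smul_left, conj_trivial]
    rw [div_mul_cancel₀ _ hvv]
    constructor <;> intro h <;> linarith
  rw [this, measure_preimage_add_right]
  apply Measure.addHaar_submodule
  intro h
  have : v ∈ ((Submodule.span ℝ {v})ᗮ : Submodule ℝ (E d)) := by rw [h]; trivial
  rw [Submodule.mem_orthogonal_singleton_iff_inner_left] at this
  exact hvv this

lemma measure_eq_sum_restrict {X ι : Type*} [MeasurableSpace X] [Fintype ι] {σ : Measure X}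
    {s : ι → Set X} (hm : ∀ i, MeasurableSet (s i)) (hd : Pairwise (Function.onFun (AEDisjoint σ) s))
    (hc : ∀ᵐ x ∂σ, ∃ i, x ∈ s i) : σ = ∑ i, σ.restrict (s i) := by
  rw [← Measure.sum_fintype, ← Measure.restrict_iUnion_ae hd (fun i => (hm i).nullMeasurableSet),
    Measure.restrict_eq_self_of_ae_mem]
  simpa using hc

lemma integral_eq_sum_of {X ι : Type*} [MeasurableSpace X] [Fintype ι] {σ : Measure X}
    {s : ι → Set X} (h : σ = ∑ i, σ.restrict (s i)) {f : X → ℝ} (hf : Integrable f σ) :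
    ∫ x, f x ∂σ = ∑ i, ∫ x in s i, f x ∂σ := by
  rw [← integral_finsetSum_measure (fun i _ => hf.integrableOn), ← h]

variable {ι : Type} [Fintype ι] [Nonempty ι]

/-- the semi-discrete potential -/
noncomputable def pot (y : ι → E d) (ψ : ι → ℝ) (x : E d) : ℝ :=
  Finset.univ.sup' Finset.univ_nonempty fun i => ⟪x, y i⟫ - ψ i

lemma le_pot (y : ι → E d) (ψ : ι → ℝ) (x : E d) (i : ι) : ⟪x, y i⟫ - ψ i ≤ pot y ψ x :=
  Finset.le_sup' (fun i => ⟪x, y i⟫ - ψ i) (Finset.mem_univ i)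

lemma pot_le {y : ι → E d} {ψ : ι → ℝ} {x : E d} {c : ℝ} (h : ∀ i, ⟪x, y i⟫ - ψ i ≤ c) :
    pot y ψ x ≤ c := Finset.sup'_le _ _ fun i _ => h i

lemma exists_pot (y : ι → E d) (ψ : ι → ℝ) (x : E d) : ∃ i, pot y ψ x ≤ ⟪x, y i⟫ - ψ i := by
  obtain ⟨i, -, hi⟩ := Finset.exists_mem_eq_sup' (Finset.univ_nonempty (α := ι))
    (fun i => ⟪x, y i⟫ - ψ i)
  exact ⟨i, hi.le⟩

lemma pot_cont (y : ι → E d) (ψ : ι → ℝ) : Continuous (pot y ψ) := by
  unfold pot
  exact Continuous.finset_sup'_apply _ fun i _ => by fun_prop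

lemma pot_lip {y : ι → E d} {L : ℝ} (hL : ∀ i, ‖y i‖ ≤ L) (ψ : ι → ℝ) (x x' : E d) :
    pot y ψ x ≤ pot y ψ x' + L * ‖x - x'‖ := by
  refine pot_le fun i => ?_
  have h1 := le_pot y ψ x' i
  have h2 : ⟪x - x', y i⟫ ≤ ‖x - x'‖ * ‖y i‖ := real_inner_le_norm _ _
  have h3 := mul_le_mul_of_nonneg_left (hL i) (norm_nonneg (x - x'))
  rw [inner_sub_left] at h2
  linarith

lemma pot_le_pot {y y' : ι → E d} {δ R : ℝ} (hδ : ∀ i, ‖y i - y' i‖ ≤ δ) (ψ : ι → ℝ) {x : E d}
    (hx : ‖x‖ ≤ R) : pot y ψ x ≤ pot y' ψ x + R * δ := by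
  refine pot_le fun i => ?_
  have h1 := le_pot y' ψ x i
  have h2 : ⟪x, y i - y' i⟫ ≤ ‖x‖ * ‖y i - y' i‖ := real_inner_le_norm _ _
  have h3 := mul_le_mul hx (hδ i) (norm_nonneg _) ((norm_nonneg _).trans hx)
  rw [inner_sub_right] at h2
  linarith

lemma pot_mid (y : ι → E d) (ψ ψ' : ι → ℝ) (x x' : E d) :
    pot y (fun i => (ψ i + ψ' i) / 2) ((1 / 2 : ℝ) • (x + x')) ≤ (pot y ψ x + pot y ψ' x') / 2 := by
  refine pot_le fun i => ?_
  have h1 := le_pot y ψ x i
  have h2 := le_pot y ψ' x' i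
  rw [inner_smul_left, inner_add_left]
  simp only [conj_trivial]
  linarith

/-- closed Laguerre cells -/
def cell (y : ι → E d) (ψ : ι → ℝ) (i : ι) : Set (E d) := {x | pot y ψ x ≤ ⟪x, y i⟫ - ψ i}

lemma cell_meas (y : ι → E d) (ψ : ι → ℝ) (i : ι) : MeasurableSet (cell y ψ i) :=
  measurableSet_le (pot_cont y ψ).measurable (by fun_prop)

lemma cell_mid (y : ι → E d) (ψ ψ' : ι → ℝ) (i : ι) {x x' : E d} (hx : x ∈ cell y ψ i)
    (hx' : x' ∈ cell y ψ' i) :
    (1 / 2 : ℝ) • (x + x') ∈ cell y (fun i => (ψ i + ψ' i) / 2) i := by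
  have := pot_mid y ψ ψ' x x'
  simp only [cell, mem_ofPred_eq] at hx hx' ⊢
  rw [inner_smul_left, inner_add_left]
  simp only [conj_trivial]
  linarith

lemma cell_aedisjoint {σ : Measure (E d)} (hσ : σ ≪ volume) {y : ι → E d}
    (hy : Function.Injective y) (ψ : ι → ℝ) :
    Pairwise (Function.onFun (AEDisjoint σ) (cell y ψ)) := by
  intro i j hij
  refine hσ (measure_mono_null ?_ (volume_hyperplane (v := y i - y j)
    (sub_ne_zero.2 (hy.ne hij)) (ψ i - ψ j)))
  rintro x ⟨h1, h2⟩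
  have h3 := le_pot y ψ x i
  have h4 := le_pot y ψ x j
  simp only [cell, mem_ofPred_eq] at h1 h2 ⊢
  rw [inner_sub_right]; linarith

lemma cell_partition {σ : Measure (E d)} (hσ : σ ≪ volume) {y : ι → E d}
    (hy : Function.Injective y) (ψ : ι → ℝ) : σ = ∑ i, σ.restrict (cell y ψ i) :=
  measure_eq_sum_restrict (cell_meas y ψ) (cell_aedisjoint hσ hy ψ)
    (Eventually.of_forall fun x => exists_pot y ψ x)

/-- the dual functional -/
noncomputable def dual (σ : Measure (E d)) (m : ι → ℝ) (y : ι → E d) (ψ : ι → ℝ) : ℝ :=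
  ∫ x, pot y ψ x ∂σ + ∑ i, m i * ψ i

def IsOpt (σ : Measure (E d)) (m : ι → ℝ) (y : ι → E d) (ψ : ι → ℝ) : Prop :=
  ∀ ψ', dual σ m y ψ ≤ dual σ m y ψ'

variable {σ : Measure (E d)} [IsProbabilityMeasure σ] {R : ℝ} {m : ι → ℝ}

lemma integral_le_add (hσ : ∀ᵐ x ∂σ, ‖x‖ ≤ R) {f g : E d → ℝ} (hf : Continuous f)
    (hg : Continuous g) {c : ℝ} (h : ∀ x, ‖x‖ ≤ R → f x ≤ g x + c) :
    ∫ x, f x ∂σ ≤ ∫ x, g x ∂σ + c := by
  have i1 := integrable_of_cont hσ hf
  have i2 := integrable_of_cont hσ hg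
  have := integral_mono_ae i1 (i2.add (integrable_const c)) (hσ.mono h)
  rwa [integral_add' i2 (integrable_const c), integral_const, probReal_univ, one_smul] at this

lemma exists_opt (hσ : ∀ᵐ x ∂σ, ‖x‖ ≤ R) (m0 : ∀ i, 0 < m i) (m1 : ∑ i, m i = 1)
    (y : ι → E d) : ∃ ψ, IsOpt σ m y ψ := by
  have shift : ∀ (ψ ψ' : ι → ℝ) (c c' : ℝ), (∀ i, ψ' i - ψ i ≤ c) → (∀ i, ψ i - ψ' i ≤ c') →
      dual σ m y ψ ≤ dual σ m y ψ' + (c + c') := by
    intro ψ ψ' c c' h h'
    have h1 : ∫ x, pot y ψ x ∂σ ≤ ∫ x, pot y ψ' x ∂σ + c :=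
      integral_le_add hσ (pot_cont _ _) (pot_cont _ _) fun x _ => pot_le fun i => by
        linarith [le_pot y ψ' x i, h i]
    have h2 : ∑ i, m i * ψ i ≤ ∑ i, m i * ψ' i + c' := by
      calc ∑ i, m i * ψ i ≤ ∑ i, (m i * ψ' i + m i * c') :=
            Finset.sum_le_sum fun i _ => by nlinarith [m0 i, h' i]
        _ = _ := by rw [Finset.sum_add_distrib, ← Finset.sum_mul, m1, one_mul]
    unfold dual; linarith
  have cont : Continuous (dual σ m y) := by
    refine (LipschitzWith.of_le_add_mul 2 fun ψ ψ' => ?_).continuous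
    have := shift ψ ψ' (dist ψ ψ') (dist ψ ψ')
      (fun i => by
        have := dist_le_pi_dist ψ ψ' i
        rw [Real.dist_eq] at this; linarith [neg_abs_le (ψ i - ψ' i)])
      (fun i => by
        have := dist_le_pi_dist ψ ψ' i
        rw [Real.dist_eq] at this; linarith [le_abs_self (ψ i - ψ' i)])
    push_cast; linarith
  obtain ⟨D, hD⟩ : ∃ D, D = |dual σ m y 0| + ∑ i, |R| * ‖y i‖ := ⟨_, rfl⟩
  have D0 : 0 ≤ D := by rw [hD]; positivity
  obtain ⟨B, hB⟩ : ∃ B, B = ∑ i, D / m i := ⟨_, rfl⟩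
  have B0 : 0 ≤ B := by rw [hB]; exact Finset.sum_nonneg fun i _ => div_nonneg D0 (m0 i).le
  have hz : (0 : ι → ℝ) ∈ Icc (0 : ι → ℝ) (fun _ => B) := ⟨le_rfl, fun _ => B0⟩
  obtain ⟨ψ, -, hψ⟩ := (isCompact_Icc (a := (0 : ι → ℝ)) (b := fun _ => B)).exists_isMinOn
    ⟨0, hz⟩ cont.continuousOn
  refine ⟨ψ, fun φ => ?_⟩
  obtain ⟨i0, hi0⟩ := Finite.exists_min φ
  have e1 := shift (fun i => φ i - φ i0) φ (φ i0) (-φ i0) (fun i => by linarith)
    (fun i => by linarith)
  refine le_trans ?_ (by simpa using e1)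
  by_cases hm : (fun i => φ i - φ i0) ∈ Icc (0 : ι → ℝ) (fun _ => B)
  · exact hψ hm
  · have : ∃ j, B < φ j - φ i0 := by
      by_contra hc
      push Not at hc
      exact hm ⟨fun i => by simpa using hi0 i, hc⟩
    obtain ⟨j, hj⟩ := this
    refine (hψ hz).trans ?_
    have h1 : ∫ _x, (0 : ℝ) ∂σ ≤ ∫ x, pot y (fun i => φ i - φ i0) x ∂σ + |R| * ‖y i0‖ :=
      integral_le_add hσ continuous_const (pot_cont _ _) fun x hx => by
        have h1 := le_pot y (fun i => φ i - φ i0) x i0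
        have h2 := abs_real_inner_le_norm x (y i0)
        have h3 := mul_le_mul_of_nonneg_right (hx.trans (le_abs_self R)) (norm_nonneg (y i0))
        simp only [sub_self, sub_zero] at h1
        linarith [neg_abs_le ⟪x, y i0⟫]
    have h2 : m j * (φ j - φ i0) ≤ ∑ i, m i * (φ i - φ i0) :=
      Finset.single_le_sum (f := fun i => m i * (φ i - φ i0))
        (fun i _ => mul_nonneg (m0 i).le (by linarith [hi0 i])) (Finset.mem_univ j)
    have h3 : D / m j ≤ B := by
      rw [hB]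
      exact Finset.single_le_sum (f := fun i => D / m i) (fun i _ => div_nonneg D0 (m0 i).le)
        (Finset.mem_univ j)
    have h4 : D ≤ m j * (φ j - φ i0) := by
      rw [div_le_iff₀ (m0 j)] at h3; nlinarith [m0 j]
    have h5 : |R| * ‖y i0‖ ≤ ∑ i, |R| * ‖y i‖ :=
      Finset.single_le_sum (f := fun i => |R| * ‖y i‖) (fun i _ => by positivity)
        (Finset.mem_univ i0)
    simp only [integral_zero] at h1
    have h6 := le_abs_self (dual σ m y 0)
    change dual σ m y 0 ≤ _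
    unfold dual at *
    linarith

lemma mass_le (hσ : ∀ᵐ x ∂σ, ‖x‖ ≤ R) {y : ι → E d} {ψ : ι → ℝ} (h : IsOpt σ m y ψ) (i : ι) :
    m i ≤ σ.real (cell y ψ i) := by
  classical
  have key : ∀ ε : ℝ, 0 < ε → m i ≤ σ.real {x | pot y ψ x ≤ ⟪x, y i⟫ - ψ i + ε} := by
    intro ε hε
    have hS : MeasurableSet {x | pot y ψ x ≤ ⟪x, y i⟫ - ψ i + ε} :=
      measurableSet_le (pot_cont y ψ).measurable (by fun_prop)
    have h1 := h (fun j => ψ j - if j = i then ε else 0)
    have i1 := integrable_of_cont hσ (pot_cont y ψ)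
    have i2 : Integrable ({x | pot y ψ x ≤ ⟪x, y i⟫ - ψ i + ε}.indicator fun _ => ε) σ :=
      (integrable_const ε).indicator hS
    have h2 := integral_mono (integrable_of_cont hσ
      (pot_cont y (fun j => ψ j - if j = i then ε else 0))) (i1.add i2) (fun x => by
        refine pot_le fun j => ?_
        have := le_pot y ψ x j
        simp only [Pi.add_apply, indicator, mem_ofPred_eq]
        by_cases hj : j = i
        · subst hj
          split_ifs with h1 h2 <;> simp_all <;> linarith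
        · simp only [hj, if_false]
          split_ifs <;> linarith)
    rw [integral_add' i1 i2, integral_indicator_const _ hS, smul_eq_mul] at h2
    unfold dual at h1
    simp only [mul_sub, Finset.sum_sub_distrib, mul_ite, mul_zero, Finset.sum_ite_eq',
      Finset.mem_univ, if_true] at h1
    nlinarith
  have e : cell y ψ i = ⋂ n : ℕ, {x | pot y ψ x ≤ ⟪x, y i⟫ - ψ i + 1 / ((n : ℝ) + 1)} := by
    ext x
    simp only [cell, mem_ofPred_eq, mem_iInter]
    constructor
    · intro h n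
      have : (0 : ℝ) < 1 / ((n : ℝ) + 1) := by positivity
      linarith
    · intro h
      refine le_of_forall_pos_le_add fun ε hε => ?_
      obtain ⟨n, hn⟩ := exists_nat_one_div_lt hε
      linarith [h n]
  have : ENNReal.ofReal (m i) ≤ σ (cell y ψ i) := by
    rw [e, Antitone.measure_iInter]
    · refine le_iInf fun n => ?_
      exact ENNReal.ofReal_le_of_le_toReal (key _ (by positivity))
    · intro a b hab x hx
      simp only [mem_ofPred_eq] at hx ⊢
      have : 1 / ((b : ℝ) + 1) ≤ 1 / ((a : ℝ) + 1) := Nat.one_div_le_one_div hab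
      linarith
    · intro n
      exact (measurableSet_le (pot_cont y ψ).measurable (by fun_prop)).nullMeasurableSet
    · exact ⟨0, measure_ne_top _ _⟩
  exact (ENNReal.ofReal_le_iff_le_toReal (measure_ne_top _ _)).1 this

lemma mass_eq (hσ : ∀ᵐ x ∂σ, ‖x‖ ≤ R) (hac : σ ≪ volume) (m1 : ∑ i, m i = 1) {y : ι → E d}
    (hy : Function.Injective y) {ψ : ι → ℝ} (h : IsOpt σ m y ψ) (i : ι) :
    σ.real (cell y ψ i) = m i := by
  have h1 := integral_eq_sum_of (cell_partition hac hy ψ) (integrable_const (1 : ℝ))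
  simp only [integral_const, probReal_univ, smul_eq_mul, mul_one, measureReal_restrict_apply_univ]
    at h1
  exact ((Finset.sum_eq_sum_iff_of_le (fun i _ => mass_le hσ h i)).1 (m1.trans h1) i
    (Finset.mem_univ i)).symm

/-- weak duality using the cells of an optimal potential -/
lemma cells_le_dual (hσ : ∀ᵐ x ∂σ, ‖x‖ ≤ R) (hac : σ ≪ volume) (m1 : ∑ i, m i = 1) {y : ι → E d}
    (hy : Function.Injective y) {ψ : ι → ℝ} (h : IsOpt σ m y ψ) (y' : ι → E d) (ψ' : ι → ℝ) :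
    ∑ i, ∫ x in cell y ψ i, ⟪x, y' i⟫ ∂σ ≤ dual σ m y' ψ' := by
  unfold dual
  rw [integral_eq_sum_of (cell_partition hac hy ψ) (integrable_of_cont hσ (pot_cont y' ψ')),
    ← Finset.sum_add_distrib]
  refine Finset.sum_le_sum fun i _ => ?_
  have i1 := (integrable_of_cont hσ (pot_cont y' ψ')).integrableOn (s := cell y ψ i)
  have := integral_mono (integrable_of_cont hσ (f := fun x => ⟪x, y' i⟫) (by fun_prop)).integrableOn
    (i1.add (integrable_const (ψ' i))) (fun x => by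
      have := le_pot y' ψ' x i
      simp only [Pi.add_apply]; linarith)
  rwa [integral_add' i1 (integrable_const _), integral_const, measureReal_restrict_apply_univ,
    mass_eq hσ hac m1 hy h, smul_eq_mul] at this

lemma dual_le_cells (hσ : ∀ᵐ x ∂σ, ‖x‖ ≤ R) (hac : σ ≪ volume) (m1 : ∑ i, m i = 1) {y : ι → E d}
    (hy : Function.Injective y) {ψ : ι → ℝ} (h : IsOpt σ m y ψ) :
    dual σ m y ψ ≤ ∑ i, ∫ x in cell y ψ i, ⟪x, y i⟫ ∂σ := by
  unfold dual
  rw [integral_eq_sum_of (cell_partition hac hy ψ) (integrable_of_cont hσ (pot_cont y ψ)),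
    ← Finset.sum_add_distrib]
  refine Finset.sum_le_sum fun i _ => ?_
  have i1 := (integrable_of_cont hσ (pot_cont y ψ)).integrableOn (s := cell y ψ i)
  have := setIntegral_mono_on (i1.add (integrable_const (ψ i)))
    (integrable_of_cont hσ (f := fun x => ⟪x, y i⟫) (by fun_prop)).integrableOn
    (cell_meas y ψ i) (fun x hx => by
      simp only [cell, mem_ofPred_eq] at hx
      simp only [Pi.add_apply]; linarith)
  rwa [integral_add' i1 (integrable_const _), integral_const, measureReal_restrict_apply_univ,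
    mass_eq hσ hac m1 hy h, smul_eq_mul] at this

lemma dual_le_dual (hσ : ∀ᵐ x ∂σ, ‖x‖ ≤ R) {y y' : ι → E d} {δ : ℝ}
    (hδ : ∀ i, ‖y i - y' i‖ ≤ δ) (ψ : ι → ℝ) : dual σ m y ψ ≤ dual σ m y' ψ + R * δ := by
  have := integral_le_add hσ (pot_cont y ψ) (pot_cont y' ψ) fun x hx => pot_le_pot hδ ψ hx
  unfold dual; linarith

end Vale.Agent.P074
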