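import Vale.Agent.P074.Var

namespace Vale.Agent.P074

open MeasureTheory Set Filter
open scoped ENNReal Topology RealInnerProductSpace

variable {d : ℕ} {ι : Type} [Fintype ι] [Nonempty ι]

/-- linear interpolation of sites -/
def interp (y0 y1 : ι → E d) (t : ℝ) : ι → E d := fun i => y0 i + t • (y1 i - y0 i)

omit [Nonempty ι] in
lemma bad_finite {y0 y1 : ι → E d} (h : Function.Injective fun i => (y0 i, y1 i)) :
    {t : ℝ | ¬ Function.Injective (interp y0 y1 t)}.Finite := by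
  have : {t : ℝ | ¬ Function.Injective (interp y0 y1 t)} ⊆
      ⋃ i, ⋃ j, {t | i ≠ j ∧ interp y0 y1 t i = interp y0 y1 t j} := by
    intro t ht
    simp only [Function.Injective, not_forall, mem_ofPred_eq] at ht
    obtain ⟨i, j, h1, h2⟩ := ht
    exact mem_iUnion₂.2 ⟨i, j, h2, h1⟩
  refine Finite.subset (finite_iUnion fun i => finite_iUnion fun j => Set.Subsingleton.finite ?_)
    this
  rintro s ⟨hij, hs⟩ t ⟨-, ht⟩
  by_contra hst
  apply hij
  apply h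
  simp only [interp] at hs ht
  have e1 : (s - t) • ((y1 i - y0 i) - (y1 j - y0 j)) = 0 := by
    have := congrArg₂ (· - ·) hs ht
    rw [← sub_eq_zero] at this
    rw [← this]; module
  have e2 := sub_eq_zero.1 ((smul_eq_zero.1 e1).resolve_left (sub_ne_zero.2 hst))
  rw [e2] at hs
  have e3 := add_right_cancel hs
  rw [e3] at e2
  simp only [Prod.mk.injEq]
  exact ⟨e3, sub_left_injective e2⟩

lemma subgrad {σ : Measure (E d)} [IsProbabilityMeasure σ] {R : ℝ} {m : ι → ℝ}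
    (hσ : ∀ᵐ x ∂σ, ‖x‖ ≤ R) (hac : σ ≪ volume) (m1 : ∑ i, m i = 1) {y0 y1 : ι → E d} {t : ℝ}
    (hy : Function.Injective (interp y0 y1 t)) {ψ : ι → ℝ} (h : IsOpt σ m (interp y0 y1 t) ψ)
    (s : ℝ) (ψ' : ι → ℝ) :
    dual σ m (interp y0 y1 t) ψ
      + (s - t) * ∑ i, ∫ x in cell (interp y0 y1 t) ψ i, ⟪x, y1 i - y0 i⟫ ∂σ
      ≤ dual σ m (interp y0 y1 s) ψ' := by
  have h1 := dual_le_cells hσ hac m1 hy h
  have h2 := cells_le_dual hσ hac m1 hy h (interp y0 y1 s) ψ'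
  refine le_trans ?_ h2
  rw [Finset.mul_sum]
  refine (add_le_add_left h1 _).trans (le_of_eq ?_)
  rw [← Finset.sum_add_distrib]
  refine Finset.sum_congr rfl fun i _ => ?_
  rw [← integral_const_mul, ← integral_add (integrable_of_cont hσ (by fun_prop)).integrableOn
    (integrable_of_cont hσ (by fun_prop)).integrableOn]
  congr 1; ext x
  simp only [interp, inner_add_right, inner_smul_right]; ring

lemma dual_lip {σ : Measure (E d)} [IsProbabilityMeasure σ] {R : ℝ} {m : ι → ℝ}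
    (hσ : ∀ᵐ x ∂σ, ‖x‖ ≤ R) {y0 y1 : ι → E d} {L : ℝ} (hL : ∀ i, ‖y1 i - y0 i‖ ≤ L)
    {s t : ℝ} {ψ : ι → ℝ} (h : IsOpt σ m (interp y0 y1 s) ψ) (ψ' : ι → ℝ) :
    dual σ m (interp y0 y1 s) ψ ≤ dual σ m (interp y0 y1 t) ψ' + R * L * |s - t| := by
  refine (h ψ').trans ?_
  rw [mul_assoc]
  refine dual_le_dual hσ (fun i => ?_) ψ'
  have : interp y0 y1 s i - interp y0 y1 t i = (s - t) • (y1 i - y0 i) := by
    simp only [interp]; module
  rw [this, norm_smul, Real.norm_eq_abs, mul_comm]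
  exact mul_le_mul_of_nonneg_right (hL i) (abs_nonneg _)

set_option maxHeartbeats 1600000 in
theorem semi_var {K : Set (E d)} {ρ : Measure (E d)} [IsProbabilityMeasure ρ] {R : ℝ} (R0 : 0 < R)
    (hρ : ∀ᵐ x ∂ρ, ‖x‖ ≤ R) (hac : ρ ≪ volume) (hK : ∀ x ∈ K, ‖x‖ ≤ R) (hPL : RealPL K ρ)
    {m : ι → ℝ} (m0 : ∀ i, 0 < m i) (m1 : ∑ i, m i = 1) {y0 y1 : ι → E d}
    (hy : Function.Injective fun i => (y0 i, y1 i)) {ψ0 ψ1 : ι → ℝ} (h0 : IsOpt ρ m y0 ψ0)
    (h1 : IsOpt ρ m y1 ψ1) :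
    ∃ c, ∫ x, (pot y1 ψ1 x - pot y0 ψ0 x - c) ^ 2 ∂ρ
      ≤ 20000000 * R ^ 2 * ∑ i, m i * ‖y1 i - y0 i‖ ^ 2 := by
  have c0 := pot_cont y0 ψ0
  have c1 := pot_cont y1 ψ1
  obtain ⟨c, hc⟩ : ∃ c, c = ∫ x, (pot y1 ψ1 x - pot y0 ψ0 x) ∂ρ := ⟨_, rfl⟩
  refine ⟨c, ?_⟩
  obtain ⟨f, hf⟩ : ∃ f : E d → ℝ, f = fun x => pot y1 ψ1 x - pot y0 ψ0 x - c := ⟨_, rfl⟩
  have fc : Continuous f := by rw [hf]; fun_prop
  have f0 : ∫ x, f x ∂ρ = 0 := by
    rw [hf, integral_sub (integrable_of_cont hρ (by fun_prop)) (integrable_const _), ← hc]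
    simp
  obtain ⟨F, hF⟩ : ∃ F, F = ∫ x, f x ^ 2 ∂ρ := ⟨_, rfl⟩
  obtain ⟨W, hW⟩ : ∃ W, W = ∑ i, m i * ‖y1 i - y0 i‖ ^ 2 := ⟨_, rfl⟩
  have F0 : 0 ≤ F := by rw [hF]; exact integral_nonneg fun _ => sq_nonneg _
  have W0 : 0 ≤ W := by
    rw [hW]; exact Finset.sum_nonneg fun i _ => mul_nonneg (m0 i).le (sq_nonneg _)
  suffices F ≤ 20000000 * R ^ 2 * W by rw [hF, hf, hW] at this; exact this
  obtain ⟨bf, hbf⟩ := (isCompact_closedBall (0 : E d) R).exists_bound_of_continuousOn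
    fc.continuousOn
  obtain ⟨bu, hbu⟩ := (isCompact_closedBall (0 : E d) R).exists_bound_of_continuousOn
    c1.continuousOn
  obtain ⟨Λ, hΛ⟩ : ∃ Λ, ∀ i, ‖y1 i‖ ≤ Λ := ⟨‖y1‖, norm_le_pi_norm y1⟩
  obtain ⟨L, hL⟩ : ∃ L, ∀ i, ‖y1 i - y0 i‖ ≤ L := ⟨‖y1 - y0‖, norm_le_pi_norm (y1 - y0)⟩
  have Λ0 : 0 ≤ Λ := (norm_nonneg _).trans (hΛ (Classical.arbitrary ι))
  obtain ⟨b, b0, hb1, hb2⟩ : ∃ b : ℝ, 0 < b ∧ bu ≤ b ∧ Λ * R ≤ b :=
    ⟨|bu| + Λ * R + 1, by positivity, by linarith [le_abs_self bu, mul_nonneg Λ0 R0.le],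
      by linarith [abs_nonneg bu]⟩
  obtain ⟨s, s0, hs1, hs2⟩ : ∃ s : ℝ, 0 < s ∧ s * bf ≤ 1 / 2 ∧ 384 * b * s ≤ 1 / 2 := by
    refine ⟨1 / (2 * (|bf| + 384 * b)), by positivity, ?_, ?_⟩
    · rw [div_mul_eq_mul_div, div_le_iff₀ (by positivity)]; linarith [le_abs_self bf]
    · rw [mul_one_div, div_le_iff₀ (by positivity)]; linarith [abs_nonneg bf]
  have ec : Continuous fun x => s * f x := by fun_prop
  have eb : ∀ᵐ x ∂ρ, |s * f x| ≤ 1 / 2 := hρ.mono fun x hx => by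
    rw [abs_mul, abs_of_pos s0]
    exact (mul_le_mul_of_nonneg_left (hbf x (by simpa using hx)) s0.le).trans hs1
  have e0 : ∫ x, s * f x ∂ρ = 0 := by rw [integral_const_mul, f0, mul_zero]
  haveI := pert_prob hρ ec eb e0
  have hρ' : ∀ᵐ x ∂(pert ρ fun x => s * f x), ‖x‖ ≤ R := (pert_ac ρ _).ae_le hρ
  have hac' : (pert ρ fun x => s * f x) ≪ volume := (pert_ac ρ _).trans hac
  have dpert : ∀ (y : ι → E d) (ψ : ι → ℝ), dual (pert ρ fun x => s * f x) m y ψ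
      = dual ρ m y ψ + s * ∫ x, pot y ψ x * f x ∂ρ := by
    intro y ψ
    have := pot_cont y ψ
    unfold dual
    rw [integral_pert ec eb, integral_add (integrable_of_cont hρ this)
      (integrable_of_cont hρ (by fun_prop)), ← integral_const_mul]
    simp only [mul_left_comm s]
    ring
  choose ψ hψ using fun t => exists_opt hρ m0 m1 (interp y0 y1 t)
  choose ψ' hψ' using fun t => exists_opt hρ' m0 m1 (interp y0 y1 t)
  have key := riemann (g := fun t => dual ρ m (interp y0 y1 t) (ψ t))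
    (g' := fun t => dual (pert ρ fun x => s * f x) m (interp y0 y1 t) (ψ' t)) (bad_finite hy)
    (C := R * L) (κ := s * (F / 4 + 9831100 * R ^ 2 * W)) (by positivity)
    (fun s _ t _ => dual_lip hρ hL (hψ s) _) (fun s _ t _ => dual_lip hρ' hL (hψ' s) _)
    (fun t ht => by
      simp only [mem_ofPred_eq, not_not] at ht
      refine ⟨_, _, ?_, fun s => subgrad hρ hac m1 ht (hψ t) s _,
        fun s => subgrad hρ' hac' m1 ht (hψ' t) s _⟩
      refine (bary_stab R0 hρ hac hK hPL ec eb e0 m0 m1 ht (hψ t) (hψ' t)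
        (fun i => y1 i - y0 i) (θ := 1 / (100 * s)) (by positivity)).trans (le_of_eq ?_)
      simp only [mul_pow]
      rw [integral_const_mul, ← hF, ← hW]
      field_simp; ring)
  have i0 : interp y0 y1 0 = y0 := by ext1 i; simp [interp]
  have i1 : interp y0 y1 1 = y1 := by ext1 i; simp [interp]
  have a1 := hψ' 0 ψ0
  have a2 := hψ 1 (ψ' 1)
  have a3 := hψ' 1 (fun i => (ψ1 i + ψ' 1 i) / 2)
  have a4 := h1 (fun i => (ψ1 i + ψ' 1 i) / 2)
  have a5 := h0 (ψ 0)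
  simp only [i0, i1] at key a1 a2 a3
  rw [dpert y0 ψ0] at a1
  rw [dpert y1, dpert y1] at a3
  rw [dpert y1] at key
  obtain ⟨u', hu'⟩ : ∃ u', u' = pot y1 (ψ' 1) := ⟨_, rfl⟩
  obtain ⟨v, hv⟩ : ∃ v, v = pot y1 (fun i => (ψ1 i + ψ' 1 i) / 2) := ⟨_, rfl⟩
  have cu' : Continuous u' := hu' ▸ pot_cont _ _
  have cv : Continuous v := hv ▸ pot_cont _ _
  have hmid : ∀ x x', v ((1 / 2 : ℝ) • (x + x')) ≤ (pot y1 ψ1 x + u' x') / 2 := by
    rw [hv, hu']; exact pot_mid y1 _ _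
  have hdiag : ∀ x, v x ≤ (pot y1 ψ1 x + u' x) / 2 := fun x => by
    have := hmid x x
    rwa [← two_smul ℝ x, smul_smul, show (1 / 2 : ℝ) * 2 = 1 by norm_num, one_smul] at this
  obtain ⟨c', hc'⟩ := strong_conv hρ hK hPL (u := pot y1 ψ1) (u' := fun x => u' x - u' 0)
    (v := fun x => v x - u' 0 / 2) c1 (by fun_prop) (by fun_prop) b0
    (fun x hx => (hbu x (by simpa using hx)).trans hb1)
    (fun x hx => by
      have p1 := pot_lip hΛ (ψ' 1) x 0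
      have p2 := pot_lip hΛ (ψ' 1) 0 x
      rw [← hu'] at p1 p2
      simp only [sub_zero, zero_sub, norm_neg] at p1 p2
      have := mul_le_mul_of_nonneg_left hx Λ0
      rw [abs_le]; constructor <;> linarith)
    (fun x x' => by linarith [hmid x x'])
  obtain ⟨J, hJ⟩ : ∃ J, J = ∫ x, (pot y1 ψ1 x - u' x) * f x ∂ρ := ⟨_, rfl⟩
  have I : ∀ {g : E d → ℝ}, Continuous g → Integrable g ρ := fun hg => integrable_of_cont hρ hg
  have eJ : J = ∫ x, pot y1 ψ1 x * f x ∂ρ - ∫ x, u' x * f x ∂ρ := by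
    rw [hJ, ← integral_sub (I (by fun_prop)) (I (by fun_prop))]
    simp only [sub_mul]
  have eF : F = ∫ x, pot y1 ψ1 x * f x ∂ρ - ∫ x, pot y0 ψ0 x * f x ∂ρ := by
    have : ∀ x, f x ^ 2 = pot y1 ψ1 x * f x - pot y0 ψ0 x * f x - c * f x := fun x => by
      have : f x = pot y1 ψ1 x - pot y0 ψ0 x - c := by rw [hf]
      rw [pow_two]; nth_rewrite 1 [this]; ring
    rw [hF]
    simp only [this]
    rw [integral_sub (I (by fun_prop)) (I (by fun_prop)), integral_const_mul, f0,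
      integral_sub (I (by fun_prop)) (I (by fun_prop))]
    ring
  obtain ⟨D, hD⟩ : ∃ D, D = ∫ x, ((pot y1 ψ1 x + u' x) / 2 - v x) ∂ρ := ⟨_, rfl⟩
  have eD : ∫ x, ((pot y1 ψ1 x + (u' x - u' 0)) / 2 - (v x - u' 0 / 2)) ∂ρ = D := by
    rw [hD]; congr 1; ext x; ring
  rw [eD] at hc'
  have eD2 : D = (∫ x, pot y1 ψ1 x ∂ρ + ∫ x, u' x ∂ρ) / 2 - ∫ x, v x ∂ρ := by
    rw [hD, integral_sub (I (by fun_prop)) (I cv), integral_div, integral_add (I c1) (I cu')]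
  have lin : ∑ i, m i * ((ψ1 i + ψ' 1 i) / 2) = (∑ i, m i * ψ1 i + ∑ i, m i * ψ' 1 i) / 2 := by
    rw [← Finset.sum_add_distrib, Finset.sum_div]
    exact Finset.sum_congr rfl fun i _ => by ring
  unfold dual at a2 a3 a4 a5 a1 key
  rw [lin, ← hv] at a3 a4
  rw [← hu'] at a2 a3 key
  have b1 := integral_le_lin hρ (f := fun x => v x * (s * f x))
    (g := fun x => (pot y1 ψ1 x + u' x) / 2 - v x) (h := fun x => pot y1 ψ1 x * f x)
    (k := fun x => u' x * f x) (by fun_prop) (by fun_prop) (by fun_prop) (by fun_prop)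
    (a := 1) (b := s / 2) (c := s / 2) (eb.mono fun x hx => by
      have := (abs_le.1 hx).1
      have := hdiag x
      nlinarith)
  simp only [mul_left_comm _ s] at b1
  rw [integral_const_mul, ← hD] at b1
  have b2 : D ≤ s * J / 2 := by rw [eJ]; linarith
  have b3 := integral_le_lin hρ (f := fun x => (pot y1 ψ1 x - u' x) * f x)
    (g := fun x => f x ^ 2) (h := fun x => (pot y1 ψ1 x - (u' x - u' 0) - c') ^ 2)
    (k := f) (by fun_prop) (by fun_prop) (by fun_prop) (by fun_prop)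
    (a := 1 / 8) (b := 2) (c := c' - u' 0) (Eventually.of_forall fun x => by
      nlinarith [sq_nonneg (f x - 4 * (pot y1 ψ1 x - (u' x - u' 0) - c'))])
  rw [← hJ, ← hF, f0] at b3
  have b4 := mul_le_mul_of_nonneg_left b2 (show 0 ≤ 384 * b by positivity)
  have b5 : J ≤ F / 4 := by
    by_cases hJ0 : J ≤ 0
    · linarith
    · have := mul_le_mul_of_nonneg_right hs2 (not_le.1 hJ0).le
      nlinarith
  have b6 : s * (F - J) ≤ s * (F / 4 + 9831100 * R ^ 2 * W) := by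
    have : s * (F - J) = s * ∫ x, u' x * f x ∂ρ - s * ∫ x, pot y0 ψ0 x * f x ∂ρ := by
      rw [eJ]; nth_rewrite 1 [eF]; ring
    linarith
  have b7 := le_of_mul_le_mul_left b6 s0
  have : 0 ≤ R ^ 2 * W := by positivity
  nlinarith

end Vale.Agent.P074
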