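import Vale.Agent.P074.Semi

namespace Vale.Agent.P074

open MeasureTheory Set Filter
open scoped ENNReal Topology RealInnerProductSpace

variable {d : ℕ}

lemma alg1 {m p q B ε n c : ℝ} (m0 : 0 < m) (p0 : 0 < p) (q0 : 0 < q) (h1 : m / 2 ≤ p ^ 2)
    (h2 : p ^ 2 ≤ m) (h3 : B / 2 ≤ q ^ 2) (h4 : q ^ 2 ≤ B) (h5 : B + ε = m) (h6 : |ε| ≤ B / 2)
    (h7 : ε ^ 2 ≤ 2 * m * n) (h8 : p * q * (1 + 48 * (m / p ^ 2 - B / q ^ 2) ^ 2) ≤ c) :
    (p - q) ^ 2 ≤ 8 * n + (c - p * q) := by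
  obtain ⟨δ, hδ⟩ : ∃ δ, δ = m / p ^ 2 - B / q ^ 2 := ⟨_, rfl⟩
  rw [← hδ] at h8
  have e1 : m * (p ^ 2 - q ^ 2) = p ^ 2 * (ε - δ * q ^ 2) := by
    rw [hδ]; field_simp; rw [← h5]; ring
  obtain ⟨h6a, h6b⟩ := abs_le.1 h6
  have q1 : q ^ 2 ≤ 2 * m := by linarith
  have q2 : m / 3 ≤ q ^ 2 := by linarith
  have pq : m / 3 ≤ p * q := by
    apply le_of_sq_le_sq _ (by positivity)
    rw [mul_pow]
    have := mul_le_mul h1 q2 (by positivity) (by positivity)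
    nlinarith
  have e2 : (p ^ 2 - q ^ 2) ^ 2 ≤ (ε - δ * q ^ 2) ^ 2 := by
    have h9 : m ^ 2 * (p ^ 2 - q ^ 2) ^ 2 = (p ^ 2) ^ 2 * (ε - δ * q ^ 2) ^ 2 := by
      rw [← mul_pow, e1, mul_pow]
    have h10 : (p ^ 2) ^ 2 ≤ m ^ 2 := pow_le_pow_left₀ (by positivity) h2 2
    have h11 := mul_le_mul_of_nonneg_right h10 (sq_nonneg (ε - δ * q ^ 2))
    rw [← h9] at h11
    exact le_of_mul_le_mul_left h11 (by positivity)
  have e3 : (ε - δ * q ^ 2) ^ 2 ≤ 4 * m * n + 8 * m ^ 2 * δ ^ 2 := by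
    have h9 : (q ^ 2) ^ 2 ≤ (2 * m) ^ 2 := pow_le_pow_left₀ (by positivity) q1 2
    have h10 := mul_le_mul_of_nonneg_left h9 (sq_nonneg δ)
    nlinarith [sq_nonneg (ε + δ * q ^ 2)]
  have e4 : (p - q) ^ 2 * (m / 2) ≤ (p ^ 2 - q ^ 2) ^ 2 := by
    have h9 : m / 2 ≤ (p + q) ^ 2 := by nlinarith [mul_pos p0 q0]
    have := mul_le_mul_of_nonneg_left h9 (sq_nonneg (p - q))
    nlinarith
  have e5 : (p - q) ^ 2 ≤ 8 * n + 16 * m * δ ^ 2 := by
    have : (p - q) ^ 2 * (m / 2) ≤ (8 * n + 16 * m * δ ^ 2) * (m / 2) := by nlinarith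
    exact le_of_mul_le_mul_right this (by positivity)
  have e6 := mul_le_mul_of_nonneg_right pq (sq_nonneg δ)
  nlinarith

lemma alg2 {m p q B c X X' Z θ k : ℝ} (m0 : 0 < m) (p0 : 0 < p) (q0 : 0 < q) (h1 : m / 2 ≤ p ^ 2)
    (h2 : p ^ 2 ≤ m) (h3 : B / 2 ≤ q ^ 2) (h4 : q ^ 2 ≤ 2 * m) (Z0 : 0 ≤ Z) (θ0 : 0 < θ)
    (k0 : 0 ≤ k) (hX : |X| ≤ Z * m) (hX' : |X'| ≤ Z * B)
    (h8 : p * q * (1 + (X' / q ^ 2 - X / p ^ 2) / θ - k * Z ^ 2 / θ ^ 2) ≤ c) :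
    X' - X ≤ θ * (c - p * q) + θ * (p - q) ^ 2 + (2 * k + 6) * (m * Z ^ 2) / θ := by
  obtain ⟨u, rfl⟩ : ∃ u, X = u * p := ⟨X / p, by field_simp⟩
  obtain ⟨v, rfl⟩ : ∃ v, X' = v * q := ⟨X' / q, by field_simp⟩
  have hu : |u| ≤ 2 * Z * p := by
    rw [abs_mul, abs_of_pos p0] at hX
    have : |u| * p ≤ 2 * Z * p * p := by nlinarith
    exact le_of_mul_le_mul_right this p0
  have hv : |v| ≤ 2 * Z * q := by
    rw [abs_mul, abs_of_pos q0] at hX'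
    have : |v| * q ≤ 2 * Z * q * q := by nlinarith
    exact le_of_mul_le_mul_right this q0
  have pq : p * q ≤ 2 * m := by nlinarith [sq_nonneg (p - q)]
  have e1 : p * q * (1 + (v * q / q ^ 2 - u * p / p ^ 2) / θ - k * Z ^ 2 / θ ^ 2) * θ
      = θ * (p * q) + (p * v - q * u) - p * q * (k * Z ^ 2 / θ) := by
    field_simp
  have e2 := mul_le_mul_of_nonneg_right h8 θ0.le
  rw [e1] at e2
  have e3 := mul_le_mul_of_nonneg_right pq (show 0 ≤ k * Z ^ 2 / θ by positivity)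
  have e4 : (q - p) * (v + u) ≤ θ * (p - q) ^ 2 + 6 * (m * Z ^ 2) / θ := by
    have a1 : (v + u) ^ 2 ≤ (2 * Z * (p + q)) ^ 2 := by
      apply sq_le_sq'
      · linarith [neg_abs_le u, neg_abs_le v]
      · linarith [le_abs_self u, le_abs_self v]
    have a2 : (p + q) ^ 2 ≤ 6 * m := by nlinarith [sq_nonneg (p - q)]
    have a3 := mul_le_mul_of_nonneg_left a2 (sq_nonneg Z)
    have a4 : (v + u) ^ 2 ≤ 24 * (m * Z ^ 2) := by nlinarith
    have a5 : θ * (p - q) ^ 2 + (v + u) ^ 2 / (4 * θ) - (q - p) * (v + u)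
        = (2 * θ * (q - p) - (v + u)) ^ 2 / (4 * θ) := by field_simp; ring
    have a6 : 0 ≤ (2 * θ * (q - p) - (v + u)) ^ 2 / (4 * θ) := by positivity
    have a7 : (v + u) ^ 2 / (4 * θ) ≤ 6 * (m * Z ^ 2) / θ := by
      rw [div_le_div_iff₀ (by positivity) θ0]; nlinarith
    linarith
  have e5 : (2 * k + 6) * (m * Z ^ 2) / θ = 2 * m * (k * Z ^ 2 / θ) + 6 * (m * Z ^ 2) / θ := by
    field_simp
  rw [e5]
  nlinarith

lemma exp_le_two {s : ℝ} (hs : s ≤ 1 / 2) : Real.exp s ≤ 2 := by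
  have h1 := Real.add_one_le_exp (-s)
  have h2 : Real.exp s * Real.exp (-s) = 1 := by rw [← Real.exp_add]; simp
  nlinarith [Real.exp_pos s]

lemma exp_sub_le {s t : ℝ} (hs : s ≤ 1 / 2) : Real.exp s - Real.exp t ≤ 2 * |s - t| := by
  have h1 : Real.exp t = Real.exp s * Real.exp (t - s) := by rw [← Real.exp_add]; congr 1; ring
  have h2 := Real.add_one_le_exp (t - s)
  have h3 := exp_le_two hs
  have h4 := le_abs_self (s - t)
  have h5 := Real.exp_pos s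
  nlinarith [abs_nonneg (s - t)]

lemma phi_lip {η R : ℝ} (η0 : 0 < η) (hη : η * R ^ 2 ≤ 1 / 2) {x y : E d} (hx : ‖x‖ ≤ R)
    (hy : ‖y‖ ≤ R) :
    |Real.exp (η * ‖x‖ ^ 2) - Real.exp (η * ‖y‖ ^ 2)| ≤ 4 * η * R * ‖x - y‖ := by
  have bx : η * ‖x‖ ^ 2 ≤ 1 / 2 :=
    (mul_le_mul_of_nonneg_left (pow_le_pow_left₀ (norm_nonneg _) hx 2) η0.le).trans hη
  have by' : η * ‖y‖ ^ 2 ≤ 1 / 2 :=
    (mul_le_mul_of_nonneg_left (pow_le_pow_left₀ (norm_nonneg _) hy 2) η0.le).trans hη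
  have h1 : |η * ‖x‖ ^ 2 - η * ‖y‖ ^ 2| ≤ 2 * η * R * ‖x - y‖ := by
    have : η * ‖x‖ ^ 2 - η * ‖y‖ ^ 2 = η * (‖x‖ + ‖y‖) * (‖x‖ - ‖y‖) := by ring
    rw [this, abs_mul, abs_of_nonneg (by positivity)]
    refine mul_le_mul (by nlinarith) (abs_norm_sub_norm_le x y) (abs_nonneg _) ?_
    have := (norm_nonneg x).trans hx
    positivity
  rw [abs_le]
  constructor
  · have := exp_sub_le (t := η * ‖x‖ ^ 2) by'
    rw [abs_sub_comm] at this; linarith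
  · have := exp_sub_le (t := η * ‖y‖ ^ 2) bx
    linarith

lemma gw_mul_exp (η : ℝ) (x : E d) : gw η x * Real.exp (η * ‖x‖ ^ 2) = 1 := by
  rw [gw, ← Real.exp_add]; simp

/-- perturbed measure -/
noncomputable def pert (ρ : Measure (E d)) (e : E d → ℝ) : Measure (E d) :=
  ρ.withDensity fun x => ENNReal.ofReal (1 + e x)

lemma pert_ac (ρ : Measure (E d)) (e : E d → ℝ) : pert ρ e ≪ ρ :=
  withDensity_absolutelyContinuous _ _

lemma setIntegral_pert {ρ : Measure (E d)} {e : E d → ℝ} (he : Continuous e)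
    (h : ∀ᵐ x ∂ρ, |e x| ≤ 1 / 2) {B : Set (E d)} (hB : MeasurableSet B) (q : E d → ℝ) :
    ∫ x in B, q x ∂(pert ρ e) = ∫ x in B, (q x + q x * e x) ∂ρ := by
  unfold pert
  rw [setIntegral_withDensity_eq_setIntegral_toReal_smul (by fun_prop)
    (Eventually.of_forall fun x => ENNReal.ofReal_lt_top) _ hB]
  refine integral_congr_ae ?_
  filter_upwards [ae_restrict_of_ae h] with x hx
  rw [ENNReal.toReal_ofReal (by linarith [neg_abs_le (e x)]), smul_eq_mul]; ring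

lemma integral_pert {ρ : Measure (E d)} {e : E d → ℝ} (he : Continuous e)
    (h : ∀ᵐ x ∂ρ, |e x| ≤ 1 / 2) (q : E d → ℝ) :
    ∫ x, q x ∂(pert ρ e) = ∫ x, (q x + q x * e x) ∂ρ := by
  simpa using setIntegral_pert he h MeasurableSet.univ q

lemma pert_prob {ρ : Measure (E d)} [IsProbabilityMeasure ρ] {R : ℝ} (hρ : ∀ᵐ x ∂ρ, ‖x‖ ≤ R)
    {e : E d → ℝ} (he : Continuous e)
    (h : ∀ᵐ x ∂ρ, |e x| ≤ 1 / 2) (h0 : ∫ x, e x ∂ρ = 0) : IsProbabilityMeasure (pert ρ e) := by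
  constructor
  unfold pert
  rw [withDensity_apply _ MeasurableSet.univ, Measure.restrict_univ,
    ← ofReal_integral_eq_lintegral_ofReal (integrable_of_cont hρ (by fun_prop))
      (h.mono fun x hx => by simp only [Pi.zero_apply]; linarith [neg_abs_le (e x)]),
    integral_add (integrable_const _) (integrable_of_cont hρ he), h0]
  simp

lemma setIntegral_le_lin {ρ : Measure (E d)} [IsFiniteMeasure ρ] {R : ℝ}
    (hρ : ∀ᵐ x ∂ρ, ‖x‖ ≤ R) (A : Set (E d)) {f g : E d → ℝ} (hf : Continuous f)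
    (hg : Continuous g) {a c : ℝ} (h : ∀ᵐ x ∂ρ, f x ≤ a * g x + c) :
    ∫ x in A, f x ∂ρ ≤ a * ∫ x in A, g x ∂ρ + c * ρ.real A := by
  have i1 := (integrable_of_cont hρ hf).integrableOn (s := A)
  have i2 := ((integrable_of_cont hρ hg).integrableOn (s := A)).const_mul a
  have := integral_mono_ae i1 (i2.add (integrable_const c)) (ae_restrict_of_ae h)
  rwa [integral_add' i2 (integrable_const c), integral_const, measureReal_restrict_apply_univ,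
    integral_const_mul, smul_eq_mul, mul_comm _ c] at this

lemma per_cell {K : Set (E d)} {ρ : Measure (E d)} [IsProbabilityMeasure ρ] {R : ℝ} (R0 : 0 < R)
    (hρ : ∀ᵐ x ∂ρ, ‖x‖ ≤ R) (hK : ∀ x ∈ K, ‖x‖ ≤ R) (hPL : RealPL K ρ)
    {e : E d → ℝ} (he : Continuous e) (he' : ∀ᵐ x ∂ρ, |e x| ≤ 1 / 2)
    {A B C : Set (E d)} (hA : MeasurableSet A) (hB : MeasurableSet B) (hC : MeasurableSet C)
    (hmid : ∀ x ∈ A, ∀ y ∈ B, (1 / 2 : ℝ) • (x + y) ∈ C) {m : ℝ} (m0 : 0 < m)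
    (mA : ρ.real A = m) (mB : (pert ρ e).real B = m) (ξ : E d) {θ : ℝ} (θ0 : 0 < θ)
    {η : ℝ} (hη : η * R ^ 2 = 1 / 3072) :
    ∃ p q : ℝ, p ^ 2 = ∫ x in A, gw η x ∂ρ ∧ q ^ 2 = ∫ x in B, gw η x ∂ρ ∧
      (p - q) ^ 2 ≤ 8 * ∫ x in B, e x ^ 2 ∂ρ + (∫ x in C, gw η x ∂ρ - p * q) ∧
      ∫ x in B, ⟪x, ξ⟫ ∂(pert ρ e) - ∫ x in A, ⟪x, ξ⟫ ∂ρ ≤
        θ * (∫ x in C, gw η x ∂ρ - p * q) + θ * (p - q) ^ 2 + θ * ∫ x in B, e x ^ 2 ∂ρ
          + 98311 * (m * (R * ‖ξ‖) ^ 2) / θ := by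
  have η0 : 0 < η := by
    by_contra hc
    have : η * R ^ 2 ≤ 0 := mul_nonpos_of_nonpos_of_nonneg (not_lt.1 hc) (by positivity)
    linarith
  have gc := gw_cont (d := d) η
  have g1 : ∀ x : E d, gw η x ≤ 1 := fun x => Real.exp_le_one_iff.2 (by
    have : 0 ≤ η * ‖x‖ ^ 2 := by positivity
    linarith)
  have bx : ∀ x : E d, ‖x‖ ≤ R → η * ‖x‖ ^ 2 ≤ 1 / 2 := fun x hx =>
    (mul_le_mul_of_nonneg_left (pow_le_pow_left₀ (norm_nonneg _) hx 2) η0.le).trans (by linarith)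
  have g2 : ∀ x : E d, ‖x‖ ≤ R → 1 / 2 ≤ gw η x := fun x hx => by
    have := Real.add_one_le_exp (-(η * ‖x‖ ^ 2))
    have := bx x hx
    unfold gw; linarith
  have gup : ∀ S, ∫ x in S, gw η x ∂ρ ≤ ρ.real S := fun S => by
    have := setIntegral_le_lin hρ S gc gc (a := 0) (c := 1)
      (Eventually.of_forall fun x => by linarith [g1 x])
    linarith
  have glo : ∀ S, ρ.real S / 2 ≤ ∫ x in S, gw η x ∂ρ := fun S => by
    have := setIntegral_le_lin hρ S (f := fun _ => 0) continuous_const gc (a := 1) (c := -(1 / 2))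
      (hρ.mono fun x hx => by linarith [g2 x hx])
    simp only [integral_zero] at this
    linarith
  obtain ⟨Bv, hBv⟩ : ∃ Bv, Bv = ρ.real B := ⟨_, rfl⟩
  obtain ⟨ε, hε⟩ : ∃ ε, ε = ∫ x in B, e x ∂ρ := ⟨_, rfl⟩
  obtain ⟨n, hn⟩ : ∃ n, n = ∫ x in B, e x ^ 2 ∂ρ := ⟨_, rfl⟩
  obtain ⟨c, hc⟩ : ∃ c, c = ∫ x in C, gw η x ∂ρ := ⟨_, rfl⟩
  have h5 : Bv + ε = m := by
    have := setIntegral_pert he he' hB (fun _ => 1)
    rw [integral_add (integrable_const _)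
      (integrable_of_cont hρ (by fun_prop)).integrableOn] at this
    simp only [integral_const, measureReal_restrict_apply_univ, smul_eq_mul, mul_one, one_mul]
      at this
    rw [hBv, hε, ← this, mB]
  have h6 : |ε| ≤ Bv / 2 := by
    have a1 := setIntegral_le_lin hρ B he he (a := 0) (c := 1 / 2)
      (he'.mono fun x hx => by linarith [le_abs_self (e x)])
    have a2 := setIntegral_le_lin hρ B (f := fun _ => 0) continuous_const he (a := 1) (c := 1 / 2)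
      (he'.mono fun x hx => by linarith [neg_abs_le (e x)])
    simp only [integral_zero] at a2
    rw [abs_le, hBv, hε]; constructor <;> linarith
  obtain ⟨h6a, h6b⟩ := abs_le.1 h6
  have h7 : ε ^ 2 ≤ 2 * m * n := by
    have a1 := setIntegral_le_lin hρ B (f := fun x => 4 * m * ε * e x) (g := fun x => e x ^ 2)
      (by fun_prop) (by fun_prop) (a := 4 * m ^ 2) (c := ε ^ 2)
      (Eventually.of_forall fun x => by nlinarith [sq_nonneg (2 * m * e x - ε)])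
    rw [integral_const_mul, ← hε, ← hn, ← hBv] at a1
    have a2 : ε ^ 2 * Bv ≤ ε ^ 2 * (2 * m) := mul_le_mul_of_nonneg_left (by linarith) (sq_nonneg _)
    have a3 : ε ^ 2 * (2 * m) ≤ 2 * m * n * (2 * m) := by nlinarith
    exact le_of_mul_le_mul_right a3 (by positivity)
  have a1 := gup A
  have a2 := glo A
  have a3 := gup B
  have a4 := glo B
  rw [mA] at a1 a2
  rw [← hBv] at a3 a4
  obtain ⟨p, p0, hp⟩ : ∃ p : ℝ, 0 < p ∧ p ^ 2 = ∫ x in A, gw η x ∂ρ :=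
    ⟨_, Real.sqrt_pos.2 (by linarith), Real.sq_sqrt (by linarith)⟩
  obtain ⟨q, q0, hq⟩ : ∃ q : ℝ, 0 < q ∧ q ^ 2 = ∫ x in B, gw η x ∂ρ :=
    ⟨_, Real.sqrt_pos.2 (by linarith), Real.sq_sqrt (by linarith)⟩
  refine ⟨p, q, hp, hq, ?_, ?_⟩
  · rw [← hn, ← hc]
    refine alg1 m0 p0 q0 (hp ▸ a2) (hp ▸ a1) (hq ▸ a4) (hq ▸ a3) h5 h6 h7 ?_
    obtain ⟨l, hl⟩ : ∃ l, l = 96 * (m / p ^ 2 - Bv / q ^ 2) := ⟨_, rfl⟩
    have key := cell_ineq hρ hPL η0 hA hB hC hmid (F := fun x => l * Real.exp (η * ‖x‖ ^ 2))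
      (by fun_prop) (L := |l| * (4 * η * R)) (fun x hx y hy => by
        have := phi_lip η0 (by linarith) (hK x hx) (hK y hy)
        rw [← mul_sub]
        refine (le_abs_self _).trans ?_
        rw [abs_mul, mul_assoc]
        exact mul_le_mul_of_nonneg_left this (abs_nonneg _)) p0 q0 hp hq
    have : ∀ x : E d, gw η x * (l * Real.exp (η * ‖x‖ ^ 2)) = l := fun x => by
      rw [mul_left_comm, gw_mul_exp, mul_one]
    simp only [this, integral_const, measureReal_restrict_apply_univ, smul_eq_mul, mA,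
      ← hBv, ← hc] at key
    have e1 : (|l| * (4 * η * R)) ^ 2 / η = l ^ 2 / 192 := by
      rw [mul_pow, sq_abs]
      have : (4 * η * R) ^ 2 = η * (16 * (η * R ^ 2)) := by ring
      rw [this, hη]; field_simp; ring
    rw [e1] at key
    refine le_trans (le_of_eq ?_) key
    congr 1
    have : m * l / p ^ 2 - Bv * l / q ^ 2 = l * (m / p ^ 2 - Bv / q ^ 2) := by ring
    rw [this, hl]; ring
  · rw [← hn, ← hc, setIntegral_pert he he' hB, integral_add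
      (integrable_of_cont hρ (by fun_prop)).integrableOn
      (integrable_of_cont hρ (by fun_prop)).integrableOn]
    have ib : ∀ x : E d, ‖x‖ ≤ R → |⟪x, ξ⟫| ≤ R * ‖ξ‖ := fun x hx =>
      (abs_real_inner_le_norm x ξ).trans (mul_le_mul_of_nonneg_right hx (norm_nonneg _))
    have Xb : ∀ S, |∫ x in S, ⟪x, ξ⟫ ∂ρ| ≤ R * ‖ξ‖ * ρ.real S := fun S => by
      have a1 := setIntegral_le_lin hρ S (f := fun x => ⟪x, ξ⟫) (by fun_prop) he (a := 0)
        (c := R * ‖ξ‖) (hρ.mono fun x hx => by linarith [le_abs_self ⟪x, ξ⟫, ib x hx])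
      have a2 := setIntegral_le_lin hρ S (f := fun _ => 0) (g := fun x => ⟪x, ξ⟫) continuous_const
        (by fun_prop) (a := 1) (c := R * ‖ξ‖)
        (hρ.mono fun x hx => by linarith [neg_abs_le ⟪x, ξ⟫, ib x hx])
      simp only [integral_zero] at a2
      rw [abs_le]; constructor <;> linarith
    have key := cell_ineq hρ hPL η0 hA hB hC hmid
      (F := fun x => -θ⁻¹ * (⟪x, ξ⟫ * Real.exp (η * ‖x‖ ^ 2)))
      (by fun_prop) (L := θ⁻¹ * (4 * ‖ξ‖)) (fun x hx y hy => by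
        have b1 := phi_lip η0 (by linarith) (hK x hx) (hK y hy)
        have b2 := exp_le_two (bx x (hK x hx))
        have b3 := ib y (hK y hy)
        have b4 := abs_real_inner_le_norm (x - y) ξ
        rw [← mul_sub]
        refine (le_abs_self _).trans ?_
        rw [abs_mul, abs_neg, abs_of_pos (inv_pos.2 θ0), mul_assoc]
        refine mul_le_mul_of_nonneg_left ?_ (inv_pos.2 θ0).le
        have : ⟪x, ξ⟫ * Real.exp (η * ‖x‖ ^ 2) - ⟪y, ξ⟫ * Real.exp (η * ‖y‖ ^ 2)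
            = ⟪x - y, ξ⟫ * Real.exp (η * ‖x‖ ^ 2)
              + ⟪y, ξ⟫ * (Real.exp (η * ‖x‖ ^ 2) - Real.exp (η * ‖y‖ ^ 2)) := by
          rw [inner_sub_left]; ring
        rw [this]
        refine (abs_add_le _ _).trans ?_
        rw [abs_mul, abs_mul, abs_of_pos (Real.exp_pos _)]
        have c1 := mul_le_mul b4 b2 (Real.exp_pos _).le (by positivity)
        have c2 := mul_le_mul b3 b1 (abs_nonneg _) (by positivity)
        have c3 : R * ‖ξ‖ * (4 * η * R * ‖x - y‖) = 4 * (η * R ^ 2) * (‖x - y‖ * ‖ξ‖) := by ring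
        have c4 : 0 ≤ ‖x - y‖ * ‖ξ‖ := by positivity
        rw [c3, hη] at c2
        nlinarith) p0 q0 hp hq
    have : ∀ x : E d, gw η x * (-θ⁻¹ * (⟪x, ξ⟫ * Real.exp (η * ‖x‖ ^ 2))) = -θ⁻¹ * ⟪x, ξ⟫ :=
      fun x => by
        have := gw_mul_exp η x
        linear_combination (-θ⁻¹ * ⟪x, ξ⟫) * this
    simp only [this, integral_const_mul, ← hc] at key
    have b1 := Xb A
    have b2 := Xb B
    rw [mA] at b1
    rw [← hBv] at b2
    have k2 := alg2 (c := c) (k := 49152) m0 p0 q0 (hp ▸ a2) (hp ▸ a1) (hq ▸ a4)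
      (by rw [hq]; linarith) (by positivity) θ0 (by norm_num) b1 b2 (by
        refine le_trans (le_of_eq ?_) key
        congr 1
        have e1 : (θ⁻¹ * (4 * ‖ξ‖)) ^ 2 / η = 49152 * (R * ‖ξ‖) ^ 2 / θ ^ 2 := by
          have : η = 1 / (3072 * R ^ 2) := by field_simp; linarith
          rw [this]; field_simp; ring
        rw [e1]; field_simp; ring)
    have k3 := setIntegral_le_lin hρ B (f := fun x => ⟪x, ξ⟫ * e x) (g := fun x => e x ^ 2)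
      (by fun_prop) (by fun_prop) (a := θ) (c := (R * ‖ξ‖) ^ 2 / (4 * θ))
      (hρ.mono fun x hx => by
        have c1 : ⟪x, ξ⟫ ^ 2 ≤ (R * ‖ξ‖) ^ 2 := sq_le_sq' (abs_le.1 (ib x hx)).1 (abs_le.1 (ib x hx)).2
        have c2 : θ * e x ^ 2 + ⟪x, ξ⟫ ^ 2 / (4 * θ) - ⟪x, ξ⟫ * e x
            = (2 * θ * e x - ⟪x, ξ⟫) ^ 2 / (4 * θ) := by field_simp; ring
        have c3 : 0 ≤ (2 * θ * e x - ⟪x, ξ⟫) ^ 2 / (4 * θ) := by positivity
        have c4 := div_le_div_of_nonneg_right c1 (show 0 ≤ 4 * θ by positivity)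
        linarith)
    rw [← hn, ← hBv] at k3
    have k4 : (R * ‖ξ‖) ^ 2 / (4 * θ) * Bv ≤ m * (R * ‖ξ‖) ^ 2 / θ := by
      have : m * (R * ‖ξ‖) ^ 2 / θ = (R * ‖ξ‖) ^ 2 / (4 * θ) * (4 * m) := by field_simp
      rw [this]
      exact mul_le_mul_of_nonneg_left (by linarith) (by positivity)
    have k5 : 98311 * (m * (R * ‖ξ‖) ^ 2) / θ
        = (2 * 49152 + 6) * (m * (R * ‖ξ‖) ^ 2) / θ + m * (R * ‖ξ‖) ^ 2 / θ := by ring
    linarith

variable {ι : Type} [Fintype ι] [Nonempty ι]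

lemma bary_stab {K : Set (E d)} {ρ : Measure (E d)} [IsProbabilityMeasure ρ] {R : ℝ} (R0 : 0 < R)
    (hρ : ∀ᵐ x ∂ρ, ‖x‖ ≤ R) (hac : ρ ≪ volume) (hK : ∀ x ∈ K, ‖x‖ ≤ R) (hPL : RealPL K ρ)
    {e : E d → ℝ} (he : Continuous e) (he' : ∀ᵐ x ∂ρ, |e x| ≤ 1 / 2) (he0 : ∫ x, e x ∂ρ = 0)
    {m : ι → ℝ} (m0 : ∀ i, 0 < m i) (m1 : ∑ i, m i = 1) {y : ι → E d} (hy : Function.Injective y)
    {ψ ψ' : ι → ℝ} (h : IsOpt ρ m y ψ) (h' : IsOpt (pert ρ e) m y ψ') (ξ : ι → E d)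
    {θ : ℝ} (θ0 : 0 < θ) :
    ∑ i, ∫ x in cell y ψ' i, ⟪x, ξ i⟫ ∂(pert ρ e) - ∑ i, ∫ x in cell y ψ i, ⟪x, ξ i⟫ ∂ρ ≤
      25 * θ * ∫ x, e x ^ 2 ∂ρ + 98311 * R ^ 2 * (∑ i, m i * ‖ξ i‖ ^ 2) / θ := by
  haveI := pert_prob hρ he he' he0
  have hρ' : ∀ᵐ x ∂(pert ρ e), ‖x‖ ≤ R := (pert_ac ρ e).ae_le hρ
  have hac' : pert ρ e ≪ volume := (pert_ac ρ e).trans hac
  obtain ⟨η, hη⟩ : ∃ η : ℝ, η * R ^ 2 = 1 / 3072 := ⟨1 / (3072 * R ^ 2), by field_simp⟩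
  choose p q hp hq h1 h2 using fun i => per_cell R0 hρ hK hPL he he' (cell_meas y ψ i)
    (cell_meas y ψ' i) (cell_meas y (fun i => (ψ i + ψ' i) / 2) i)
    (fun x hx x' hx' => cell_mid y ψ ψ' i hx hx') (m0 i) (mass_eq hρ hac m1 hy h i)
    (mass_eq hρ' hac' m1 hy h' i) (ξ i) θ0 hη
  have ig := integrable_of_cont hρ (gw_cont (d := d) η)
  have s1 := integral_eq_sum_of (cell_partition hac hy ψ) ig
  have s2 := integral_eq_sum_of (cell_partition hac hy ψ') ig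
  have s3 := integral_eq_sum_of (cell_partition hac hy (fun i => (ψ i + ψ' i) / 2)) ig
  have s4 := integral_eq_sum_of (cell_partition hac hy ψ')
    (integrable_of_cont hρ (f := fun x => e x ^ 2) (by fun_prop))
  have t1 := Finset.sum_le_sum fun i (_ : i ∈ Finset.univ) => h1 i
  have t2 := Finset.sum_le_sum fun i (_ : i ∈ Finset.univ) => h2 i
  have t3 : ∑ i, (p i - q i) ^ 2 = 2 * (∫ x, gw η x ∂ρ - ∑ i, p i * q i) := by
    have : ∀ i, (p i - q i) ^ 2 = p i ^ 2 + q i ^ 2 - 2 * (p i * q i) := fun i => by ring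
    simp only [this, Finset.sum_sub_distrib, Finset.sum_add_distrib, hp, hq, ← Finset.mul_sum,
      ← s1, ← s2]
    ring
  have t4 : ∑ i, 98311 * (m i * (R * ‖ξ i‖) ^ 2) / θ
      = 98311 * R ^ 2 * (∑ i, m i * ‖ξ i‖ ^ 2) / θ := by
    rw [Finset.mul_sum, Finset.sum_div]
    exact Finset.sum_congr rfl fun i _ => by ring
  simp only [Finset.sum_sub_distrib, Finset.sum_add_distrib, ← Finset.mul_sum, ← s3, ← s4, t3,
    t4] at t1 t2
  have t5 : ∫ x, gw η x ∂ρ - ∑ i, p i * q i ≤ 8 * ∫ x, e x ^ 2 ∂ρ := by linarith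
  have t6 := mul_le_mul_of_nonneg_left t5 θ0.le
  nlinarith

end Vale.Agent.P074
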