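import Vale.Agent.P074.Basic

namespace Vale.Agent.P074

open MeasureTheory Set
open scoped RealInnerProductSpace ENNReal

variable {n : ℕ}

noncomputable def ee (i : Fin (n + 2)) : E (n + 2) := EuclideanSpace.single i (1 : ℝ)

def box (lo hi : Fin (n + 2) → ℝ) : Set (E (n + 2)) := {x | ∀ i, x i ∈ Icc (lo i) (hi i)}

lemma box_eq (lo hi : Fin (n + 2) → ℝ) :
    box lo hi = (WithLp.ofLp : E (n + 2) → _) ⁻¹' (Set.pi univ fun i => Icc (lo i) (hi i)) := by
  ext x; simp only [box, mem_setOf_eq, mem_preimage, mem_pi, mem_univ, forall_true_left]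

lemma volume_box (lo hi : Fin (n + 2) → ℝ) :
    volume (box lo hi) = ∏ i, ENNReal.ofReal (hi i - lo i) := by
  rw [box_eq, (PiLp.volume_preserving_ofLp (Fin (n + 2))).measure_preimage
    (MeasurableSet.univ_pi fun i => measurableSet_Icc).nullMeasurableSet, volume_pi_pi]
  simp

lemma isClosed_box (lo hi : Fin (n + 2) → ℝ) : IsClosed (box lo hi) := by
  rw [box_eq]
  exact (isClosed_set_pi fun i _ => isClosed_Icc).preimage (by fun_prop)

def cube (n : ℕ) : Set (E (n + 2)) := box (fun _ => -1) (fun _ => 1)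

lemma isCompact_cube : IsCompact (cube n) := by
  have : cube n = (WithLp.toLp 2 : _ → E (n + 2)) '' (Set.pi univ fun _ => Icc (-1) 1) := by
    ext x
    simp only [cube, box, mem_setOf_eq, mem_image, mem_pi, mem_univ, forall_true_left]
    constructor
    · intro h; exact ⟨x.ofLp, h, rfl⟩
    · rintro ⟨y, hy, rfl⟩; exact hy
  rw [this]
  exact (isCompact_univ_pi fun _ => isCompact_Icc).image (by fun_prop)

lemma convex_cube : Convex ℝ (cube n) := by
  intro x hx y hy a b ha hb hab i
  have := convex_Icc (-1 : ℝ) 1 (hx i) (hy i) ha hb hab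
  simpa using this

lemma interior_cube : (interior (cube n)).Nonempty := by
  refine ⟨0, mem_interior.2 ⟨Metric.ball 0 1, ?_, Metric.isOpen_ball, by simp⟩⟩
  intro x hx i
  have h1 : ‖x‖ < 1 := by simpa using hx
  have h2 : |x i| ≤ ‖x‖ := by simpa using PiLp.norm_apply_le x i
  have := abs_le.1 (h2.trans h1.le)
  exact ⟨this.1, this.2⟩

lemma volume_cube : volume (cube n) = 2 ^ (n + 2) := by
  rw [cube, volume_box]
  norm_num

open Classical in
noncomputable def TT (s a : ℝ) (x : E (n + 2)) : E (n + 2) :=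
  if |x 0| ≤ a * (1 + s * x 1) then (s * a) • ee 1 else if 0 ≤ x 0 then ee 0 else -ee 0

lemma measurable_TT (s a : ℝ) : Measurable (TT (n := n) s a) := by
  unfold TT
  refine Measurable.ite ?_ measurable_const (Measurable.ite ?_ measurable_const measurable_const)
  · exact measurableSet_le (by fun_prop) (by fun_prop)
  · exact measurableSet_le (by fun_prop) (by fun_prop)

def atoms (s a : ℝ) : Set (E (n + 2)) := {(s * a) • ee 1, ee 0, -ee 0}

lemma TT_mem (s a : ℝ) (x : E (n + 2)) : TT s a x ∈ atoms s a := by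
  unfold TT atoms
  split_ifs <;> simp

lemma inner_ee (x : E (n + 2)) (i : Fin (n + 2)) : ⟪x, ee i⟫ = x i := by
  simp [ee, EuclideanSpace.inner_single_right]

lemma ee_apply_ne {i j : Fin (n + 2)} (h : j ≠ i) : (ee i : E (n + 2)) j = 0 := by
  simp [ee, h]

lemma ee_apply_self (i : Fin (n + 2)) : (ee i : E (n + 2)) i = 1 := by
  simp [ee]

lemma norm_ee (i : Fin (n + 2)) : ‖(ee i : E (n + 2))‖ = 1 := by
  simp [ee]

lemma TT_optimal {s a : ℝ} (hs : s * s = 1) :
    IsOptimalMap (unif (cube n)) ((unif (cube n)).map (TT s a)) (TT s a) := by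
  have := unif_isProb (isCompact_cube (n := n)) interior_cube
  refine optimal_of_potential (Y := atoms s a) (ψ := fun y => -s * y 1) isCompact_cube
    (Set.Finite.isCompact (by simp [atoms])) (unif_ae_mem isCompact_cube) (measurable_TT s a)
    (Filter.Eventually.of_forall (TT_mem s a)) (by fun_prop) (Filter.Eventually.of_forall ?_)
  intro x y hy
  have h01 : (1 : Fin (n + 2)) ≠ 0 := by simp
  have v1 : ⟪x, (s * a) • (ee 1 : E (n + 2))⟫ - -s * ((s * a) • (ee 1 : E (n + 2))) 1
      = a * (1 + s * x 1) := by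
    simp only [inner_smul_right, inner_ee, PiLp.smul_apply, ee_apply_self, smul_eq_mul]
    linear_combination a * hs
  have v2 : ⟪x, (ee 0 : E (n + 2))⟫ - -s * (ee 0 : E (n + 2)) 1 = x 0 := by
    simp [inner_ee, ee_apply_ne h01]
  have v3 : ⟪x, -(ee 0 : E (n + 2))⟫ - -s * (-ee 0 : E (n + 2)) 1 = -x 0 := by
    simp [inner_neg_right, inner_ee, ee_apply_ne h01]
  have key : max (a * (1 + s * x 1)) |x 0| ≤ ⟪x, TT s a x⟫ - -s * (TT s a x) 1 := by
    unfold TT
    split_ifs with h1 h2
    · rw [v1]; exact max_le le_rfl h1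
    · rw [v2]; rw [abs_of_nonneg h2] at h1 ⊢; exact max_le (le_of_not_ge h1) le_rfl
    · rw [v3]; rw [abs_of_neg (not_le.1 h2)] at h1 ⊢; exact max_le (le_of_not_ge h1) le_rfl
  refine le_trans ?_ key
  rcases hy with rfl | rfl | rfl
  · rw [v1]; exact le_max_left _ _
  · rw [v2]; exact (le_abs_self _).trans (le_max_right _ _)
  · rw [v3]; exact (neg_le_abs _).trans (le_max_right _ _)

/-- reflection in the second coordinate -/
noncomputable def refl1 : E (n + 2) ≃ₗᵢ[ℝ] E (n + 2) :=
  (Submodule.span ℝ {(ee 1 : E (n + 2))})ᗮ.reflection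

lemma refl1_apply (x : E (n + 2)) (i : Fin (n + 2)) :
    refl1 x i = if i = 1 then -x i else x i := by
  have h : refl1 x = x - (2 * x 1) • ee 1 := by
    unfold refl1
    rw [Submodule.reflection_orthogonal_apply, Submodule.reflection_singleton_apply, norm_ee,
      real_inner_comm, inner_ee]
    simp only [RCLike.ofReal_real_eq_id, id_eq, one_pow, div_one, neg_sub]
    rw [two_smul, ← add_smul, two_mul]
  rw [h]
  split_ifs with hi
  · subst hi; simp [ee_apply_self]; ring
  · simp [ee_apply_ne hi]

lemma refl1_map : (unif (cube n)).map refl1 = unif (cube n) := by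
  have hm : MeasurePreserving (refl1 (n := n)) volume volume := refl1.measurePreserving
  have hpre : (refl1 (n := n)) ⁻¹' cube n = cube n := by
    ext x
    simp only [cube, box, mem_preimage, mem_setOf_eq, refl1_apply]
    refine forall_congr' fun i => ?_
    split_ifs
    · simp [and_comm, neg_le, le_neg]
    · rfl
  have := hm.restrict_preimage (isCompact_cube (n := n)).measurableSet
  rw [hpre] at this
  unfold unif
  rw [Measure.map_smul, this.map_eq]

lemma unif_box_le (lo hi : Fin (n + 2) → ℝ) :
    unif (cube n) (box lo hi) ≤ (2 ^ (n + 2))⁻¹ * ∏ i, ENNReal.ofReal (hi i - lo i) := by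
  unfold unif
  rw [Measure.smul_apply, volume_cube, smul_eq_mul, ← volume_box]
  gcongr
  exact Measure.restrict_le_self

lemma W2_bound {a : ℝ} (ha : 0 < a) :
    W2 ((unif (cube n)).map (TT 1 a)) ((unif (cube n)).map (TT (-1) a)) ≤ Real.sqrt (8 * a ^ 3) := by
  have := unif_isProb (isCompact_cube (n := n)) interior_cube
  have m1 := measurable_TT (n := n) 1 a
  have m2 : Measurable fun x => TT (n := n) (-1) a (refl1 x) :=
    (measurable_TT (n := n) (-1) a).comp (refl1 (n := n)).continuous.measurable
  refine W2_le_of_coupling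
    (π := (unif (cube n)).map (fun x => (TT 1 a x, TT (-1) a (refl1 x)))) ⟨?_, ?_⟩
    (by positivity) ?_
  · rw [Measure.map_map measurable_fst (m1.prodMk m2)]; rfl
  · rw [Measure.map_map measurable_snd (m1.prodMk m2)]
    conv_rhs => rw [← refl1_map]
    rw [Measure.map_map (measurable_TT _ _) (refl1 (n := n)).continuous.measurable]; rfl
  · rw [lintegral_map (by fun_prop) (m1.prodMk m2)]
    set B : Set (E (n + 2)) :=
      box (Function.update (fun _ => -1) 0 (-2 * a)) (Function.update (fun _ => 1) 0 (2 * a))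
      with hB
    have hBm : MeasurableSet B := (isClosed_box _ _).measurableSet
    calc ∫⁻ x, ‖TT 1 a x - TT (-1) a (refl1 x)‖ₑ ^ 2 ∂(unif (cube n))
        ≤ ∫⁻ x, B.indicator (fun _ => ENNReal.ofReal (4 * a ^ 2)) x ∂(unif (cube n)) := by
          apply lintegral_mono_ae
          filter_upwards [unif_ae_mem (isCompact_cube (n := n))] with x hx
          have r0 : refl1 x 0 = x 0 := by rw [refl1_apply]; simp
          have r1 : refl1 x 1 = -x 1 := by rw [refl1_apply]; simp
          unfold TT
          rw [r0, r1]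
          have e : (1 : ℝ) + -1 * -x 1 = 1 + 1 * x 1 := by ring
          rw [e]
          split_ifs with h1 h2
          · have hxB : x ∈ B := by
              intro i
              by_cases hi : i = 0
              · subst hi
                have := (hx 1).2
                have h3 : |x 0| ≤ 2 * a := by nlinarith
                have := abs_le.1 h3
                simp only [Function.update_self]
                constructor <;> linarith [this.1, this.2]
              · simpa [Function.update_of_ne hi] using hx i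
            rw [indicator_of_mem hxB, enorm_sq_eq, ← sub_smul, norm_smul, norm_ee]
            apply le_of_eq
            congr 1
            rw [Real.norm_eq_abs, mul_one, sq_abs]; ring
          · simp
          · simp
      _ = ENNReal.ofReal (4 * a ^ 2) * unif (cube n) B := by
          rw [lintegral_indicator_const hBm]
      _ ≤ ENNReal.ofReal (4 * a ^ 2) * ENNReal.ofReal (2 * a) := by
          gcongr
          refine (unif_box_le _ _).trans (le_of_eq ?_)
          rw [Fin.prod_univ_succ]
          have : ∀ i : Fin (n + 1), ENNReal.ofReal (Function.update (fun _ => (1 : ℝ)) (0 : Fin (n + 2)) (2 * a) i.succ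
              - Function.update (fun _ => (-1 : ℝ)) (0 : Fin (n + 2)) (-2 * a) i.succ) = 2 := by
            intro i
            rw [Function.update_of_ne (Fin.succ_ne_zero i), Function.update_of_ne (Fin.succ_ne_zero i)]
            norm_num
          simp only [this, Function.update_self, Finset.prod_const, Finset.card_univ,
            Fintype.card_fin]
          have e : 2 * a - -2 * a = 2 * (2 * a) := by ring
          rw [e, ENNReal.ofReal_mul (by norm_num), pow_succ (2 : ℝ≥0∞) (n + 1)]
          simp only [ENNReal.ofReal_ofNat]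
          have h2 : (2 : ℝ≥0∞) ^ (n + 1) * 2 ≠ 0 := by simp
          have h3 : (2 : ℝ≥0∞) ^ (n + 1) * 2 ≠ ∞ := by simp [ENNReal.mul_eq_top]
          calc ((2 : ℝ≥0∞) ^ (n + 1) * 2)⁻¹ * (2 * ENNReal.ofReal (2 * a) * 2 ^ (n + 1))
              = (((2 : ℝ≥0∞) ^ (n + 1) * 2)⁻¹ * (2 ^ (n + 1) * 2)) * ENNReal.ofReal (2 * a) := by
                ring
            _ = _ := by rw [ENNReal.inv_mul_cancel h2 h3, one_mul]
      _ = ENNReal.ofReal (8 * a ^ 3) := by
          rw [← ENNReal.ofReal_mul (by positivity)]; congr 1; ring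

lemma L2_bound {a : ℝ} (ha : 0 < a) (ha1 : a ≤ 1 / 2) :
    a / 16 ≤ ∫ x, ‖TT 1 a x - TT (-1) a x‖ ^ 2 ∂(unif (cube n)) := by
  have := unif_isProb (isCompact_cube (n := n)) interior_cube
  set lo : Fin (n + 2) → ℝ := Fin.cons a (Fin.cons (1 / 2) fun _ => -1) with hlo
  set hi : Fin (n + 2) → ℝ := Fin.cons (3 / 2 * a) (Fin.cons 1 fun _ => 1) with hhi
  set B : Set (E (n + 2)) := box lo hi with hB
  have hBm : MeasurableSet B := (isClosed_box _ _).measurableSet
  have hsub : B ⊆ cube n := by
    intro x hx i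
    have := hx i
    refine Fin.cases ?_ (fun j => Fin.cases ?_ (fun k => ?_) j) i this
    · simp only [hlo, hhi, Fin.cons_zero, mem_Icc]; intro h; constructor <;> linarith [h.1, h.2]
    · simp only [hlo, hhi, Fin.cons_succ, Fin.cons_zero, mem_Icc]
      intro h; constructor <;> linarith [h.1, h.2]
    · simp only [hlo, hhi, Fin.cons_succ, mem_Icc]; exact id
  have hvol : (unif (cube n)).real B = a / 16 := by
    unfold unif Measure.real
    rw [Measure.smul_apply, Measure.restrict_apply hBm, inter_eq_left.2 hsub, volume_cube, hB,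
      volume_box, Fin.prod_univ_succ, Fin.prod_univ_succ]
    simp only [hlo, hhi, Fin.cons_succ, Fin.cons_zero, smul_eq_mul, Finset.prod_const,
      Finset.card_univ, Fintype.card_fin, ENNReal.toReal_mul, ENNReal.toReal_inv,
      ENNReal.toReal_pow]
    rw [ENNReal.toReal_ofReal (by linarith), ENNReal.toReal_ofReal (by norm_num),
      ENNReal.toReal_ofReal (by norm_num)]
    simp only [ENNReal.toReal_ofNat]
    field_simp
    ring
  have hint : Integrable (fun x => ‖TT 1 a x - TT (-1) a x‖ ^ 2) (unif (cube n)) := by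
    refine Integrable.of_bound (C := 4) ?_ (Filter.Eventually.of_forall fun x => ?_)
    · exact (((measurable_TT 1 a).sub (measurable_TT (-1) a)).norm.pow_const 2).aestronglyMeasurable
    · have hb : ∀ s : ℝ, |s| = 1 → ‖TT (n := n) s a x‖ ≤ 1 := by
        intro s hs
        unfold TT
        split_ifs
        · rw [norm_smul, norm_ee, Real.norm_eq_abs, abs_mul, hs, abs_of_pos ha]; linarith
        · rw [norm_ee]
        · rw [norm_neg, norm_ee]
      have := norm_sub_le (TT (n := n) 1 a x) (TT (-1) a x)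
      have h1 := hb 1 (by simp)
      have h2 := hb (-1) (by simp)
      rw [Real.norm_eq_abs, abs_of_nonneg (by positivity)]
      nlinarith [norm_nonneg (TT (n := n) 1 a x - TT (-1) a x)]
  rw [← hvol, ← integral_indicator_one hBm]
  apply integral_mono ((integrable_const 1).indicator hBm) hint
  intro x
  by_cases hx : x ∈ B
  · rw [indicator_of_mem hx]
    have h0 := hx 0
    have h1 := hx 1
    have e1 : lo 1 = 1 / 2 := rfl
    have e2 : hi 1 = 1 := rfl
    rw [e1, e2] at h1
    simp only [hlo, hhi, Fin.cons_zero, mem_Icc] at h0 h1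
    have hx0 : 0 ≤ x 0 := by linarith [h0.1]
    have c1 : |x 0| ≤ a * (1 + 1 * x 1) := by rw [abs_of_nonneg hx0]; nlinarith [h0.2, h1.1]
    have c2 : ¬ |x 0| ≤ a * (1 + -1 * x 1) := by
      rw [abs_of_nonneg hx0]; nlinarith [h0.1, h1.1]
    simp only [TT, if_pos c1, if_neg c2, if_pos hx0, Pi.one_apply]
    have h3 := PiLp.norm_apply_le ((1 * a) • (ee 1 : E (n + 2)) - ee 0) 0
    have h10 : (0 : Fin (n + 2)) ≠ 1 := by simp
    simp only [PiLp.sub_apply, PiLp.smul_apply, ee_apply_ne h10, ee_apply_self, smul_eq_mul,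
      mul_zero, zero_sub, norm_neg, norm_one] at h3
    nlinarith
  · rw [indicator_of_notMem hx]; positivity

theorem not_admissible {d : ℕ} (hd : 2 ≤ d) {α : ℝ} (hα : 1 / 3 < α) : ¬ Admissible d α := by
  obtain ⟨n, rfl⟩ : ∃ n, d = n + 2 := ⟨d - 2, by omega⟩
  rintro ⟨h0, -, h⟩
  have := unif_isProb (isCompact_cube (n := n)) interior_cube
  obtain ⟨C, hC⟩ := h (cube n) isCompact_cube convex_cube interior_cube
    (Metric.closedBall 0 1) (isCompact_closedBall _ _) ⟨0, by simp⟩
  have key : ∀ a : ℝ, 0 < a → a ≤ 1 / 2 →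
      Real.sqrt (a / 16) ≤ |C| * Real.sqrt (8 * a ^ 3) ^ α := by
    intro a ha ha1
    have hp : ∀ s : ℝ, |s| = 1 → IsProbOn (Metric.closedBall (0 : E (n + 2)) 1)
        ((unif (cube n)).map (TT s a)) := by
      intro s hs
      refine ⟨Measure.isProbabilityMeasure_map (measurable_TT s a).aemeasurable, ?_⟩
      rw [Measure.map_apply (measurable_TT s a) Metric.isClosed_closedBall.measurableSet.compl]
      convert measure_empty (μ := unif (cube n))
      ext x
      simp only [mem_preimage, mem_compl_iff, mem_closedBall_zero_iff, not_le, mem_empty_iff_false,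
        iff_false, not_lt]
      unfold TT
      split_ifs
      · rw [norm_smul, norm_ee, Real.norm_eq_abs, abs_mul, hs, abs_of_pos ha]; linarith
      · rw [norm_ee]
      · rw [norm_neg, norm_ee]
    have h1 := hC _ _ (hp 1 (by simp)) (hp (-1) (by simp)) _ _
      (TT_optimal (s := 1) (a := a) (by norm_num)) (TT_optimal (s := -1) (a := a) (by norm_num))
    refine (Real.sqrt_le_sqrt (L2_bound ha ha1)).trans (h1.trans ?_)
    have h2 := Real.rpow_le_rpow (W2_nonneg _ _) (W2_bound (n := n) ha) h0.le
    calc C * _ ≤ |C| * _ := mul_le_mul_of_nonneg_right (le_abs_self C)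
            (Real.rpow_nonneg (W2_nonneg _ _) _)
      _ ≤ _ := mul_le_mul_of_nonneg_left h2 (abs_nonneg C)
  have key2 : ∀ a : ℝ, 0 < a → a ≤ 1 / 2 → 1 / 16 ≤ C ^ 2 * 8 ^ α * a ^ (3 * α - 1) := by
    intro a ha ha1
    have h1 := key a ha ha1
    have h2 := pow_le_pow_left₀ (Real.sqrt_nonneg _) h1 2
    rw [Real.sq_sqrt (by positivity), mul_pow, sq_abs, ← Real.rpow_natCast (_ ^ α),
      ← Real.rpow_mul (Real.sqrt_nonneg _), mul_comm α, Real.rpow_mul (Real.sqrt_nonneg _),
      Real.rpow_natCast, Real.sq_sqrt (by positivity), Real.mul_rpow (by norm_num) (by positivity),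
      ← Real.rpow_natCast a 3, ← Real.rpow_mul ha.le] at h2
    rw [Real.rpow_sub ha, Real.rpow_one]
    have : C ^ 2 * 8 ^ α * (a ^ (3 * α) / a) = C ^ 2 * (8 ^ α * a ^ (3 * α)) / a := by ring
    rw [this, le_div_iff₀ ha]
    push_cast at h2
    linarith
  have ht : Filter.Tendsto (fun a : ℝ => C ^ 2 * 8 ^ α * a ^ (3 * α - 1)) (nhdsWithin 0 (Ioi 0))
      (nhds (C ^ 2 * 8 ^ α * 0)) := by
    apply Filter.Tendsto.const_mul
    have hc : ContinuousAt (fun a : ℝ => a ^ (3 * α - 1)) 0 :=
      Real.continuousAt_rpow_const _ _ (Or.inr (by linarith))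
    have := hc.tendsto
    rw [Real.zero_rpow (by linarith)] at this
    exact this.mono_left nhdsWithin_le_nhds
  have hev : ∀ᶠ a in nhdsWithin (0 : ℝ) (Ioi 0), 1 / 16 ≤ C ^ 2 * 8 ^ α * a ^ (3 * α - 1) := by
    filter_upwards [Ioc_mem_nhdsGT (show (0 : ℝ) < 1 / 2 by norm_num)] with a ha
    exact key2 a ha.1 ha.2
  have := ge_of_tendsto ht hev
  norm_num at this

end Vale.Agent.P074
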