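import Vale.Agent.P074.Stab

namespace Vale.Agent.P074

open MeasureTheory Set Filter
open scoped ENNReal Topology RealInnerProductSpace

variable {d : ℕ}

lemma exp_quad {x : ℝ} (hx : -2 ≤ x) : 1 + x + x ^ 2 / 4 ≤ Real.exp x := by
  have h1 := Real.add_one_le_exp (x / 2)
  have h2 : Real.exp x = Real.exp (x / 2) ^ 2 := by rw [pow_two, ← Real.exp_add]; simp
  rw [h2]
  nlinarith

lemma exp_le_lin {x : ℝ} (h0 : 0 ≤ x) (h1 : x ≤ 1) : Real.exp x ≤ 1 + 3 * x := by
  have a1 := Real.add_one_le_exp (-x)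
  have a2 : Real.exp x * Real.exp (-x) = 1 := by rw [← Real.exp_add]; simp
  have a3 : Real.exp x ≤ 3 := (Real.exp_le_exp.2 h1).trans Real.exp_one_lt_three.le
  nlinarith [Real.exp_pos x]

lemma integral_le_lin {ρ : Measure (E d)} [IsFiniteMeasure ρ] {R : ℝ}
    (hρ : ∀ᵐ x ∂ρ, ‖x‖ ≤ R) {f g h k : E d → ℝ} (hf : Continuous f)
    (hg : Continuous g) (hh : Continuous h) (hk : Continuous k) {a b c : ℝ}
    (H : ∀ᵐ x ∂ρ, f x ≤ a * g x + b * h x + c * k x) :
    ∫ x, f x ∂ρ ≤ a * ∫ x, g x ∂ρ + b * ∫ x, h x ∂ρ + c * ∫ x, k x ∂ρ := by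
  have i1 := integrable_of_cont hρ hf
  have i2 := (integrable_of_cont hρ hg).const_mul a
  have i3 := (integrable_of_cont hρ hh).const_mul b
  have i4 := (integrable_of_cont hρ hk).const_mul c
  have := integral_mono_ae i1 ((i2.add i3).add i4) H
  rwa [integral_add' (i2.add i3) i4, integral_add' i2 i3, integral_const_mul, integral_const_mul,
    integral_const_mul] at this

lemma strong_conv_half {K : Set (E d)} {ρ : Measure (E d)} [IsProbabilityMeasure ρ] {R : ℝ}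
    (hρ : ∀ᵐ x ∂ρ, ‖x‖ ≤ R) (hK : ∀ x ∈ K, ‖x‖ ≤ R) (hPL : RealPL K ρ)
    {u u' v : E d → ℝ} (hu : Continuous u) (hu' : Continuous u') (hv : Continuous v)
    (bu : ∀ x, ‖x‖ ≤ R → |u x| ≤ 1 / 2) (bu' : ∀ x, ‖x‖ ≤ R → |u' x| ≤ 1 / 2)
    (hmid : ∀ x x', v ((1 / 2 : ℝ) • (x + x')) ≤ (u x + u' x') / 2) :
    ∃ c, ∫ x, (u x - u' x - c) ^ 2 ∂ρ ≤ 192 * ∫ x, ((u x + u' x) / 2 - v x) ∂ρ := by
  have hdiag : ∀ x, v x ≤ (u x + u' x) / 2 := fun x => by
    have := hmid x x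
    rwa [← two_smul ℝ x, smul_smul, show (1 / 2 : ℝ) * 2 = 1 by norm_num, one_smul] at this
  obtain ⟨β, hβ⟩ : ∃ β : E d → ℝ, β = fun x => Real.exp (-((u x + u' x) / 2)) := ⟨_, rfl⟩
  have βc : Continuous β := by rw [hβ]; fun_prop
  have β1 : ∀ x, ‖x‖ ≤ R → 1 / 2 ≤ β x := fun x hx => by
    have := Real.add_one_le_exp (-((u x + u' x) / 2))
    rw [hβ]; linarith [(abs_le.1 (bu x hx)).2, (abs_le.1 (bu' x hx)).2]
  have β2 : ∀ x, ‖x‖ ≤ R → β x ≤ 2 := fun x hx => by
    rw [hβ]; exact exp_le_two (by linarith [(abs_le.1 (bu x hx)).1, (abs_le.1 (bu' x hx)).1])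
  obtain ⟨Z, hZ⟩ : ∃ Z, Z = ∫ x, β x ∂ρ := ⟨_, rfl⟩
  have Z0 : 0 < Z := by
    have := integral_le_add hρ (f := fun _ => 0) continuous_const βc (c := -(1 / 2))
      (fun x hx => by linarith [β1 x hx])
    simp only [integral_zero] at this
    linarith
  obtain ⟨M, hM⟩ : ∃ M, M = ∫ x, β x * (u x - u' x) ∂ρ := ⟨_, rfl⟩
  obtain ⟨c, hc⟩ : ∃ c, M = c * Z := ⟨M / Z, by field_simp⟩
  have wb : ∀ x, ‖x‖ ≤ R → -1 ≤ u x - u' x ∧ u x - u' x ≤ 1 := fun x hx => by
    have := abs_le.1 (bu x hx)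
    have := abs_le.1 (bu' x hx)
    constructor <;> linarith
  have c1 : c ≤ 1 := by
    have := integral_le_lin hρ (f := fun x => β x * (u x - u' x)) (by fun_prop) βc βc βc
      (a := 1) (b := 0) (c := 0) (hρ.mono fun x hx => by nlinarith [β1 x hx, wb x hx])
    rw [← hM, ← hZ] at this
    nlinarith
  have c2 : -1 ≤ c := by
    have := integral_le_lin hρ (f := fun x => 0) (g := fun x => β x * (u x - u' x))
      continuous_const (by fun_prop) βc βc
      (a := 1) (b := 1) (c := 0) (hρ.mono fun x hx => by nlinarith [β1 x hx, wb x hx])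
    rw [← hM, ← hZ, integral_zero] at this
    nlinarith
  refine ⟨c, ?_⟩
  obtain ⟨V, hV⟩ : ∃ V, V = ∫ x, (u x - u' x - c) ^ 2 ∂ρ := ⟨_, rfl⟩
  obtain ⟨D, hD⟩ : ∃ D, D = ∫ x, ((u x + u' x) / 2 - v x) ∂ρ := ⟨_, rfl⟩
  have V0 : 0 ≤ V := by rw [hV]; exact integral_nonneg fun x => sq_nonneg _
  have key := hPL univ univ univ (fun x => Real.exp (-u x + c / 2))
    (fun x => Real.exp (-u' x - c / 2)) (fun x => Real.exp (-max (v x) (-(1 / 2))))
    MeasurableSet.univ MeasurableSet.univ MeasurableSet.univ (by fun_prop) (by fun_prop)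
    (by fun_prop) (fun _ => (Real.exp_pos _).le) (fun _ => (Real.exp_pos _).le)
    (fun _ => (Real.exp_pos _).le) (fun x hx y hy _ _ => ⟨trivial, by
      rw [pow_two, ← Real.exp_add, ← Real.exp_add]
      apply Real.exp_le_exp.2
      have : max (v ((1 / 2 : ℝ) • (x + y))) (-(1 / 2)) ≤ (u x + u' y) / 2 :=
        max_le (hmid x y) (by linarith [(abs_le.1 (bu x (hK x hx))).1,
          (abs_le.1 (bu' y (hK y hy))).1])
      linarith⟩)
  simp only [Measure.restrict_univ] at key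
  have k1 := integral_le_lin hρ (f := fun x => (u x - u' x - c) ^ 2)
    (g := fun x => Real.exp (-u x + c / 2)) (h := β) (k := fun x => β x * (u x - u' x))
    (by fun_prop) (by fun_prop) βc (by fun_prop) (a := 32) (b := -32 - 16 * c) (c := 16)
    (hρ.mono fun x hx => by
      have e1 : Real.exp (-u x + c / 2) = β x * Real.exp (-((u x - u' x - c) / 2)) := by
        rw [hβ, ← Real.exp_add]; congr 1; ring
      have e2 := exp_quad (x := -((u x - u' x - c) / 2)) (by linarith [wb x hx])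
      have e3 := β1 x hx
      have e4 := mul_le_mul_of_nonneg_left e2 (show 0 ≤ β x by linarith)
      have e5 := mul_le_mul_of_nonneg_right e3 (sq_nonneg (u x - u' x - c))
      simp only [e1]
      nlinarith)
  have k2 := integral_le_lin hρ (f := fun x => (u x - u' x - c) ^ 2)
    (g := fun x => Real.exp (-u' x - c / 2)) (h := β) (k := fun x => β x * (u x - u' x))
    (by fun_prop) (by fun_prop) βc (by fun_prop) (a := 32) (b := -32 + 16 * c) (c := -16)
    (hρ.mono fun x hx => by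
      have e1 : Real.exp (-u' x - c / 2) = β x * Real.exp ((u x - u' x - c) / 2) := by
        rw [hβ, ← Real.exp_add]; congr 1; ring
      have e2 := exp_quad (x := (u x - u' x - c) / 2) (by linarith [wb x hx])
      have e3 := β1 x hx
      have e4 := mul_le_mul_of_nonneg_left e2 (show 0 ≤ β x by linarith)
      have e5 := mul_le_mul_of_nonneg_right e3 (sq_nonneg (u x - u' x - c))
      simp only [e1]
      nlinarith)
  have k3 := integral_le_lin hρ (f := fun x => Real.exp (-max (v x) (-(1 / 2))))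
    (g := β) (h := fun x => (u x + u' x) / 2 - v x) (k := β)
    (by fun_prop) βc (by fun_prop) βc (a := 1) (b := 6) (c := 0)
    (hρ.mono fun x hx => by
      have e1 : Real.exp (-max (v x) (-(1 / 2)))
          = β x * Real.exp ((u x + u' x) / 2 - max (v x) (-(1 / 2))) := by
        rw [hβ, ← Real.exp_add]; congr 1; ring
      have b1 := abs_le.1 (bu x hx)
      have b2 := abs_le.1 (bu' x hx)
      have b3 : max (v x) (-(1 / 2)) ≤ (u x + u' x) / 2 := max_le (hdiag x) (by linarith)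
      have b4 := le_max_left (v x) (-(1 / 2))
      have b5 := le_max_right (v x) (-(1 / 2))
      have e2 := exp_le_lin (x := (u x + u' x) / 2 - max (v x) (-(1 / 2))) (by linarith)
        (by linarith)
      have e3 := β1 x hx
      have e4 := mul_le_mul_of_nonneg_left e2 (show 0 ≤ β x by linarith)
      have e5 := mul_le_mul_of_nonneg_right (β2 x hx)
        (show 0 ≤ (u x + u' x) / 2 - max (v x) (-(1 / 2)) by linarith)
      simp only [e1]
      nlinarith)
  rw [← hV, ← hZ, ← hM] at k1 k2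
  rw [← hZ, ← hD] at k3
  rw [← hV, ← hD]
  have f1 : Z + V / 32 ≤ ∫ x, Real.exp (-u x + c / 2) ∂ρ := by nlinarith
  have f2 : Z + V / 32 ≤ ∫ x, Real.exp (-u' x - c / 2) ∂ρ := by nlinarith
  have f3 := (mul_le_mul f1 f2 (by positivity) (le_trans (by positivity) f1)).trans key
  rw [← pow_two] at f3
  have f4 := le_of_sq_le_sq f3 (integral_nonneg fun _ => (Real.exp_pos _).le)
  linarith

lemma strong_conv {K : Set (E d)} {ρ : Measure (E d)} [IsProbabilityMeasure ρ] {R : ℝ}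
    (hρ : ∀ᵐ x ∂ρ, ‖x‖ ≤ R) (hK : ∀ x ∈ K, ‖x‖ ≤ R) (hPL : RealPL K ρ)
    {u u' v : E d → ℝ} (hu : Continuous u) (hu' : Continuous u') (hv : Continuous v)
    {b : ℝ} (b0 : 0 < b) (bu : ∀ x, ‖x‖ ≤ R → |u x| ≤ b) (bu' : ∀ x, ‖x‖ ≤ R → |u' x| ≤ b)
    (hmid : ∀ x x', v ((1 / 2 : ℝ) • (x + x')) ≤ (u x + u' x') / 2) :
    ∃ c, ∫ x, (u x - u' x - c) ^ 2 ∂ρ ≤ 384 * b * ∫ x, ((u x + u' x) / 2 - v x) ∂ρ := by
  have sc : ∀ w : E d → ℝ, (∀ x, ‖x‖ ≤ R → |w x| ≤ b) → ∀ x, ‖x‖ ≤ R → |w x / (2 * b)| ≤ 1 / 2 := by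
    intro w hw x hx
    rw [abs_div, abs_of_pos (by positivity : 0 < 2 * b), div_le_iff₀ (by positivity)]
    linarith [hw x hx]
  obtain ⟨c, hc⟩ := strong_conv_half hρ hK hPL (u := fun x => u x / (2 * b))
    (u' := fun x => u' x / (2 * b)) (v := fun x => v x / (2 * b)) (by fun_prop) (by fun_prop)
    (by fun_prop) (sc u bu) (sc u' bu') (fun x x' => by
      have := div_le_div_of_nonneg_right (hmid x x') (show 0 ≤ 2 * b by positivity)
      refine this.trans (le_of_eq ?_); ring)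
  refine ⟨2 * b * c, ?_⟩
  have e1 : ∀ x, (u x - u' x - 2 * b * c) ^ 2
      = (2 * b) ^ 2 * (u x / (2 * b) - u' x / (2 * b) - c) ^ 2 := fun x => by field_simp
  have e2 : ∀ x, (u x + u' x) / 2 - v x
      = 2 * b * ((u x / (2 * b) + u' x / (2 * b)) / 2 - v x / (2 * b)) := fun x => by field_simp
  simp only [e1]
  rw [integral_const_mul]
  conv_rhs => simp only [e2]
  rw [integral_const_mul]
  have := mul_le_mul_of_nonneg_left hc (show 0 ≤ (2 * b) ^ 2 by positivity)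
  nlinarith

lemma riemann {g g' : ℝ → ℝ} {B : Set ℝ} (hB : B.Finite) {C κ : ℝ} (κ0 : 0 ≤ κ)
    (hg : ∀ s ∈ Icc (0 : ℝ) 1, ∀ t ∈ Icc (0 : ℝ) 1, g s ≤ g t + C * |s - t|)
    (hg' : ∀ s ∈ Icc (0 : ℝ) 1, ∀ t ∈ Icc (0 : ℝ) 1, g' s ≤ g' t + C * |s - t|)
    (h : ∀ t ∉ B, ∃ p p' : ℝ, p' - p ≤ κ ∧ (∀ s, g t + (s - t) * p ≤ g s) ∧
      (∀ s, g' t + (s - t) * p' ≤ g' s)) :
    g' 1 - g' 0 - (g 1 - g 0) ≤ κ := by
  classical
  have C0 : 0 ≤ C := by
    have h1 := hg 0 (by simp) 1 (by simp)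
    have h2 := hg 1 (by simp) 0 (by simp)
    simp at h1 h2; linarith
  have key : ∀ N : ℕ, g' 1 - g' 0 - (g 1 - g 0)
      ≤ κ + (2 * C * (hB.toFinset.card + 1)) / ((N : ℝ) + 1) := by
    intro N
    obtain ⟨Δ, hΔ⟩ : ∃ Δ : ℝ, Δ = 1 / ((N : ℝ) + 1) := ⟨_, rfl⟩
    have Δ0 : 0 < Δ := by rw [hΔ]; positivity
    have Δ1 : ((N : ℝ) + 1) * Δ = 1 := by rw [hΔ]; field_simp
    have mem : ∀ i : ℕ, i ≤ N + 1 → (i : ℝ) * Δ ∈ Icc (0 : ℝ) 1 := fun i hi => by
      refine ⟨by positivity, ?_⟩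
      rw [← Δ1]
      exact mul_le_mul_of_nonneg_right (by exact_mod_cast hi) Δ0.le
    have step : ∀ i ∈ Finset.range N,
        (g' (((i + 1 : ℕ) : ℝ) * Δ) - g ((((i + 1 : ℕ) : ℝ) + 1) * Δ))
          - (g' ((i : ℝ) * Δ) - g (((i : ℝ) + 1) * Δ))
        ≤ κ * Δ + if ((i : ℝ) + 1) * Δ ∈ B then 2 * C * Δ else 0 := by
      intro i hi
      have hi' := Finset.mem_range.1 hi
      push_cast
      split_ifs with hb
      · have a1 := hg' _ (mem (i + 1) (by omega)) _ (mem i (by omega))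
        have a2 := hg _ (mem (i + 1) (by omega)) _ (mem (i + 2) (by omega))
        push_cast at a1 a2
        rw [show ((i : ℝ) + 1) * Δ - i * Δ = Δ by ring, abs_of_pos Δ0] at a1
        rw [show ((i : ℝ) + 1) * Δ - (i + 2) * Δ = -Δ by ring, abs_neg, abs_of_pos Δ0,
          show ((i : ℝ) + 2) = i + 1 + 1 by ring] at a2
        nlinarith
      · obtain ⟨p, p', h1, h2, h3⟩ := h _ hb
        have a1 := h2 (((i : ℝ) + 1 + 1) * Δ)
        have a2 := h3 ((i : ℝ) * Δ)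
        nlinarith
    have s1 := Finset.sum_le_sum step
    rw [Finset.sum_range_sub (fun i : ℕ => g' ((i : ℝ) * Δ) - g (((i : ℝ) + 1) * Δ)),
      Finset.sum_add_distrib, Finset.sum_const, Finset.card_range, ← Finset.sum_filter,
      Finset.sum_const] at s1
    have s2 : ((Finset.range N).filter fun i : ℕ => ((i : ℝ) + 1) * Δ ∈ B).card
        ≤ hB.toFinset.card := by
      refine Finset.card_le_card_of_injOn (fun i : ℕ => ((i : ℝ) + 1) * Δ) ?_ ?_
      · intro i hi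
        simpa using (Finset.mem_filter.1 hi).2
      · intro i _ j _ hij
        have := mul_right_cancel₀ Δ0.ne' hij
        exact_mod_cast add_right_cancel this
    have s3 : (((Finset.range N).filter fun i : ℕ => ((i : ℝ) + 1) * Δ ∈ B).card : ℝ) * (2 * C * Δ)
        ≤ hB.toFinset.card * (2 * C * Δ) :=
      mul_le_mul_of_nonneg_right (by exact_mod_cast s2) (by positivity)
    have a1 := hg' 1 (by simp) _ (mem N (by omega))
    have a2 := hg 0 (by simp) _ (mem 1 (by omega))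
    rw [show 1 - (N : ℝ) * Δ = Δ by linarith, abs_of_pos Δ0] at a1
    simp only [Nat.cast_one, one_mul, zero_sub, abs_neg, abs_of_pos Δ0] at a2
    simp only [nsmul_eq_mul, Δ1, Nat.cast_zero, zero_mul, zero_add, one_mul] at s1
    have a3 : (2 * C * (hB.toFinset.card + 1)) / ((N : ℝ) + 1)
        = hB.toFinset.card * (2 * C * Δ) + 2 * C * Δ := by rw [hΔ]; field_simp
    have a4 : (N : ℝ) * (κ * Δ) ≤ κ := by nlinarith
    linarith
  refine le_of_forall_pos_le_add fun ε hε => ?_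
  obtain ⟨N, hN⟩ := exists_nat_gt ((2 * C * (hB.toFinset.card + 1)) / ε)
  refine (key N).trans ?_
  rw [div_lt_iff₀ hε] at hN
  have : (2 * C * (hB.toFinset.card + 1)) / ((N : ℝ) + 1) ≤ ε := by
    rw [div_le_iff₀ (by positivity)]; nlinarith
  linarith

end Vale.Agent.P074
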